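import Vale.Agent.P298.H701.Node

/-!
# P298 (helper701): all the embeddings of the function field of the surface over a chart
-/

noncomputable section

namespace Vale.Agent.P298.H701

open Filter Topology Polynomial Vale.Agent.P298 Vale.Agent.P298.H766 Vale.Agent.P298.H707

variable {f : (Fin 3 → ℂ) → ℂ} {n : ℕ} {P : ℂ × ℂ → ℂ[X]} {v : ℂ × (ℂ × ℂ) → ℂ} {Θ : ℂ × ℂ → ℂ × ℂ} {K : ℕ}
  {ζ : Fin n → ℂ × ℂ → ℂ} {σ ρ : Equiv.Perm (Fin n)} [hirr : Fact (Irreducible (PL n P))]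

/-- **every embedding over the chart is one of the `psiC l`.** -/
theorem exists_eq_psiC (W : WD f n P v) (Z : CR P Θ n K ζ σ ρ) (hΘ : AnalyticAt ℂ Θ 0)
    (h0 : Θ 0 = 0) (hJ : ∃ᶠ q in 𝓝 (0 : ℂ × ℂ), jacP Θ q ≠ 0) (ψ : KF n P →+* LL2)
    (hψ : ∀ x : LL2, ψ (algebraMap LL2 (KF n P) x) =
      liftL (tau Θ hΘ h0 K Z.hK) (tau_injective hΘ h0 hJ Z.hK) x) :
    ∃ l, ψ = psiC W Z hΘ h0 hJ l := by
  have h1 : (PL n P).eval₂ (liftL (tau Θ hΘ h0 K Z.hK) (tau_injective hΘ h0 hJ Z.hK))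
      (ψ (AdjoinRoot.root (PL n P))) = 0 := by
    have h2 : (liftL (tau Θ hΘ h0 K Z.hK) (tau_injective hΘ h0 hJ Z.hK)) =
        ψ.comp (algebraMap LL2 (KF n P)) := by
      ext1 x
      exact (hψ x).symm
    rw [h2, ← hom_eval₂, AdjoinRoot.algebraMap_eq, AdjoinRoot.eval₂_root, map_zero]
  rw [← eval_map, map_PL W Z hΘ h0 hJ, eval_prod, Finset.prod_eq_zero_iff] at h1
  obtain ⟨l, -, hl⟩ := h1
  rw [eval_sub, eval_X, eval_C, sub_eq_zero] at hl
  refine ⟨l, AdjoinRoot.ringHom_ext ?_ ?_⟩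
  · ext1 x
    rw [RingHom.comp_apply, RingHom.comp_apply, ← AdjoinRoot.algebraMap_eq, hψ,
      psiC_algebraMap]
  · rw [hl, psiC_root]

/-- **all minimal polynomials split over the chart.** -/
theorem splits_chart (W : WD f n P v) (Z : CR P Θ n K ζ σ ρ) (hΘ : AnalyticAt ℂ Θ 0)
    (h0 : Θ 0 = 0) (hJ : ∃ᶠ q in 𝓝 (0 : ℂ × ℂ), jacP Θ q ≠ 0) (φ : LL2 →+* LL2)
    (hφ : ∀ x, φ x = liftL (tau Θ hΘ h0 K Z.hK) (tau_injective hΘ h0 hJ Z.hK) x)
    (g : KF n P) : ((minpoly LL2 g).map φ).Splits := by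
  obtain rfl : φ = liftL (tau Θ hΘ h0 K Z.hK) (tau_injective hΘ h0 hJ Z.hK) := RingHom.ext hφ
  have key : ∀ (M : Type) [Field M] (φ : LL2 →+* M), ((PL n P).map φ).Splits →
      ((minpoly LL2 g).map φ).Splits := by
    intro M _ φ hs
    let := φ.toAlgebra
    have h1 : g ∈ IntermediateField.adjoin LL2 {AdjoinRoot.root (PL n P)} := by
      rw [IntermediateField.adjoin_root_eq_top]
      exact IntermediateField.mem_top
    refine IntermediateField.splits_of_mem_adjoin LL2 (KF n P) (L := M) (fun x hx => ?_) h1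
    rw [Set.mem_singleton_iff] at hx
    subst hx
    refine ⟨AdjoinRoot.isIntegral_root (monicPL W).ne_zero, ?_⟩
    rw [AdjoinRoot.minpoly_root (monicPL W).ne_zero, (monicPL W).leadingCoeff, inv_one, map_one,
      mul_one]
    exact hs
  refine key LL2 _ ?_
  rw [map_PL W Z hΘ h0 hJ]
  exact Splits.prod fun l _ => Splits.X_sub_C _

end Vale.Agent.P298.H701
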