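import Vale.Agent.P298.H416.Surf4

/-!
# P298 (helper701): regular functions on a `Surf`
-/

set_option linter.style.haveILetI false

noncomputable section

namespace Vale.Agent.P298.H701.SurfR

open MvPowerSeries Vale.Agent.P298.FF Vale.Agent.P298.H400 Vale.Agent.P298.H416
  Vale.Agent.P298.H416.Surf

variable {L K R : Type} [Field L] [Algebra ℂ L] [Field K] [Algebra ℂ K] [Algebra L K]
    [IsScalarTower ℂ L K] [FiniteDimensional L K] [Algebra.IsSeparable L K]
    [CommRing R] [Algebra ℂ R] [Algebra R K] [IsScalarTower ℂ R K]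
    {S : Surf L K R}

/-- the series of a regular function in a chart. -/
theorem exists_ser {p : S.V × Option ℂ} (ψ : S.Emb p) (h : R) :
    ∃ F : H416.R2, ψ.f (algebraMap R K h) = algebraMap H416.R2 Om F :=
  S.hR p ψ.f (fun x => ψ.comm x) h

theorem map_ne (S : Surf L K R) {h : R} (hh : h ≠ 0) : algebraMap R K h ≠ 0 := by
  intro h0
  rw [← (algebraMap R K).map_zero] at h0
  exact hh (S.inj h0)

/-- a place on every component. -/
theorem exists_place (S : Surf L K R) (i : S.I) : ∃ q : S.Q, q.1 = i := by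
  obtain ⟨P⟩ := nonempty_Plk (k := ℂ) (F := IsLocalRing.ResidueField i.2.val)
  exact ⟨⟨i, P⟩, rfl⟩

theorem vv_nonneg (S : Surf L K R) (i : S.I) (h : R) : 0 ≤ S.vv i (algebraMap R K h) := by
  obtain ⟨q, rfl⟩ := exists_place S i
  obtain ⟨F, hF⟩ := exists_ser (S.psq q) h
  have h1 := S.psq_v q (algebraMap R K h)
  have h2 := (Ta_nonneg F).1
  rw [← hF, h1] at h2
  exact nonneg_of_mul_nonneg_right h2 (S.ka_pos q)

/-- **the field `hR`.** -/
theorem hR_mem (S : Surf L K R) (i : S.I) (h : R) : algebraMap R K h ∈ i.2.val :=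
  ((S.hvv i).mem _).2 (Or.inr (vv_nonneg S i h))

/-- the embedding at a node and its partner. -/
theorem exists_pair {q q' : S.Q} (hn : S.nb q = some q') :
    ∃ (p p' : S.V × Option ℂ) (ψ : S.Emb p) (hp : S.nd p = some p'),
      pl ψ = q ∧ pl (ψ.swE hp) = q' := by
  rcases h : S.nd (S.cht q) with _ | p'
  · rw [nb_none h] at hn
    simp at hn
  · refine ⟨_, p', S.psq q, h, pl_psq q, ?_⟩
    rw [nb_some h] at hn
    exact Option.some.inj hn

/-- the four numbers of an element at a node. -/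
theorem node_vals {q q' : S.Q} (hn : S.nb q = some q') (z : K) :
    ∃ w : Om, Ta.v w = S.ka q * S.vv q.1 z ∧ Ta.lam w = S.lam q z ∧
      Ta.v (swOm w) = S.ka q' * S.vv q'.1 z ∧ Ta.lam (swOm w) = S.lam q' z := by
  obtain ⟨p, p', ψ, hp, rfl, rfl⟩ := exists_pair hn
  exact ⟨ψ.f z, pl_v ψ z, pl_lam ψ z, pl_v (ψ.swE hp) z, pl_lam (ψ.swE hp) z⟩

theorem node_vals_reg {q q' : S.Q} (hn : S.nb q = some q') {h : R} (hh : h ≠ 0) :
    ∃ F : H416.R2, F ≠ 0 ∧ Ta.v (algebraMap H416.R2 Om F) = S.ka q * S.vv q.1 (algebraMap R K h) ∧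
      Ta.lam (algebraMap H416.R2 Om F) = S.lam q (algebraMap R K h) ∧
      Ta.v (algebraMap H416.R2 Om (sw F)) = S.ka q' * S.vv q'.1 (algebraMap R K h) ∧
      Ta.lam (algebraMap H416.R2 Om (sw F)) = S.lam q' (algebraMap R K h) := by
  obtain ⟨p, p', ψ, hp, rfl, rfl⟩ := exists_pair hn
  obtain ⟨F, hF⟩ := exists_ser ψ h
  have hs : (ψ.swE hp).f (algebraMap R K h) = algebraMap H416.R2 Om (sw F) := by
    rw [Emb.swE_f, hF, swOm_alg]
  refine ⟨F, ?_, ?_, ?_, ?_, ?_⟩
  · rintro rfl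
    rw [map_zero, _root_.map_eq_zero] at hF
    exact map_ne S hh hF
  · rw [← hF, pl_v]
  · rw [← hF, pl_lam]
  · rw [← hs, pl_v]
  · rw [← hs, pl_lam]

/-- `node_le` with `ka` of the partner. -/
theorem node_le' {q q' : S.Q} (hn : S.nb q = some q') {h : R} (hh : h ≠ 0) :
    S.ka q' * S.vv q'.1 (algebraMap R K h) ≤ S.lam q (algebraMap R K h) := by
  obtain ⟨F, hF, -, h2, h3, -⟩ := node_vals_reg hn hh
  rw [← h2, ← h3]
  exact (Ta_sw_le hF).1

/-- `node_nv` with `ka`. -/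
theorem node_nv' {q q' : S.Q} (hn : S.nb q = some q') {h : R} (hh : h ≠ 0)
    (he : S.lam q (algebraMap R K h) = S.ka q' * S.vv q'.1 (algebraMap R K h)) :
    S.lam q' (algebraMap R K h) = S.ka q * S.vv q.1 (algebraMap R K h) := by
  obtain ⟨F, hF, h1, h2, h3, h4⟩ := node_vals_reg hn hh
  rw [← h2, ← h3] at he
  obtain ⟨i, k, U, hU, hFU⟩ := (Ta_sw_le hF).2 he
  obtain ⟨m1, -, -, m4⟩ := Ta_mono hU hFU
  rw [← h1, ← h4, m1, m4]

/-- **the field `node_le`**. -/
theorem node_le (q q' : S.Q) (hn : S.nb q = some q') (h : R) (hh : h ≠ 0) :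
    S.e2 q * S.vv q'.1 (algebraMap R K h) ≤ S.lam q (algebraMap R K h) := by
  rw [e2_node hn]
  exact node_le' hn hh

/-- **the field `node_nv`**. -/
theorem node_nv (q q' : S.Q) (hn : S.nb q = some q') (h : R) (hh : h ≠ 0)
    (he : S.lam q (algebraMap R K h) = S.e2 q * S.vv q'.1 (algebraMap R K h)) :
    S.lam q' (algebraMap R K h) = S.e2 q' * S.vv q.1 (algebraMap R K h) := by
  rw [e2_node hn] at he
  rw [e2_node' hn]
  exact node_nv' hn hh he

/-- second orders of regular functions. -/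
theorem lam_nonneg (q : S.Q) (h : R) : 0 ≤ S.lam q (algebraMap R K h) := by
  obtain ⟨F, hF⟩ := exists_ser (S.psq q) h
  rw [Surf.lam, hF]
  exact (Ta_nonneg F).2

/-- **the field `free_le`.** -/
theorem free_le (q : S.Q) (_ : S.nb q = none) (h : R) (_ : h ≠ 0) :
    0 ≤ S.lam q (algebraMap R K h) := lam_nonneg q h

/-- **the field `mm_v`**: functions whose series are divisible by the first coordinate. -/
theorem mm_v (i : S.I) {h : R} (hh : h ≠ 0)
    (H : ∀ (p : S.V × Option ℂ) (ψ : S.Emb p), ∃ F : H416.R2,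
      ψ.f (algebraMap R K h) = algebraMap H416.R2 Om (X 0 * F)) :
    1 ≤ S.vv i (algebraMap R K h) := by
  obtain ⟨q, rfl⟩ := exists_place S i
  obtain ⟨F, hF⟩ := H _ (S.psq q)
  have h1 := S.psq_v q (algebraMap R K h)
  have hne : X 0 * F ≠ 0 := by
    intro h0
    rw [h0, map_zero, _root_.map_eq_zero] at hF
    exact map_ne S hh hF
  have h2 : 1 ≤ Ta.v (algebraMap H416.R2 Om (X 0 * F)) := by
    have h3 : ((1 : ℕ) : ℤ) ≤ (sA (X 0 * F)).order := by
      rw [le_order_iff hne, pow_one]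
      exact Dvd.intro _ rfl
    rw [Ta_v, jOm_alg]
    exact_mod_cast h3
  rw [← hF, h1] at h2
  by_contra hcon
  have h4 : S.ka q * S.vv q.1 (algebraMap R K h) ≤ 0 :=
    mul_nonpos_of_nonneg_of_nonpos (S.ka_pos q).le (by omega)
  omega

/-- the form with divisibility. -/
theorem mm_v' (i : S.I) {h : R} (hh : h ≠ 0)
    (H : ∀ (p : S.V × Option ℂ) (ψ : S.Emb p), ∃ F : H416.R2,
      ψ.f (algebraMap R K h) = algebraMap H416.R2 Om F ∧ X 0 ∣ F) :
    1 ≤ S.vv i (algebraMap R K h) := by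
  refine mm_v i hh fun p ψ => ?_
  obtain ⟨F, hF, G, rfl⟩ := H p ψ
  exact ⟨G, hF⟩

end Vale.Agent.P298.H701.SurfR
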