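import Vale.Agent.P298.H701.LkOrd
import Vale.Agent.P298.H701.SurfR

/-!
# P298 (helper701): the places of the charts, over a `Surf`
-/

set_option linter.style.haveILetI false

noncomputable section

namespace Vale.Agent.P298.H701.LkQ

open MvPowerSeries Vale.Agent.P298.FF Vale.Agent.P298.H400 Vale.Agent.P298.H416
  Vale.Agent.P298.H416.Surf Vale.Agent.P298.H471 Filter Topology

section abs

variable {L K R : Type} [Field L] [Algebra ℂ L] [Field K] [Algebra ℂ K] [Algebra L K]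
    [IsScalarTower ℂ L K] [FiniteDimensional L K] [Algebra.IsSeparable L K]
    [CommRing R] [Algebra ℂ R] [Algebra R K] [IsScalarTower ℂ R K]
    {S : Surf L K R}

/-- the orders at the partner. -/
theorem sw_v {p : S.V × Option ℂ} (ψ : S.Emb p) {q' : S.Q} (hn : S.nb (pl ψ) = some q') (z : K) :
    Ta.v (swOm (ψ.f z)) = S.e2 (pl ψ) * S.vv q'.1 z ∧ Ta.lam (swOm (ψ.f z)) = S.lam q' z := by
  rcases h : S.nd p with _ | p'
  · rw [nb_pl_none ψ h] at hn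
    simp at hn
  · have h1 := nb_pl ψ h
    rw [hn] at h1
    obtain rfl := Option.some.inj h1
    rw [e2_node hn, ← Emb.swE_f ψ h]
    exact ⟨pl_v _ z, pl_lam _ z⟩

variable {n : ℕ} (E : ∀ p : S.V × Option ℂ, Fin n → S.Emb p)

/-- the place of a chart. -/
def q (p : S.V × Option ℂ) (l : Fin n) : S.Q := pl (E p l)

theorem q_surj (hE : ∀ p (ψ : S.Emb p), ∃ l, ψ = E p l) (t : S.Q) : ∃ p l, q E p l = t := by
  obtain ⟨p, ψ, hψ, -⟩ := exists_pl t
  obtain ⟨l, rfl⟩ := hE p ψ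
  exact ⟨p, l, hψ⟩

theorem q_cht (p : S.V × Option ℂ) (l : Fin n) : S.cht (q E p l) = p := cht_pl _

theorem q_fin (t : S.Q) : {x : (S.V × Option ℂ) × Fin n | q E x.1 x.2 = t}.Finite := by
  refine ((Set.finite_univ (α := Fin n)).image fun l => (S.cht t, l)).subset fun x hx => ?_
  have h1 : q E x.1 x.2 = t := hx
  refine ⟨x.2, Set.mem_univ _, ?_⟩
  refine Prod.ext ?_ rfl
  change S.cht t = x.1
  rw [← h1, q_cht]

/-- the ramification of a chart. -/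
def kk (p : S.V × Option ℂ) (l : Fin n) : ℕ := (S.ka (q E p l)).toNat

theorem kk_cast (p : S.V × Option ℂ) (l : Fin n) : (kk E p l : ℤ) = S.ka (q E p l) :=
  Int.toNat_of_nonneg (S.ka_pos _).le

theorem kk_pos (p : S.V × Option ℂ) (l : Fin n) : 0 < kk E p l := by
  have h1 := S.ka_pos (q E p l)
  rw [← kk_cast] at h1
  exact_mod_cast h1

end abs

section ord

variable {f : (Fin 3 → ℂ) → ℂ} {L K : Type} [Field L] [Algebra ℂ L] [Field K] [Algebra ℂ K]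
    [Algebra L K] [IsScalarTower ℂ L K] [FiniteDimensional L K] [Algebra.IsSeparable L K]
    [Algebra (RV f) K] [IsScalarTower ℂ (RV f) K] {S : Surf L K (RV f)}

/-- **the field `ord` of `Link`, over a `Surf`.** -/
theorem surf_ord {p : S.V × Option ℂ} (ψ : S.Emb p)
    {ch : ℂ × ℂ → Fin 3 → ℂ} {h : (Fin 3 → ℂ) → ℂ}
    (hψ : ψ.f (algebraMap (RV f) K (cl f h)) =
      algebraMap (MvPowerSeries (Fin 2) ℂ) Om (ser2 fun p => h (ch p)))
    (han : AnalyticAt ℂ (fun p => h (ch p)) 0) (h0 : cl f h ≠ 0) :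
    ∃ (α β δ : ℕ) (u : ℂ × ℂ → ℂ) (g : ℂ → ℂ),
    (α : ℤ) = (S.ka (pl ψ)).toNat * S.vv (pl ψ).1 (algebraMap (RV f) K (cl f h)) ∧
    (β : ℤ) = S.e2 (pl ψ) * (S.nb (pl ψ)).elim 0 (fun q' =>
      S.vv q'.1 (algebraMap (RV f) K (cl f h))) ∧
    ((β + δ : ℕ) : ℤ) = S.lam (pl ψ) (algebraMap (RV f) K (cl f h)) ∧
    AnalyticAt ℂ u 0 ∧ AnalyticAt ℂ g 0 ∧ g 0 ≠ 0 ∧
    (∀ᶠ p in 𝓝 (0 : ℂ × ℂ), h (ch p) = p.1 ^ α * p.2 ^ β * u p) ∧
    (∀ᶠ b in 𝓝 (0 : ℂ), u (0, b) = b ^ δ * g b) := by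
  have hz : algebraMap (RV f) K (cl f h) ≠ 0 := SurfR.map_ne S h0
  have hs : ser2 (fun p => h (ch p)) ≠ 0 := by
    intro h1
    rw [h1, map_zero, _root_.map_eq_zero] at hψ
    exact hz hψ
  have hka : ((S.ka (pl ψ)).toNat : ℤ) = S.ka (pl ψ) := Int.toNat_of_nonneg (S.ka_pos _).le
  have e1 : (sA (ser2 fun p => h (ch p))).order =
      (S.ka (pl ψ)).toNat * S.vv (pl ψ).1 (algebraMap (RV f) K (cl f h)) := by
    rw [sA_order_eq, ← hψ, pl_v, hka]
  have e2 : (H701.lam (sA (ser2 fun p => h (ch p)))).2 =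
      S.lam (pl ψ) (algebraMap (RV f) K (cl f h)) := by
    rw [Ta_sA, ← hψ, pl_lam]
  obtain ⟨α, hα⟩ := Int.eq_ofNat_of_zero_le (order_sA_nonneg (ser2 fun p => h (ch p)))
  obtain ⟨β, hβ, hβ'⟩ : ∃ β : ℕ, (β : ℤ) = S.e2 (pl ψ) * (S.nb (pl ψ)).elim 0 (fun q' =>
      S.vv q'.1 (algebraMap (RV f) K (cl f h))) ∧
      (β : ℤ) ≤ (sB (ser2 fun p => h (ch p))).order := by
    rcases hn : S.nb (pl ψ) with _ | q'
    · exact ⟨0, by simp, order_sA_nonneg _⟩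
    · have hb' : (sB (ser2 fun p => h (ch p))).order =
          S.e2 (pl ψ) * S.vv q'.1 (algebraMap (RV f) K (cl f h)) := by
        rw [sB_order_eq, ← hψ, (sw_v ψ hn _).1]
      obtain ⟨β, hβ⟩ := Int.eq_ofNat_of_zero_le (order_sA_nonneg (sw (ser2 fun p => h (ch p))))
      have hβ2 : (sB (ser2 fun p => h (ch p))).order = β := hβ
      exact ⟨β, by rw [← hβ2, hb']; rfl, hβ2.ge⟩
  obtain ⟨δ, u, g, hu, hg, hg0, hx, hbb, hd⟩ := exists_ord_form han hs (α := α) (β := β)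
    hα hβ'
  exact ⟨α, β, δ, u, g, hα.symm.trans e1, hβ, hd.trans e2, hu, hg, hg0, hx, hbb⟩

end ord

end Vale.Agent.P298.H701.LkQ
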