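import Vale.Agent.P298.H701.Br8

/-!
# P298, row E1-BRIDGE (helper701), part 9: the form of a germ with given orders
-/

namespace Vale.Agent.P298.H701

open Filter Topology Metric Vale.Agent.P298 Vale.Agent.P298.H766 Vale.Agent.P298.H707
  Vale.Agent.P298.H379 Vale.Agent.P298.H983

/-- adding a multiple of `a` does not change the orders of an element of order `0` along
`a = 0`. -/
theorem lam_add_X0 {F : MvPowerSeries (Fin 2) ℂ} (hF : F ≠ 0) (h : (sA F).order = 0)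
    (W : MvPowerSeries (Fin 2) ℂ) : lam (sA (F + MvPowerSeries.X 0 * W)) = lam (sA F) := by
  have hc : (sA (F + MvPowerSeries.X 0 * W)).coeff 0 = (sA F).coeff 0 := by
    rw [map_add, HahnSeries.coeff_add, add_eq_left]
    by_cases hW : W = 0
    · rw [hW, mul_zero, map_zero, HahnSeries.coeff_zero]
    · have h1 : ((1 : ℕ) : ℤ) ≤ (sA (MvPowerSeries.X 0 * W)).order := by
        rw [le_order_iff (mul_ne_zero (X_ne_zero 0) hW), pow_one]
        exact Dvd.intro _ rfl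
      exact HahnSeries.coeff_eq_zero_of_lt_order (lt_of_lt_of_le (by norm_num) h1)
  have h0 : (sA F).coeff 0 ≠ 0 := by
    intro h1
    rw [← h] at h1
    exact sA_ne_zero.2 hF (HahnSeries.coeff_order_eq_zero.1 h1)
  have h2 : (sA (F + MvPowerSeries.X 0 * W)).order = 0 := by
    refine le_antisymm (HahnSeries.order_le_of_coeff_ne_zero ?_) (order_sA_nonneg _)
    rw [hc]
    exact h0
  unfold lam
  rw [HahnSeries.leadingCoeff_eq, HahnSeries.leadingCoeff_eq, h2, h, hc]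

/-- the order along `b = 0` of a function of `b`, and the orders of a germ not vanishing on
`a = 0`. -/
theorem exists_axis_form {u : ℂ × ℂ → ℂ} (hu : AnalyticAt ℂ u 0) (hu0 : ser2 u ≠ 0)
    (h : (sA (ser2 u)).order = 0) : ∃ (δ : ℕ) (g : ℂ → ℂ), AnalyticAt ℂ g 0 ∧ g 0 ≠ 0 ∧
      (∀ᶠ b in 𝓝 (0 : ℂ), u (0, b) = b ^ δ * g b) ∧ lam (sA (ser2 u)) = (0, (δ : ℤ)) := by
  have hax : AnalyticAt ℂ (fun b : ℂ => u (0, b)) 0 :=
    AnalyticAt.comp_of_eq hu (analyticAt_const.prod analyticAt_id) rfl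
  -- division by `a`
  have hφ : AnalyticAt ℂ (fun q : ℂ × ℂ => u (0, q.2)) 0 :=
    AnalyticAt.comp_of_eq hu (analyticAt_const.prod analyticAt_snd) rfl
  have hd : MvPowerSeries.X 0 ∣ ser2 (fun q => u q - u (0, q.2)) := by
    have h1 : Hol fun z : Fin 2 → ℂ => u (z 0, z 1) - u (0, z 1) := (hol2 hu).sub (hol2 hφ)
    refine (X_dvd_ser_iff h1 0).2 (exists_div_coord h1 0 ?_)
    refine Eventually.of_forall fun x => ?_
    simp [killL_apply]
  obtain ⟨W, hW⟩ := hd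
  have hsplit : ser2 u = ser2 (fun q => u (0, q.2)) + MvPowerSeries.X 0 * W := by
    rw [← hW, ser2_sub hu hφ]
    ring
  -- the restriction does not vanish
  have hne : ¬ ∀ᶠ b in 𝓝 (0 : ℂ), u (0, b) = 0 := by
    intro h0
    have h1 : ser2 (fun q => u (0, q.2)) = 0 := by
      rw [ser2_eq_zero_iff hφ]
      exact (continuous_snd.tendsto (0 : ℂ × ℂ)).eventually h0
    rw [h1, zero_add] at hsplit
    have h2 : ((1 : ℕ) : ℤ) ≤ (sA (ser2 u)).order := by
      rw [le_order_iff hu0, pow_one]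
      exact ⟨W, hsplit⟩
    rw [h] at h2
    norm_num at h2
  obtain ⟨δ, g, hg, hg0, hgt⟩ := (AnalyticAt.exists_eventuallyEq_pow_smul_nonzero_iff hax).2 hne
  simp only [sub_zero, smul_eq_mul] at hgt
  refine ⟨δ, g, hg, hg0, hgt, ?_⟩
  have hg2 : AnalyticAt ℂ (fun q : ℂ × ℂ => g q.2) 0 :=
    AnalyticAt.comp_of_eq hg analyticAt_snd rfl
  have h3 : MonU (fun q : ℂ × ℂ => u (0, q.2)) 0 δ := by
    refine ⟨fun q => g q.2, hg2, hg0, ?_⟩
    filter_upwards [(continuous_snd.tendsto (0 : ℂ × ℂ)).eventually hgt] with q hq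
    rw [hq, pow_zero, one_mul]
  have h4 := MonU.lam_sA h3
  have h5 : ser2 (fun q => u (0, q.2)) ≠ 0 := by
    intro h0
    rw [ser2_eq_zero_iff hφ] at h0
    apply hne
    have h6 : Tendsto (fun b : ℂ => ((0, b) : ℂ × ℂ)) (𝓝 0) (𝓝 0) :=
      (Continuous.prodMk_right (0 : ℂ)).tendsto 0
    exact h6.eventually h0
  have h6 : (sA (ser2 fun q => u (0, q.2))).order = 0 := congrArg Prod.fst h4
  rw [hsplit, lam_add_X0 h5 h6, h4]
  rfl

/-- **The form of a germ with given orders** (for the field `ord` of `H471.Link`). -/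
theorem exists_ord_form {g : ℂ × ℂ → ℂ} (hg : AnalyticAt ℂ g 0) (h0 : ser2 g ≠ 0) {α β : ℕ}
    (hα : (lam (sA (ser2 g))).1 = α) (hβ : (β : ℤ) ≤ (sB (ser2 g)).order) :
    ∃ (δ : ℕ) (u : ℂ × ℂ → ℂ) (g' : ℂ → ℂ), AnalyticAt ℂ u 0 ∧ AnalyticAt ℂ g' 0 ∧ g' 0 ≠ 0 ∧
      (∀ᶠ q in 𝓝 (0 : ℂ × ℂ), g q = q.1 ^ α * q.2 ^ β * u q) ∧
      (∀ᶠ b in 𝓝 (0 : ℂ), u (0, b) = b ^ δ * g' b) ∧ ((β + δ : ℕ) : ℤ) = (lam (sA (ser2 g))).2 := by
  have hα' : (α : ℤ) ≤ (sA (ser2 g)).order := le_of_eq hα.symm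
  obtain ⟨u, hu, hx⟩ := (monomial_dvd_iff hg α β).1 (dvd_of_orders h0 hα' hβ)
  have h1 : ser2 g = MvPowerSeries.X 0 ^ α * MvPowerSeries.X 1 ^ β * ser2 u := by
    rw [ser2_congr hx, ser2_mul ((analyticAt_fst.fun_pow α).fun_mul (analyticAt_snd.fun_pow β)) hu,
      ser2_mul (analyticAt_fst.fun_pow α) (analyticAt_snd.fun_pow β), ser2_pow analyticAt_fst,
      ser2_pow analyticAt_snd, ser2_fst, ser2_snd]
  have hu0 : ser2 u ≠ 0 := by
    intro h2
    rw [h2, mul_zero] at h1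
    exact h0 h1
  have h2 : lam (sA (ser2 g)) = ((α : ℤ), (β : ℤ)) + lam (sA (ser2 u)) := by
    rw [h1, map_mul, lam_mul (sA_ne_zero.2 (mono_ne_zero α β)) (sA_ne_zero.2 hu0), lam_monomial]
  have h3 : (sA (ser2 u)).order = 0 := by
    have h4 := congrArg Prod.fst h2
    rw [hα, Prod.fst_add] at h4
    have h5 : (lam (sA (ser2 u))).1 = (sA (ser2 u)).order := rfl
    rw [h5] at h4
    simp only at h4
    omega
  obtain ⟨δ, g', hg', hg0', hb, hl⟩ := exists_axis_form hu hu0 h3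
  refine ⟨δ, u, g', hu, hg', hg0', hx, hb, ?_⟩
  rw [h2, hl, Prod.snd_add]
  push_cast
  rfl

end Vale.Agent.P298.H701
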