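import Vale.Agent.P298.H701.LkQ
import Vale.Agent.P298.H416.Surf5

/-!
# P298 (helper701): the link over a `Surf`
-/

set_option linter.style.haveILetI false

noncomputable section

namespace Vale.Agent.P298.H701.LkQ

open Vale.Agent.P298 Vale.Agent.P298.H707 Vale.Agent.P298.FF Vale.Agent.P298.H400
  Vale.Agent.P298.H416 Vale.Agent.P298.H416.Surf Vale.Agent.P298.H471 Filter Topology Polynomial

variable {f : (Fin 3 → ℂ) → ℂ} {L F : Type} [Field L] [Algebra ℂ L] [Field F] [Algebra ℂ F]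
    [Algebra L F] [IsScalarTower ℂ L F] [FiniteDimensional L F] [Algebra.IsSeparable L F]
    [Algebra (RV f) F] [IsScalarTower ℂ (RV f) F] {S : Surf L F (RV f)}
    {κ : Type*} {Θ : κ → ℂ × ℂ → ℂ × ℂ} {n : ℕ}
    {P : ℂ × ℂ → ℂ[X]} {v : ℂ × (ℂ × ℂ) → ℂ} {K : κ → ℕ} {ζ : κ → Fin n → ℂ × ℂ → ℂ}
    {σ ρ : κ → Equiv.Perm (Fin n)}

/-- the data of a link over a `Surf`. -/
structure SLink (M : Model f Θ n P v K ζ σ ρ) (S : Surf L F (RV f)) (X : S.Ext) where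
  /-- the chart of a place of the plane. -/
  tp : κ → S.V × Option ℂ
  tp_bij : Function.Bijective tp
  /-- the embeddings. -/
  E : ∀ i, Fin n → S.Emb (tp i)
  hE : ∀ i (ψ : S.Emb (tp i)), ∃ l, ψ = E i l
  hser : ∀ i l h, Hol h → (E i l).f (algebraMap (RV f) F (cl f h)) =
    algebraMap (MvPowerSeries (Fin 2) ℂ) Om (H701.ser2 fun p => h (M.ch i l p))
  /-- orders of the Jacobian of `Θ`. -/
  a : κ → ℕ
  b : κ → ℕ
  jac : ∀ i, MonU (jacP (Θ i)) (a i) (b i)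
  /-- orders of `∂₃ f`. -/
  c : κ → Fin n → ℕ
  d : κ → Fin n → ℕ
  pd2 : ∀ i l, MonU (fun p => pd 2 f (M.ch i l p)) (c i l) (d i l)
  canA : ∀ i l, (K i * (a i + 1) : ℤ) - c i l = S.ka (pl (E i l)) * (X.Kc (pl (E i l)).1 + 1)
  canB : ∀ i l, (K i * (b i + 1) : ℤ) - d i l =
    S.e2 (pl (E i l)) * ((S.nb (pl (E i l))).elim 1 (fun p => X.Kc p.1 + 1))
  inj : ∀ i, ∃ r : ℝ, 0 < r ∧ ∀ s s' : ℂ × ℂ, ‖s‖ < r → ‖s'‖ < r → s.1 ≠ 0 → s.2 ≠ 0 →
    s'.1 ≠ 0 → s'.2 ≠ 0 → Θ i s = Θ i s' → s = s'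
  exc : ∀ i, ∀ᶠ t : ℂ in 𝓝 0, Θ i (0, t) = 0
  anchor : ∀ G : S.I → ℤ, ∑ j, (S.cmodel X).nodeData.rC j *
      (2 * G j + (S.cmodel X).nodeData.A j + (S.cmodel X).nodeData.K j) ≤
    2 * ((S.cmodel X).c (G + (S.cmodel X).nodeData.A) - (S.cmodel X).c G)

namespace SLink

variable {M : Model f Θ n P v K ζ σ ρ} {X : S.Ext} (Z : SLink M S X)

theorem kk_cast (i : κ) (l : Fin n) : ((S.ka (pl (Z.E i l))).toNat : ℤ) = S.ka (pl (Z.E i l)) :=
  Int.toNat_of_nonneg (S.ka_pos _).le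

/-- **the link.** -/
def link : Link M (S.cmodel X) where
  q i l := pl (Z.E i l)
  q_surj t := by
    obtain ⟨p, ψ, hψ, -⟩ := exists_pl (S := S) t
    obtain ⟨i, rfl⟩ := Z.tp_bij.2 p
    obtain ⟨l, rfl⟩ := Z.hE i ψ
    exact ⟨i, l, hψ⟩
  q_fin t := by
    have h1 : ∀ x : κ × Fin n, pl (Z.E x.1 x.2) = t → Z.tp x.1 = S.cht t := by
      intro x hx
      rw [← hx]
      exact (cht_pl (Z.E x.1 x.2)).symm
    have h2 : (Set.univ : Set (Fin n)).Finite := Set.finite_univ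
    rcases Set.eq_empty_or_nonempty {x : κ × Fin n | pl (Z.E x.1 x.2) = t} with h3 | ⟨x0, hx0⟩
    · exact h3 ▸ Set.finite_empty
    · refine (h2.image fun l => (x0.1, l)).subset fun x hx => ⟨x.2, Set.mem_univ _, ?_⟩
      exact Prod.ext (Z.tp_bij.1 ((h1 x0 hx0).trans (h1 x hx).symm)) rfl
  ka i l := (S.ka (pl (Z.E i l))).toNat
  ka_pos i l := by
    have h1 := S.ka_pos (pl (Z.E i l))
    rw [← Z.kk_cast] at h1
    exact_mod_cast h1
  ord h hh h0 i l := surf_ord (Z.E i l) (Z.hser i l h hh)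
    (AnalyticAt.comp_of_eq hh (M.an_ch i l) (M.ch_zero i l)) h0
  zero h hh h0 i l := link_zero (Z.E i l).f (Z.hser i l h hh)
    (AnalyticAt.comp_of_eq hh (M.an_ch i l) (M.ch_zero i l)) h0
  a := Z.a
  b := Z.b
  jac := Z.jac
  c := Z.c
  d := Z.d
  pd2 := Z.pd2
  canA i l := by
    rw [Z.kk_cast]
    exact Z.canA i l
  canB := Z.canB
  inj := Z.inj
  exc := Z.exc
  anchor := Z.anchor

end SLink

end Vale.Agent.P298.H701.LkQ
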