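import Vale.Agent.P298.H701.Srf2

/-!
# P298, row SURF-IN (helper701), part 3: the embeddings of the function field given by the charts
-/

noncomputable section

namespace Vale.Agent.P298.H701

open Filter Topology Metric Vale.Agent.P298 Vale.Agent.P298.H766 Vale.Agent.P298.H707
  Vale.Agent.P298.H379 Vale.Agent.P298.H983 Polynomial

/-! ### compositions of plane maps, powers -/

theorem bas_comp {Θ Ξ : ℂ × ℂ → ℂ × ℂ} (hΘ : AnalyticAt ℂ Θ 0) (h0 : Θ 0 = 0)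
    (hΞ : AnalyticAt ℂ Ξ 0) (h0' : Ξ 0 = 0) (hc : AnalyticAt ℂ (fun q => Θ (Ξ q)) 0)
    (h0c : Θ (Ξ 0) = 0) (F : R2) :
    bas (fun q => Θ (Ξ q)) hc h0c F = bas Ξ hΞ h0' (bas Θ hΘ h0 F) := by
  have h : bas (fun q => Θ (Ξ q)) hc h0c = (bas Ξ hΞ h0').comp (bas Θ hΘ h0) := by
    refine algHom_ext fun i => ?_
    rw [AlgHom.comp_apply]
    fin_cases i
    · have e1 : bas (fun q => Θ (Ξ q)) hc h0c (MvPowerSeries.X 0) = ser2 fun q => (Θ (Ξ q)).1 := by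
        rw [bas, subΦ, sub_X]
        rfl
      have e2 : bas Θ hΘ h0 (MvPowerSeries.X 0) = ser2 fun q => (Θ q).1 := by
        rw [bas, subΦ, sub_X]
        rfl
      change bas (fun q => Θ (Ξ q)) hc h0c (MvPowerSeries.X 0) =
        bas Ξ hΞ h0' (bas Θ hΘ h0 (MvPowerSeries.X 0))
      rw [e1, e2, bas_ser2 hΞ h0' (analyticAt_fst_apply hΘ)]
    · have e1 : bas (fun q => Θ (Ξ q)) hc h0c (MvPowerSeries.X 1) = ser2 fun q => (Θ (Ξ q)).2 := by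
        rw [bas, subΦ, sub_X]
        rfl
      have e2 : bas Θ hΘ h0 (MvPowerSeries.X 1) = ser2 fun q => (Θ q).2 := by
        rw [bas, subΦ, sub_X]
        rfl
      change bas (fun q => Θ (Ξ q)) hc h0c (MvPowerSeries.X 1) =
        bas Ξ hΞ h0' (bas Θ hΘ h0 (MvPowerSeries.X 1))
      rw [e1, e2, bas_ser2 hΞ h0' (analyticAt_snd_apply hΘ)]
  exact DFunLike.congr_fun h F

theorem frequently_pair : ∃ᶠ q in 𝓝 (0 : ℂ × ℂ), q.1 ≠ 0 ∧ q.2 ≠ 0 := by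
  intro h
  have h1 : Tendsto (fun t : ℂ => ((t, t) : ℂ × ℂ)) (𝓝 0) (𝓝 0) :=
    (continuous_id.prodMk continuous_id).tendsto 0
  have h2 := h1.eventually h
  have h3 : ∃ᶠ t in 𝓝 (0 : ℂ), t ≠ 0 := by
    have h4 : ∃ᶠ t in 𝓝[≠] (0 : ℂ), t ≠ 0 :=
      (eventually_mem_nhdsWithin (a := (0 : ℂ)) (s := {0}ᶜ)).frequently
    exact h4.filter_mono nhdsWithin_le_nhds
  obtain ⟨t, ht, ht'⟩ := (h3.and_eventually h2).exists
  exact ht' ⟨ht, ht⟩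

theorem jacP_powK {K : ℕ} (q : ℂ × ℂ) :
    jacP (fun q : ℂ × ℂ => (q.1 ^ K, q.2 ^ K)) q = K * q.1 ^ (K - 1) * (K * q.2 ^ (K - 1)) := by
  rw [jacP, (hasFDerivAt_powK K q).fderiv]
  simp

theorem basK_injective {K : ℕ} (hK : K ≠ 0) :
    Function.Injective (bas (fun q : ℂ × ℂ => (q.1 ^ K, q.2 ^ K)) (analyticAt_powK K 0)
      (powK_zero hK)) := by
  refine bas_injective _ _ (frequently_pair.mono fun q hq => ?_)
  rw [jacP_powK]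
  have hKc : (K : ℂ) ≠ 0 := by exact_mod_cast hK
  exact mul_ne_zero (mul_ne_zero hKc (pow_ne_zero _ hq.1)) (mul_ne_zero hKc (pow_ne_zero _ hq.2))

variable {Θ : ℂ × ℂ → ℂ × ℂ}

theorem bas_tk_injective (hΘ : AnalyticAt ℂ Θ 0) (h0 : Θ 0 = 0)
    (hJ : ∃ᶠ q in 𝓝 (0 : ℂ × ℂ), jacP Θ q ≠ 0) {K : ℕ} (hK : K ≠ 0) :
    Function.Injective (bas (tk Θ K) (an_tk hΘ hK) (tk_zero h0 hK)) := by
  intro F G h
  have h1 : ∀ F : R2, bas (tk Θ K) (an_tk hΘ hK) (tk_zero h0 hK) F =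
      bas (fun q : ℂ × ℂ => (q.1 ^ K, q.2 ^ K)) (analyticAt_powK K 0) (powK_zero hK)
        (bas Θ hΘ h0 F) := fun F =>
    bas_comp hΘ h0 (analyticAt_powK K 0) (powK_zero hK) (an_tk hΘ hK) (tk_zero h0 hK) F
  rw [h1, h1] at h
  exact bas_injective hΘ h0 hJ (basK_injective hK h)

/-! ### the data of a chart -/

variable {f : (Fin 3 → ℂ) → ℂ} {n : ℕ} {P : ℂ × ℂ → ℂ[X]} {v : ℂ × (ℂ × ℂ) → ℂ} {K : ℕ}
  {ζ : Fin n → ℂ × ℂ → ℂ} {σ ρ : Equiv.Perm (Fin n)}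

/-- `ℂ[[x, y]] → Frac ℂ[[a, b]]` given by `Θ(a^K, b^K)` -/
def tau (Θ : ℂ × ℂ → ℂ × ℂ) (hΘ : AnalyticAt ℂ Θ 0) (h0 : Θ 0 = 0) (K : ℕ) (hK : K ≠ 0) :
    R2 →+* LL2 :=
  (algebraMap R2 LL2).comp (bas (tk Θ K) (an_tk hΘ hK) (tk_zero h0 hK) : R2 →+* R2)

theorem tau_apply (hΘ : AnalyticAt ℂ Θ 0) (h0 : Θ 0 = 0) (hK : K ≠ 0) (F : R2) :
    tau Θ hΘ h0 K hK F = algebraMap R2 LL2 (bas (tk Θ K) (an_tk hΘ hK) (tk_zero h0 hK) F) := rfl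

theorem tau_injective (hΘ : AnalyticAt ℂ Θ 0) (h0 : Θ 0 = 0)
    (hJ : ∃ᶠ q in 𝓝 (0 : ℂ × ℂ), jacP Θ q ≠ 0) (hK : K ≠ 0) :
    Function.Injective (tau Θ hΘ h0 K hK) :=
  (IsFractionRing.injective R2 LL2).comp (bas_tk_injective hΘ h0 hJ hK)

/-- **factorization of the Weierstrass polynomial in the chart** -/
theorem map_serPoly (W : WD f n P v) (Z : CR P Θ n K ζ σ ρ) (hΘ : AnalyticAt ℂ Θ 0)
    (h0 : Θ 0 = 0) :
    (serPoly n P).map (bas (tk Θ K) (an_tk hΘ Z.hK) (tk_zero h0 Z.hK) : R2 →+* R2) =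
      ∏ l, (X - C (ser2 (ζ l))) := by
  rw [serPoly_map_bas _ _ W.hol]
  have h1 : serPoly n (fun q => P (tk Θ K q)) = serPoly n (fun q => ∏ l, (X - C (ζ l q))) :=
    serPoly_congr Z.prod
  rw [h1, serPoly_prod Z.hol]

theorem ser2_zeta_injective (Z : CR P Θ n K ζ σ ρ) :
    Function.Injective fun l => ser2 (ζ l) := by
  intro i j hij
  by_contra hne
  obtain ⟨p, r, h⟩ := Z.dif i j hne
  have h1 : ser2 (fun q => ζ i q - ζ j q) = 0 := by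
    rw [ser2_sub (Z.hol i) (Z.hol j)]
    exact sub_eq_zero.2 hij
  obtain ⟨U, hU, h2⟩ := (monU_iff h.analyticAt p r).1 h
  rw [h1] at h2
  exact mul_ne_zero (mono_ne_zero p r) hU.ne_zero h2.symm

theorem root_eq (W : WD f n P v) (Z : CR P Θ n K ζ σ ρ) (hΘ : AnalyticAt ℂ Θ 0) (h0 : Θ 0 = 0)
    (l : Fin n) : (serPoly n P).eval₂ (tau Θ hΘ h0 K Z.hK) (algebraMap R2 LL2 (ser2 (ζ l))) = 0 := by
  rw [tau, ← hom_eval₂, ← eval_map, map_serPoly W Z hΘ h0, eval_prod,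
    Finset.prod_eq_zero (Finset.mem_univ l) (by simp), map_zero]

variable [hirr : Fact (Irreducible (PL n P))]

/-- the embedding of the function field given by the root `l` -/
def psiC (W : WD f n P v) (Z : CR P Θ n K ζ σ ρ) (hΘ : AnalyticAt ℂ Θ 0) (h0 : Θ 0 = 0)
    (hJ : ∃ᶠ q in 𝓝 (0 : ℂ × ℂ), jacP Θ q ≠ 0) (l : Fin n) : KF n P →+* LL2 :=
  psi (tau Θ hΘ h0 K Z.hK) (tau_injective hΘ h0 hJ Z.hK) (algebraMap R2 LL2 (ser2 (ζ l)))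
    (root_eq W Z hΘ h0 l)

theorem psiC_algebraMap (W : WD f n P v) (Z : CR P Θ n K ζ σ ρ) (hΘ : AnalyticAt ℂ Θ 0)
    (h0 : Θ 0 = 0) (hJ : ∃ᶠ q in 𝓝 (0 : ℂ × ℂ), jacP Θ q ≠ 0) (l : Fin n) (x : LL2) :
    psiC W Z hΘ h0 hJ l (algebraMap LL2 (KF n P) x) =
      liftL (tau Θ hΘ h0 K Z.hK) (tau_injective hΘ h0 hJ Z.hK) x :=
  psi_algebraMap _ _ _ _ x

theorem psiC_root (W : WD f n P v) (Z : CR P Θ n K ζ σ ρ) (hΘ : AnalyticAt ℂ Θ 0)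
    (h0 : Θ 0 = 0) (hJ : ∃ᶠ q in 𝓝 (0 : ℂ × ℂ), jacP Θ q ≠ 0) (l : Fin n) :
    psiC W Z hΘ h0 hJ l (AdjoinRoot.root (PL n P)) = algebraMap R2 LL2 (ser2 (ζ l)) :=
  psi_root _ _ _ _

/-- **compatibility of the embeddings with the charts** -/
theorem psiC_rk (hf : Hol f) (W : WD f n P v) (Z : CR P Θ n K ζ σ ρ) (hΘ : AnalyticAt ℂ Θ 0)
    (h0 : Θ 0 = 0) (hJ : ∃ᶠ q in 𝓝 (0 : ℂ × ℂ), jacP Θ q ≠ 0) (l : Fin n) (g : R3) :
    psiC W Z hΘ h0 hJ l (rk hf W (Ideal.Quotient.mk _ g)) =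
      algebraMap R2 LL2 (chH (chart Θ K (ζ l)) (analyticAt_chart Z.hK hΘ (Z.hol l))
        (chart_zero Z.hK h0 (Z.zero l)) g) := by
  have hci : ∀ F : R2, chH (chart Θ K (ζ l)) (analyticAt_chart Z.hK hΘ (Z.hol l))
      (chart_zero Z.hK h0 (Z.zero l)) (incl F) =
      bas (tk Θ K) (an_tk hΘ Z.hK) (tk_zero h0 Z.hK) F := fun F =>
    chH_incl (Θ := tk Θ K) (z := ζ l) (an_tk hΘ Z.hK) (tk_zero h0 Z.hK)
      (analyticAt_chart Z.hK hΘ (Z.hol l)) (chart_zero Z.hK h0 (Z.zero l)) F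
  have hcz : chH (chart Θ K (ζ l)) (analyticAt_chart Z.hK hΘ (Z.hol l))
      (chart_zero Z.hK h0 (Z.zero l)) (MvPowerSeries.X 2) = ser2 (ζ l) :=
    chH_X2 (Θ := tk Θ K) (z := ζ l) (analyticAt_chart Z.hK hΘ (Z.hol l))
      (chart_zero Z.hK h0 (Z.zero l))
  exact psi_rk hf W (bas (tk Θ K) (an_tk hΘ Z.hK) (tk_zero h0 Z.hK) : R2 →+* R2) (ser2 (ζ l))
    (chH (chart Θ K (ζ l)) (analyticAt_chart Z.hK hΘ (Z.hol l))
      (chart_zero Z.hK h0 (Z.zero l)) : R3 →+* R2)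
    (chH_eq_zero (analyticAt_chart Z.hK hΘ (Z.hol l)) (chart_zero Z.hK h0 (Z.zero l)) hf
      (Z.f_eq_zero W hΘ h0 l)) hci hcz
    (tau_injective hΘ h0 hJ Z.hK) (root_eq W Z hΘ h0 l) g

theorem psiC_rk_ser (hf : Hol f) (W : WD f n P v) (Z : CR P Θ n K ζ σ ρ) (hΘ : AnalyticAt ℂ Θ 0)
    (h0 : Θ 0 = 0) (hJ : ∃ᶠ q in 𝓝 (0 : ℂ × ℂ), jacP Θ q ≠ 0) (l : Fin n)
    {h : (Fin 3 → ℂ) → ℂ} (hh : Hol h) :
    psiC W Z hΘ h0 hJ l (rk hf W (Ideal.Quotient.mk _ (ser h))) =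
      algebraMap R2 LL2 (ser2 fun q => h (chart Θ K (ζ l) q)) := by
  rw [psiC_rk, chH_ser _ _ hh]

/-! ### rotations of the base field -/

theorem rsc_injective {ω ω' : ℂ} (h : ω ≠ 0) (h' : ω' ≠ 0) : Function.Injective (rsc ω ω') := by
  rw [injective_iff_map_eq_zero]
  intro F hF
  ext d
  rw [map_zero, ← ex_surj d]
  have h1 := coeff_rsc ω ω' F (d 0) (d 1)
  rw [hF, map_zero] at h1
  rcases mul_eq_zero.1 h1.symm with h2 | h2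
  · exact absurd h2 (mul_ne_zero (pow_ne_zero _ h) (pow_ne_zero _ h'))
  · exact h2

/-- rotation of the fraction field -/
def rscL (ω ω' : ℂ) (h : ω ≠ 0) (h' : ω' ≠ 0) : LL2 →+* LL2 :=
  IsFractionRing.lift (g := (algebraMap R2 LL2).comp (rsc ω ω' : R2 →+* R2))
    ((IsFractionRing.injective R2 LL2).comp (rsc_injective h h'))

theorem rscL_algebraMap {ω ω' : ℂ} (h : ω ≠ 0) (h' : ω' ≠ 0) (F : R2) :
    rscL ω ω' h h' (algebraMap R2 LL2 F) = algebraMap R2 LL2 (rsc ω ω' F) :=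
  IsFractionRing.lift_algebraMap _ F

theorem liftL_ext {α β : LL2 →+* LL2} (h : ∀ F : R2, α (algebraMap R2 LL2 F) =
    β (algebraMap R2 LL2 F)) (x : LL2) : α x = β x := by
  obtain ⟨a, b, hb, rfl⟩ := IsFractionRing.div_surjective (A := R2) x
  rw [map_div₀, map_div₀, h, h]

theorem rscL_liftL (hΘ : AnalyticAt ℂ Θ 0) (h0 : Θ 0 = 0)
    (hJ : ∃ᶠ q in 𝓝 (0 : ℂ × ℂ), jacP Θ q ≠ 0) (hK : K ≠ 0) {ω ω' : ℂ} (h : ω ≠ 0) (h' : ω' ≠ 0)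
    (hω : ω ^ K = 1) (hω' : ω' ^ K = 1) (x : LL2) :
    rscL ω ω' h h' (liftL (tau Θ hΘ h0 K hK) (tau_injective hΘ h0 hJ hK) x) =
      liftL (tau Θ hΘ h0 K hK) (tau_injective hΘ h0 hJ hK) x := by
  refine liftL_ext (α := (rscL ω ω' h h').comp
    (liftL (tau Θ hΘ h0 K hK) (tau_injective hΘ h0 hJ hK))) (fun F => ?_) x
  rw [RingHom.comp_apply, liftL_apply, tau_apply, rscL_algebraMap, rsc_bas_tk hΘ h0 hK hω hω']

theorem KF_hom_ext {α β : KF n P →+* LL2}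
    (h1 : ∀ x, α (algebraMap LL2 (KF n P) x) = β (algebraMap LL2 (KF n P) x))
    (h2 : α (AdjoinRoot.root (PL n P)) = β (AdjoinRoot.root (PL n P))) : α = β := by
  refine RingHom.ext fun z => ?_
  obtain ⟨q, rfl⟩ := AdjoinRoot.mk_surjective z
  have h3 : (α.comp (AdjoinRoot.mk (PL n P))) = (β.comp (AdjoinRoot.mk (PL n P))) := by
    refine ringHom_ext (fun a => ?_) ?_
    · rw [RingHom.comp_apply, RingHom.comp_apply, AdjoinRoot.mk_C]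
      exact h1 a
    · rw [RingHom.comp_apply, RingHom.comp_apply, AdjoinRoot.mk_X]
      exact h2
  exact congrArg (fun φ => φ q) h3

theorem omg_ne (K : ℕ) : omg K ≠ 0 := omg_ne_zero K

/-- **monodromy around the first axis** -/
theorem rscL_psiC_fst (W : WD f n P v) (Z : CR P Θ n K ζ σ ρ) (hΘ : AnalyticAt ℂ Θ 0)
    (h0 : Θ 0 = 0) (hJ : ∃ᶠ q in 𝓝 (0 : ℂ × ℂ), jacP Θ q ≠ 0) (l : Fin n) :
    (rscL (omg K) 1 (omg_ne_zero K) one_ne_zero).comp (psiC W Z hΘ h0 hJ l) =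
      psiC W Z hΘ h0 hJ (σ l) := by
  refine KF_hom_ext (fun x => ?_) ?_
  · rw [RingHom.comp_apply, psiC_algebraMap, psiC_algebraMap,
      rscL_liftL hΘ h0 hJ Z.hK _ _ (omg_pow Z.hK) (one_pow K)]
  · rw [RingHom.comp_apply, psiC_root, psiC_root, rscL_algebraMap, rsc_ser2 _ _ (Z.hol l)]
    congr 1
    refine ser2_congr ?_
    filter_upwards [Z.mon1] with q hq
    rw [one_mul]
    exact hq l

/-- **monodromy around the second axis** -/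
theorem rscL_psiC_snd (W : WD f n P v) (Z : CR P Θ n K ζ σ ρ) (hΘ : AnalyticAt ℂ Θ 0)
    (h0 : Θ 0 = 0) (hJ : ∃ᶠ q in 𝓝 (0 : ℂ × ℂ), jacP Θ q ≠ 0) (l : Fin n) :
    (rscL 1 (omg K) one_ne_zero (omg_ne_zero K)).comp (psiC W Z hΘ h0 hJ l) =
      psiC W Z hΘ h0 hJ (ρ l) := by
  refine KF_hom_ext (fun x => ?_) ?_
  · rw [RingHom.comp_apply, psiC_algebraMap, psiC_algebraMap,
      rscL_liftL hΘ h0 hJ Z.hK _ _ (one_pow K) (omg_pow Z.hK)]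
  · rw [RingHom.comp_apply, psiC_root, psiC_root, rscL_algebraMap, rsc_ser2 _ _ (Z.hol l)]
    congr 1
    refine ser2_congr ?_
    filter_upwards [Z.mon2] with q hq
    rw [one_mul]
    exact hq l

/-- the polynomial splits in the chart -/
theorem map_PL (W : WD f n P v) (Z : CR P Θ n K ζ σ ρ) (hΘ : AnalyticAt ℂ Θ 0)
    (h0 : Θ 0 = 0) (hJ : ∃ᶠ q in 𝓝 (0 : ℂ × ℂ), jacP Θ q ≠ 0) :
    (PL n P).map (liftL (tau Θ hΘ h0 K Z.hK) (tau_injective hΘ h0 hJ Z.hK)) =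
      ∏ l, (X - C (algebraMap R2 LL2 (ser2 (ζ l)))) := by
  have h1 : (liftL (tau Θ hΘ h0 K Z.hK) (tau_injective hΘ h0 hJ Z.hK)).comp (algebraMap R2 LL2) =
      (algebraMap R2 LL2).comp
        (bas (tk Θ K) (an_tk hΘ Z.hK) (tk_zero h0 Z.hK) : R2 →+* R2) := by
    ext1 F
    exact liftL_apply (tau Θ hΘ h0 K Z.hK) (tau_injective hΘ h0 hJ Z.hK) F
  rw [PL, Polynomial.map_map, h1, ← Polynomial.map_map, map_serPoly W Z hΘ h0,
    Polynomial.map_prod]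
  refine Finset.prod_congr rfl fun l _ => ?_
  rw [Polynomial.map_sub, Polynomial.map_X, Polynomial.map_C]

end Vale.Agent.P298.H701
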