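import Vale.Agent.P298.H766.Germ

/-!
# P298, row E1-BRIDGE (helper701), part 1: formal substitution and composition of germs
-/

namespace Vale.Agent.P298.H701

open Filter Topology Metric Vale.Agent.P298 Vale.Agent.P298.H766

variable {n m k : ℕ}

/-! ### general principles on `MvPowerSeries (Fin n) ℂ` -/

/-- Hadamard's lemma for power series -/
theorem hadamardS (f : MvPowerSeries (Fin n) ℂ) : ∃ g : Fin n → MvPowerSeries (Fin n) ℂ,
    f = MvPowerSeries.C (MvPowerSeries.constantCoeff f) + ∑ i, MvPowerSeries.X i * g i := by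
  have h1 : ((0 + 1 : ℕ) : ℕ∞) ≤
      (f - MvPowerSeries.C (MvPowerSeries.constantCoeff f)).order := by
    refine MvPowerSeries.le_order fun d hd => ?_
    have hd0 : d = 0 := by
      have h2 : Finsupp.degree d = 0 := by
        have h3 : Finsupp.degree d < 0 + 1 := by exact_mod_cast hd
        omega
      exact (Finsupp.degree_eq_zero_iff d).1 h2
    rw [hd0, map_sub, MvPowerSeries.coeff_zero_eq_constantCoeff_apply,
      MvPowerSeries.coeff_zero_eq_constantCoeff_apply, MvPowerSeries.constantCoeff_C, sub_self]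
  obtain ⟨g, _, hg⟩ := exists_eq_sum h1
  exact ⟨g, by rw [← hg]; ring⟩

/-- an element lying in all powers of the maximal ideal is `0` -/
theorem eq_zero_of_forall_mem {f : MvPowerSeries (Fin n) ℂ} (h : ∀ M, f ∈ mR n ^ M) : f = 0 := by
  ext d
  rw [map_zero]
  refine MvPowerSeries.coeff_of_lt_order ?_
  refine lt_of_lt_of_le ?_ (order_of_mem_mR_pow _ (h (Finsupp.degree d + 1)))
  exact_mod_cast Nat.lt_succ_self _

theorem mem_mR_iff {f : MvPowerSeries (Fin n) ℂ} :
    f ∈ mR n ↔ MvPowerSeries.constantCoeff f = 0 := by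
  rw [← maximalIdeal_eq, mem_maximalIdeal_iff]

/-- any homomorphism of algebras of power series is local -/
theorem algHom_mem (α : MvPowerSeries (Fin n) ℂ →ₐ[ℂ] MvPowerSeries (Fin m) ℂ)
    {f : MvPowerSeries (Fin n) ℂ} (hf : f ∈ mR n) : α f ∈ mR m := by
  rw [mem_mR_iff]
  by_contra hne
  set c := MvPowerSeries.constantCoeff (α f) with hc
  have h1 : IsUnit (f - MvPowerSeries.C c) := by
    rw [MvPowerSeries.isUnit_iff_constantCoeff, map_sub, MvPowerSeries.constantCoeff_C,
      mem_mR_iff.1 hf, zero_sub, isUnit_iff_ne_zero]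
    exact neg_ne_zero.2 hne
  have h2 := h1.map α
  rw [MvPowerSeries.isUnit_iff_constantCoeff, map_sub, map_sub] at h2
  have h3 : α (MvPowerSeries.C c) = MvPowerSeries.C c := α.commutes c
  rw [h3, MvPowerSeries.constantCoeff_C, ← hc, sub_self] at h2
  exact not_isUnit_zero h2

/-- algebra homomorphisms agreeing on the variables are equal -/
theorem algHom_ext {α β : MvPowerSeries (Fin n) ℂ →ₐ[ℂ] MvPowerSeries (Fin m) ℂ}
    (h : ∀ i, α (MvPowerSeries.X i) = β (MvPowerSeries.X i)) : α = β := by
  have key : ∀ M : ℕ, ∀ f, α f - β f ∈ mR m ^ M := by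
    intro M
    induction M with
    | zero => intro f; simp
    | succ M ih =>
      intro f
      obtain ⟨g, hg⟩ := hadamardS f
      have hC : ∀ c : ℂ, α (MvPowerSeries.C c) = β (MvPowerSeries.C c) := fun c => by
        have h1 : α (MvPowerSeries.C c) = MvPowerSeries.C c := α.commutes c
        have h2 : β (MvPowerSeries.C c) = MvPowerSeries.C c := β.commutes c
        rw [h1, h2]
      have h1 : α f - β f = ∑ i, α (MvPowerSeries.X i) * (α (g i) - β (g i)) := by
        conv_lhs => rw [hg]
        rw [map_add, map_add, hC, map_sum, map_sum, add_sub_add_left_eq_sub,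
          ← Finset.sum_sub_distrib]
        refine Finset.sum_congr rfl fun i _ => ?_
        rw [map_mul, map_mul, h i]
        ring
      rw [h1]
      refine Ideal.sum_mem _ fun i _ => ?_
      rw [pow_succ']
      exact Ideal.mul_mem_mul (algHom_mem α (X_mem_mR i)) (ih (g i))
  ext1 f
  exact sub_eq_zero.1 (eq_zero_of_forall_mem fun M => key M f)

/-- the substitution homomorphism (junk value when the constant terms are not `0`) -/
noncomputable def sub (a : Fin n → MvPowerSeries (Fin m) ℂ)
    (ha : ∀ i, MvPowerSeries.constantCoeff (a i) = 0) :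
    MvPowerSeries (Fin n) ℂ →ₐ[ℂ] MvPowerSeries (Fin m) ℂ :=
  MvPowerSeries.substAlgHom (MvPowerSeries.hasSubst_of_constantCoeff_zero ha)

theorem sub_X (a : Fin n → MvPowerSeries (Fin m) ℂ)
    (ha : ∀ i, MvPowerSeries.constantCoeff (a i) = 0) (i : Fin n) :
    sub a ha (MvPowerSeries.X i) = a i :=
  MvPowerSeries.substAlgHom_X _ i

theorem sub_C (a : Fin n → MvPowerSeries (Fin m) ℂ)
    (ha : ∀ i, MvPowerSeries.constantCoeff (a i) = 0) (c : ℂ) :
    sub a ha (MvPowerSeries.C c) = MvPowerSeries.C c :=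
  (sub a ha).commutes c

theorem constantCoeff_algHom (α : MvPowerSeries (Fin n) ℂ →ₐ[ℂ] MvPowerSeries (Fin m) ℂ)
    (f : MvPowerSeries (Fin n) ℂ) :
    MvPowerSeries.constantCoeff (α f) = MvPowerSeries.constantCoeff f := by
  have h1 : f - MvPowerSeries.C (MvPowerSeries.constantCoeff f) ∈ mR n := by
    rw [mem_mR_iff, map_sub, MvPowerSeries.constantCoeff_C, sub_self]
  have h2 := mem_mR_iff.1 (algHom_mem α h1)
  have h3 : α (MvPowerSeries.C (MvPowerSeries.constantCoeff f)) =
      MvPowerSeries.C (MvPowerSeries.constantCoeff f) := α.commutes _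
  rw [map_sub, map_sub, h3, MvPowerSeries.constantCoeff_C, sub_eq_zero] at h2
  exact h2

/-- a derivation along a homomorphism which kills the variables is `0` -/
theorem der_eq_zero (α : MvPowerSeries (Fin n) ℂ →ₐ[ℂ] MvPowerSeries (Fin m) ℂ)
    (D : MvPowerSeries (Fin n) ℂ →ₗ[ℂ] MvPowerSeries (Fin m) ℂ)
    (hD : ∀ f g, D (f * g) = α f * D g + α g * D f) (hX : ∀ i, D (MvPowerSeries.X i) = 0) :
    D = 0 := by
  have h1 : D 1 = 0 := by
    have h2 := hD 1 1
    rw [mul_one, map_one α, one_mul] at h2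
    exact left_eq_add.1 h2
  have hC : ∀ c : ℂ, D (MvPowerSeries.C c) = 0 := by
    intro c
    have h2 : (MvPowerSeries.C c : MvPowerSeries (Fin n) ℂ) = c • 1 := by
      rw [MvPowerSeries.smul_eq_C_mul, mul_one]
    rw [h2, map_smul, h1, smul_zero]
  have key : ∀ M : ℕ, ∀ f, D f ∈ mR m ^ M := by
    intro M
    induction M with
    | zero => intro f; simp
    | succ M ih =>
      intro f
      obtain ⟨g, hg⟩ := hadamardS f
      rw [hg, map_add, hC, zero_add, map_sum]
      refine Ideal.sum_mem _ fun i _ => ?_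
      rw [hD, hX, mul_zero, add_zero, pow_succ']
      exact Ideal.mul_mem_mul (algHom_mem α (X_mem_mR i)) (ih (g i))
  ext1 f
  exact eq_zero_of_forall_mem fun M => key M f

/-- the chain rule for power series -/
theorem pderiv_sub (a : Fin n → MvPowerSeries (Fin m) ℂ)
    (ha : ∀ i, MvPowerSeries.constantCoeff (a i) = 0) (j : Fin m)
    (f : MvPowerSeries (Fin n) ℂ) :
    MvPowerSeries.pderiv ℂ j (sub a ha f) =
      ∑ i, sub a ha (MvPowerSeries.pderiv ℂ i f) * MvPowerSeries.pderiv ℂ j (a i) := by
  classical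
  let D : MvPowerSeries (Fin n) ℂ →ₗ[ℂ] MvPowerSeries (Fin m) ℂ :=
    (MvPowerSeries.pderiv ℂ j : Derivation ℂ _ _).toLinearMap ∘ₗ (sub a ha).toLinearMap -
      ∑ i, (LinearMap.mulRight ℂ (MvPowerSeries.pderiv ℂ j (a i))) ∘ₗ (sub a ha).toLinearMap ∘ₗ
        (MvPowerSeries.pderiv ℂ i : Derivation ℂ _ _).toLinearMap
  have hDe : ∀ f, D f = MvPowerSeries.pderiv ℂ j (sub a ha f) -
      ∑ i, sub a ha (MvPowerSeries.pderiv ℂ i f) * MvPowerSeries.pderiv ℂ j (a i) := by
    intro f
    simp [D, LinearMap.sum_apply]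
  have hD : ∀ f g, D (f * g) = sub a ha f * D g + sub a ha g * D f := by
    intro f g
    rw [hDe, hDe, hDe, map_mul, Derivation.leibniz, smul_eq_mul, smul_eq_mul]
    have h1 : ∀ i, sub a ha (MvPowerSeries.pderiv ℂ i (f * g)) * MvPowerSeries.pderiv ℂ j (a i) =
        sub a ha f * (sub a ha (MvPowerSeries.pderiv ℂ i g) * MvPowerSeries.pderiv ℂ j (a i)) +
        sub a ha g * (sub a ha (MvPowerSeries.pderiv ℂ i f) *
          MvPowerSeries.pderiv ℂ j (a i)) := by
      intro i
      rw [Derivation.leibniz, smul_eq_mul, smul_eq_mul, map_add, map_mul, map_mul]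
      ring
    rw [Finset.sum_congr rfl fun i _ => h1 i, Finset.sum_add_distrib, ← Finset.mul_sum,
      ← Finset.mul_sum]
    ring
  have hX : ∀ i, D (MvPowerSeries.X i) = 0 := by
    intro i
    rw [hDe, sub_X, Finset.sum_eq_single i]
    · rw [MvPowerSeries.pderiv_X_self, map_one, one_mul, sub_self]
    · intro b _ hb
      rw [MvPowerSeries.pderiv_X_of_ne hb.symm, map_zero, zero_mul]
    · intro h
      exact absurd (Finset.mem_univ i) h
  have h0 := der_eq_zero (sub a ha) D hD hX
  have h1 := hDe f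
  rw [h0, LinearMap.zero_apply] at h1
  exact (sub_eq_zero.1 h1.symm)

/-- substitution with non-zero Jacobian determinant is injective -/
theorem sub_injective (a : Fin n → MvPowerSeries (Fin n) ℂ)
    (ha : ∀ i, MvPowerSeries.constantCoeff (a i) = 0)
    (hJ : (Matrix.of fun i j => MvPowerSeries.pderiv ℂ j (a i)).det ≠ 0) :
    Function.Injective (sub a ha) := by
  have key : ∀ N : ℕ, ∀ g : MvPowerSeries (Fin n) ℂ,
      (∃ d, Finsupp.degree d = N ∧ MvPowerSeries.coeff d g ≠ 0) → sub a ha g ≠ 0 := by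
    intro N
    induction N with
    | zero =>
      rintro g ⟨d, hd, hg⟩ h0
      have hd0 : d = 0 := (Finsupp.degree_eq_zero_iff d).1 hd
      rw [hd0, MvPowerSeries.coeff_zero_eq_constantCoeff_apply,
        ← constantCoeff_algHom (sub a ha) g, h0, map_zero] at hg
      exact hg rfl
    | succ N ih =>
      rintro g ⟨d, hd, hg⟩ h0
      have h1 : ∃ i, d i ≠ 0 := by
        by_contra hne
        push Not at hne
        have : d = 0 := Finsupp.ext hne
        rw [this, map_zero] at hd
        omega
      obtain ⟨i, hi⟩ := h1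
      have h2 : (d - Finsupp.single i 1) + Finsupp.single i 1 = d :=
        tsub_add_cancel_of_le (Finsupp.single_le_iff.2 (Nat.one_le_iff_ne_zero.2 hi))
      have h3 : sub a ha (MvPowerSeries.pderiv ℂ i g) ≠ 0 := by
        refine ih _ ⟨d - Finsupp.single i 1, ?_, ?_⟩
        · have h4 := congrArg Finsupp.degree h2
          rw [map_add, Finsupp.degree_single, hd] at h4
          omega
        · rw [MvPowerSeries.coeff_pderiv, h2]
          refine mul_ne_zero hg ?_
          set e : Fin n →₀ ℕ := d - Finsupp.single i 1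
          exact_mod_cast Nat.succ_ne_zero (e i)
      apply h3
      have h4 : Matrix.vecMul (fun i => sub a ha (MvPowerSeries.pderiv ℂ i g))
          (Matrix.of fun i j => MvPowerSeries.pderiv ℂ j (a i)) = 0 := by
        funext j
        have h5 := pderiv_sub a ha j g
        rw [h0, map_zero] at h5
        simp only [Matrix.vecMul, dotProduct, Matrix.of_apply, Pi.zero_apply]
        exact h5.symm
      exact congrFun (Matrix.eq_zero_of_vecMul_eq_zero hJ h4) i
  rw [injective_iff_map_eq_zero]
  intro g hg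
  by_contra hne
  have h1 : ∃ d, MvPowerSeries.coeff d g ≠ 0 := by
    by_contra h
    push Not at h
    exact hne (MvPowerSeries.ext fun d => by rw [h d, map_zero])
  obtain ⟨d, hd⟩ := h1
  exact key _ g ⟨d, rfl, hd⟩ hg

end Vale.Agent.P298.H701
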