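import Vale.Agent.P298.H701.Br1

/-!
# P298, row E1-BRIDGE (helper701), part 2: Taylor series of compositions; kernel; divisibility
-/

namespace Vale.Agent.P298.H701

open Filter Topology Metric Vale.Agent.P298 Vale.Agent.P298.H766

variable {n m k : ℕ}

/-- composition with a germ of map, as a homomorphism of algebras -/
def compA (Φ : (Fin m → ℂ) → (Fin n → ℂ)) (hΦ : AnalyticAt ℂ Φ 0) (h0 : Φ 0 = 0) :
    AnFun n →ₐ[ℂ] AnFun m where
  toFun f := ⟨fun x => (f : (Fin n → ℂ) → ℂ) (Φ x), by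
    have h1 : AnalyticAt ℂ (f : (Fin n → ℂ) → ℂ) (Φ 0) := by rw [h0]; exact f.2
    exact h1.comp hΦ⟩
  map_one' := rfl
  map_mul' _ _ := rfl
  map_zero' := rfl
  map_add' _ _ := rfl
  commutes' _ := rfl

theorem compA_apply (Φ : (Fin m → ℂ) → (Fin n → ℂ)) (hΦ : AnalyticAt ℂ Φ 0) (h0 : Φ 0 = 0)
    (f : AnFun n) (x : Fin m → ℂ) :
    (compA Φ hΦ h0 f : (Fin m → ℂ) → ℂ) x = (f : (Fin n → ℂ) → ℂ) (Φ x) := rfl

theorem compA_nul (Φ : (Fin m → ℂ) → (Fin n → ℂ)) (hΦ : AnalyticAt ℂ Φ 0) (h0 : Φ 0 = 0)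
    {f : AnFun n} (hf : f ∈ nul n) : compA Φ hΦ h0 f ∈ nul m := by
  rw [mem_nul] at hf ⊢
  have h1 : Tendsto Φ (𝓝 0) (𝓝 0) := by
    have h2 : Tendsto Φ (𝓝 0) (𝓝 (Φ 0)) := hΦ.continuousAt
    rwa [h0] at h2
  exact h1.eventually hf

/-- homomorphisms from the algebra of analytic functions to power series are determined by the
values on the coordinates. -/
theorem algHomA_ext {α β : AnFun n →ₐ[ℂ] MvPowerSeries (Fin m) ℂ}
    (h : ∀ i, α (coordF n i) = β (coordF n i)) (hm : ∀ i, α (coordF n i) ∈ mR m)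
    (hα : ∀ f ∈ nul n, α f = 0) (hβ : ∀ f ∈ nul n, β f = 0) : α = β := by
  have key : ∀ M : ℕ, ∀ f, α f - β f ∈ mR m ^ M := by
    intro M
    induction M with
    | zero => intro f; simp
    | succ M ih =>
      intro f
      obtain ⟨c, g, hg⟩ := hadamardA f
      have h1 := hα _ hg
      have h2 := hβ _ hg
      rw [map_sub, sub_eq_zero] at h1 h2
      have h3 : α f - β f = ∑ i, α (coordF n i) * (α (g i) - β (g i)) := by
        rw [h1, h2, map_add, map_add, α.commutes, β.commutes, map_sum, map_sum,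
          add_sub_add_left_eq_sub, ← Finset.sum_sub_distrib]
        refine Finset.sum_congr rfl fun i _ => ?_
        rw [map_mul, map_mul, h i]
        ring
      rw [h3]
      refine Ideal.sum_mem _ fun i _ => ?_
      rw [pow_succ']
      exact Ideal.mul_mem_mul (hm i) (ih (g i))
  ext1 f
  exact sub_eq_zero.1 (eq_zero_of_forall_mem fun M => key M f)

theorem hol_comp {u : (Fin n → ℂ) → ℂ} (hu : Hol u) {Φ : (Fin m → ℂ) → (Fin n → ℂ)}
    (hΦ : AnalyticAt ℂ Φ 0) (h0 : Φ 0 = 0) : Hol fun x => u (Φ x) := by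
  have h1 : AnalyticAt ℂ u (Φ 0) := by rw [h0]; exact hu
  exact h1.comp hΦ

theorem hol_apply {Φ : (Fin m → ℂ) → (Fin n → ℂ)} (hΦ : AnalyticAt ℂ Φ 0) (i : Fin n) :
    Hol fun x => Φ x i :=
  ((ContinuousLinearMap.proj (R := ℂ) (φ := fun _ : Fin n => ℂ) i).analyticAt _).comp hΦ

theorem constantCoeff_ser_apply {Φ : (Fin m → ℂ) → (Fin n → ℂ)} (hΦ : AnalyticAt ℂ Φ 0)
    (h0 : Φ 0 = 0) (i : Fin n) :
    MvPowerSeries.constantCoeff (ser fun x => Φ x i) = 0 := by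
  rw [constantCoeff_ser (hol_apply hΦ i), h0]
  rfl

/-- the substitution homomorphism of a germ of map -/
noncomputable def subΦ (Φ : (Fin m → ℂ) → (Fin n → ℂ)) (hΦ : AnalyticAt ℂ Φ 0) (h0 : Φ 0 = 0) :
    MvPowerSeries (Fin n) ℂ →ₐ[ℂ] MvPowerSeries (Fin m) ℂ :=
  sub (fun i => ser fun x => Φ x i) (constantCoeff_ser_apply hΦ h0)

/-- **Taylor series of a composition** -/
theorem ser_comp {u : (Fin n → ℂ) → ℂ} (hu : Hol u) {Φ : (Fin m → ℂ) → (Fin n → ℂ)}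
    (hΦ : AnalyticAt ℂ Φ 0) (h0 : Φ 0 = 0) :
    ser (fun x => u (Φ x)) = subΦ Φ hΦ h0 (ser u) := by
  have h1 : (T m).comp (compA Φ hΦ h0) = (subΦ Φ hΦ h0).comp (T n) := by
    refine algHomA_ext (fun i => ?_) (fun i => ?_) (fun f hf => ?_) (fun f hf => ?_)
    · rw [AlgHom.comp_apply, AlgHom.comp_apply, T_coordF, subΦ, sub_X, ser_eq (hol_apply hΦ i)]
      rfl
    · rw [AlgHom.comp_apply, mem_mR_iff]
      have h2 := constantCoeff_ser_apply hΦ h0 i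
      rw [ser_eq (hol_apply hΦ i)] at h2
      exact h2
    · rw [AlgHom.comp_apply, T_nul (compA_nul Φ hΦ h0 hf)]
    · rw [AlgHom.comp_apply, T_nul hf, map_zero]
  have h2 := DFunLike.congr_fun h1 ⟨u, hu⟩
  rw [AlgHom.comp_apply, AlgHom.comp_apply, ← ser_eq hu] at h2
  rw [← h2, ser_eq (hol_comp hu hΦ h0)]
  rfl

/-- an analytic function all of whose Taylor coefficients vanish is `0` near `0`. -/
theorem mem_nul_of_T {f : AnFun n} (h : T n f = 0) : f ∈ nul n := by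
  have hb : ∀ M : ℕ, ∃ C : ℝ, ∀ᶠ x in 𝓝 (0 : Fin n → ℂ),
      ‖(f : (Fin n → ℂ) → ℂ) x‖ ≤ C * ‖x‖ ^ M := fun M =>
    qM_bound M f (mem_qM_of_order (by rw [h]; simp))
  have hf : AnalyticAt ℂ (f : (Fin n → ℂ) → ℂ) 0 := f.2
  obtain ⟨r, hr, hA⟩ := Metric.eventually_nhds_iff_ball.1 hf.eventually_analyticAt
  rw [mem_nul]
  filter_upwards [ball_mem_nhds (0 : Fin n → ℂ) hr] with v hv
  rcases eq_or_ne v 0 with rfl | hv0
  · obtain ⟨C, hC⟩ := hb 1
    have := hC.self_of_nhds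
    rw [norm_zero, pow_one, mul_zero] at this
    exact norm_le_zero_iff.1 this
  have hvn : 0 < ‖v‖ := norm_pos_iff.2 hv0
  have hvr : ‖v‖ < r := mem_ball_zero_iff.1 hv
  set φ : ℂ → ℂ := fun t => (f : (Fin n → ℂ) → ℂ) (t • v) with hφ
  have hφa : AnalyticOnNhd ℂ φ (ball 0 (r / ‖v‖)) := by
    intro t ht
    have h1 : t • v ∈ ball (0 : Fin n → ℂ) r := by
      rw [mem_ball_zero_iff] at ht ⊢
      rw [norm_smul]
      exact (lt_div_iff₀ hvn).1 ht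
    have h2 : AnalyticAt ℂ (fun t : ℂ => t • v) t := by fun_prop
    exact AnalyticAt.comp (hA _ h1) h2
  have h0 : φ =ᶠ[𝓝 0] 0 := by
    have hz : AnalyticAt ℂ φ 0 := hφa 0 (mem_ball_self (div_pos hr hvn))
    by_contra hne
    have h1 : ¬ ∀ᶠ t in 𝓝 (0 : ℂ), φ t = 0 := hne
    obtain ⟨N, g, hg, hg0, hgt⟩ := (AnalyticAt.exists_eventuallyEq_pow_smul_nonzero_iff hz).2 h1
    obtain ⟨C, hC⟩ := hb (N + 1)
    have h2 : Tendsto (fun s : ℂ => s • v) (𝓝 0) (𝓝 0) := by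
      have h4 : Tendsto (fun s : ℂ => s • v) (𝓝 0) (𝓝 ((0 : ℂ) • v)) :=
        Continuous.tendsto (by fun_prop) 0
      rwa [zero_smul] at h4
    have h3 : Tendsto (fun s : ℂ => ‖g s‖) (𝓝[≠] 0) (𝓝 ‖g 0‖) :=
      hg.continuousAt.norm.tendsto.mono_left nhdsWithin_le_nhds
    have h4 : Tendsto (fun s : ℂ => C * ‖v‖ ^ (N + 1) * ‖s‖) (𝓝[≠] 0) (𝓝 0) := by
      have h5 : Tendsto (fun s : ℂ => C * ‖v‖ ^ (N + 1) * ‖s‖) (𝓝 0)
          (𝓝 (C * ‖v‖ ^ (N + 1) * ‖(0 : ℂ)‖)) := Continuous.tendsto (by fun_prop) 0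
      rw [norm_zero, mul_zero] at h5
      exact h5.mono_left nhdsWithin_le_nhds
    have h6 : ‖g 0‖ ≤ 0 := by
      refine le_of_tendsto_of_tendsto h3 h4 ?_
      filter_upwards [nhdsWithin_le_nhds hgt, nhdsWithin_le_nhds (h2.eventually hC),
        self_mem_nhdsWithin] with s hs hs2 hs0
      have hs3 : ‖φ s‖ ≤ C * ‖s • v‖ ^ (N + 1) := hs2
      rw [hs, sub_zero, smul_eq_mul, norm_mul, norm_pow, norm_smul] at hs3
      have hs0' : 0 < ‖s‖ ^ N := pow_pos (norm_pos_iff.2 hs0) N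
      have h8 : ‖s‖ ^ N * ‖g s‖ ≤ ‖s‖ ^ N * (C * ‖v‖ ^ (N + 1) * ‖s‖) := by
        calc _ ≤ _ := hs3
          _ = _ := by ring
      exact le_of_mul_le_mul_left h8 hs0'
    exact hg0 (norm_le_zero_iff.1 h6)
  have h1 : Set.EqOn φ 0 (ball 0 (r / ‖v‖)) :=
    hφa.eqOn_zero_of_preconnected_of_eventuallyEq_zero (convex_ball _ _).isPreconnected
      (mem_ball_self (div_pos hr hvn)) h0
  have h2 : (1 : ℂ) ∈ ball (0 : ℂ) (r / ‖v‖) := by
    rw [mem_ball_zero_iff, norm_one]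
    exact (one_lt_div hvn).2 hvr
  have h3 := h1 h2
  simp only [hφ, one_smul, Pi.zero_apply] at h3
  simpa using h3

/-- a germ with Taylor series `0` is `0` -/
theorem eventually_zero_of_ser {u : (Fin n → ℂ) → ℂ} (hu : Hol u) (h : ser u = 0) :
    ∀ᶠ x in 𝓝 0, u x = 0 := by
  rw [ser_eq hu] at h
  exact mem_nul_of_T h

theorem ser_eq_zero_iff {u : (Fin n → ℂ) → ℂ} (hu : Hol u) :
    ser u = 0 ↔ ∀ᶠ x in 𝓝 0, u x = 0 := by
  refine ⟨eventually_zero_of_ser hu, fun h => ?_⟩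
  have h1 : ser u = ser (fun _ : Fin n → ℂ => (0 : ℂ)) := ser_congr h
  rw [h1, ser_const, map_zero]

theorem ser_eq_iff {u v : (Fin n → ℂ) → ℂ} (hu : Hol u) (hv : Hol v) :
    ser u = ser v ↔ ∀ᶠ x in 𝓝 0, u x = v x := by
  have h : Hol fun x => u x - v x := hu.sub hv
  rw [← sub_eq_zero, ← ser_sub hu hv, ser_eq_zero_iff h]
  simp only [sub_eq_zero]

theorem isUnit_ser_iff {u : (Fin n → ℂ) → ℂ} (hu : Hol u) : IsUnit (ser u) ↔ u 0 ≠ 0 := by
  rw [MvPowerSeries.isUnit_iff_constantCoeff, constantCoeff_ser hu, isUnit_iff_ne_zero]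

end Vale.Agent.P298.H701
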