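import Vale.Agent.P298.H701.Br2

/-!
# P298, row E1-BRIDGE (helper701), part 3: monomials dividing a germ; two variables
-/

namespace Vale.Agent.P298.H701

open Filter Topology Metric Vale.Agent.P298 Vale.Agent.P298.H766

variable {n m k : ℕ}

/-- the projection killing the coordinate `i` -/
noncomputable def killL (i : Fin n) : (Fin n → ℂ) →L[ℂ] (Fin n → ℂ) :=
  ContinuousLinearMap.pi fun j => if j = i then 0 else ContinuousLinearMap.proj j

theorem killL_apply (i : Fin n) (x : Fin n → ℂ) : killL i x = Function.update x i 0 := by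
  funext j
  rcases eq_or_ne j i with rfl | hj
  · simp [killL]
  · simp [killL, hj]

theorem hol_coord (i : Fin n) : Hol fun x : Fin n → ℂ => x i := (coordF n i).2

theorem hol_coord_pow (i : Fin n) (p : ℕ) : Hol fun x : Fin n → ℂ => x i ^ p :=
  AnalyticAt.fun_pow (hol_coord i) p

theorem ser_coord_pow (i : Fin n) (p : ℕ) :
    ser (fun x : Fin n → ℂ => x i ^ p) = MvPowerSeries.X i ^ p := by
  induction p with
  | zero =>
    simp only [pow_zero]
    rw [ser_const, map_one]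
  | succ q ihq =>
    simp only [pow_succ]
    rw [ser_mul (hol_coord_pow i q) (hol_coord i), ihq, ser_coord]

theorem ser_pow {u : (Fin n → ℂ) → ℂ} (hu : Hol u) (p : ℕ) :
    ser (fun x => u x ^ p) = ser u ^ p := by
  induction p with
  | zero =>
    simp only [pow_zero]
    rw [ser_const, map_one]
  | succ q ihq =>
    simp only [pow_succ]
    have h : Hol fun x => u x ^ q := AnalyticAt.fun_pow hu q
    rw [ser_mul h hu, ihq]

theorem X_ne_zero (i : Fin n) : (MvPowerSeries.X i : MvPowerSeries (Fin n) ℂ) ≠ 0 := by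
  intro h
  have h1 := congrArg (MvPowerSeries.coeff (Finsupp.single i 1)) h
  rw [map_zero, MvPowerSeries.coeff_X, if_pos rfl] at h1
  exact one_ne_zero h1

/-- division of a germ by a coordinate -/
theorem exists_div_coord {u : (Fin n → ℂ) → ℂ} (hu : Hol u) (i : Fin n)
    (h2 : ∀ᶠ x in 𝓝 (0 : Fin n → ℂ), u (killL i x) = 0) :
    ∃ w : (Fin n → ℂ) → ℂ, Hol w ∧ ∀ᶠ x in 𝓝 0, u x = x i * w x := by
  have hπ : ‖killL i‖ ≤ 1 := by
    refine ContinuousLinearMap.opNorm_le_bound _ zero_le_one fun v => ?_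
    rw [one_mul, killL_apply]
    refine (pi_norm_le_iff_of_nonneg (norm_nonneg _)).2 fun j => ?_
    rcases eq_or_ne j i with rfl | hj
    · rw [Function.update_self, norm_zero]
      exact norm_nonneg _
    · rw [Function.update_of_ne hj]
      exact norm_le_pi_norm v j
  obtain ⟨Q, hQ, h⟩ := exists_division (killL i) hπ hu
  refine ⟨fun x => Q x (Pi.single i 1), ?_, ?_⟩
  · exact (ContinuousLinearMap.apply ℂ ℂ (Pi.single i 1 : Fin n → ℂ)).analyticAt _ |>.comp hQ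
  · filter_upwards [h, h2] with x hx hx0
    rw [zero_add, sub_zero, hx0, sub_zero] at hx
    have e2 : x - killL i x = x i • (Pi.single i 1 : Fin n → ℂ) := by
      funext j
      rw [killL_apply]
      rcases eq_or_ne j i with rfl | hj
      · simp
      · simp [hj]
    rw [e2, map_smul, smul_eq_mul] at hx
    exact hx

/-- **a coordinate divides the Taylor series iff it divides the germ** -/
theorem X_dvd_ser_iff {u : (Fin n → ℂ) → ℂ} (hu : Hol u) (i : Fin n) :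
    MvPowerSeries.X i ∣ ser u ↔ ∃ w : (Fin n → ℂ) → ℂ, Hol w ∧ ∀ᶠ x in 𝓝 0, u x = x i * w x := by
  constructor
  · rintro ⟨g, hg⟩
    have hk0 : killL i (0 : Fin n → ℂ) = 0 := map_zero _
    have hka : AnalyticAt ℂ (fun x => killL i x) 0 := (killL i).analyticAt 0
    have h1 : ser (fun x => u (killL i x)) = 0 := by
      rw [ser_comp hu hka hk0, hg, map_mul, subΦ, sub_X]
      have h2 : (fun x : Fin n → ℂ => killL i x i) = fun _ => 0 := by
        funext x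
        rw [killL_apply, Function.update_self]
      rw [h2, ser_const, map_zero, zero_mul]
    have h2 := eventually_zero_of_ser (hol_comp hu hka hk0) h1
    exact exists_div_coord hu i h2
  · rintro ⟨w, hw, hx⟩
    refine ⟨ser w, ?_⟩
    rw [ser_congr hx, ser_mul (hol_coord i) hw, ser_coord]

theorem X_pow_dvd_ser_iff {u : (Fin n → ℂ) → ℂ} (hu : Hol u) (i : Fin n) (p : ℕ) :
    MvPowerSeries.X i ^ p ∣ ser u ↔
      ∃ w : (Fin n → ℂ) → ℂ, Hol w ∧ ∀ᶠ x in 𝓝 0, u x = x i ^ p * w x := by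
  constructor
  · induction p with
    | zero =>
      intro _
      exact ⟨u, hu, Eventually.of_forall fun x => by rw [pow_zero, one_mul]⟩
    | succ p ih =>
      intro h
      obtain ⟨w, hw, hx⟩ := ih ((pow_dvd_pow _ (Nat.le_succ p)).trans h)
      have h1 : ser u = MvPowerSeries.X i ^ p * ser w := by
        rw [ser_congr hx, ser_mul (hol_coord_pow i p) hw, ser_coord_pow]
      rw [h1, pow_succ] at h
      have h2 : MvPowerSeries.X i ∣ ser w := by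
        refine (mul_dvd_mul_iff_left ?_).1 h
        exact pow_ne_zero _ (X_ne_zero i)
      obtain ⟨w', hw', hx'⟩ := (X_dvd_ser_iff hw i).1 h2
      refine ⟨w', hw', ?_⟩
      filter_upwards [hx, hx'] with x h3 h4
      rw [h3, h4]
      ring
  · rintro ⟨w, hw, hx⟩
    refine ⟨ser w, ?_⟩
    rw [ser_congr hx, ser_mul (hol_coord_pow i p) hw, ser_coord_pow]

/-! ### two variables -/

/-- Taylor series of a function on `ℂ × ℂ` -/
noncomputable def ser2 (F : ℂ × ℂ → ℂ) : MvPowerSeries (Fin 2) ℂ :=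
  ser fun z : Fin 2 → ℂ => F (z 0, z 1)

/-- the linear isomorphism `ℂ² → ℂ × ℂ` -/
noncomputable def pairL : (Fin 2 → ℂ) →L[ℂ] ℂ × ℂ :=
  (ContinuousLinearMap.proj (R := ℂ) (φ := fun _ : Fin 2 => ℂ) 0).prod
    (ContinuousLinearMap.proj (R := ℂ) (φ := fun _ : Fin 2 => ℂ) 1)

noncomputable def pairR : (ℂ × ℂ) →L[ℂ] (Fin 2 → ℂ) :=
  ContinuousLinearMap.pi ![ContinuousLinearMap.fst ℂ ℂ ℂ, ContinuousLinearMap.snd ℂ ℂ ℂ]

theorem pairL_apply (z : Fin 2 → ℂ) : pairL z = (z 0, z 1) := rfl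

theorem pairR_apply (q : ℂ × ℂ) : pairR q = ![q.1, q.2] := by
  funext i
  fin_cases i <;> rfl

theorem hol2 {F : ℂ × ℂ → ℂ} (hF : AnalyticAt ℂ F 0) : Hol fun z : Fin 2 → ℂ => F (z 0, z 1) := by
  have h1 : AnalyticAt ℂ F (pairL 0) := by
    rw [map_zero]
    exact hF
  exact h1.comp (pairL.analyticAt 0)

theorem tendsto_pairL : Tendsto (fun z : Fin 2 → ℂ => ((z 0, z 1) : ℂ × ℂ)) (𝓝 0) (𝓝 0) := by
  have h1 : Tendsto pairL (𝓝 0) (𝓝 (pairL 0)) := pairL.continuous.tendsto 0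
  rw [map_zero] at h1
  exact h1

theorem tendsto_pairR : Tendsto (fun q : ℂ × ℂ => (![q.1, q.2] : Fin 2 → ℂ)) (𝓝 0) (𝓝 0) := by
  have h1 : Tendsto pairR (𝓝 0) (𝓝 (pairR 0)) := pairR.continuous.tendsto 0
  rw [map_zero] at h1
  have h2 : (fun q : ℂ × ℂ => (![q.1, q.2] : Fin 2 → ℂ)) = pairR := by
    funext q
    rw [pairR_apply]
  rw [h2]
  exact h1

theorem analyticAt_pairR {w : (Fin 2 → ℂ) → ℂ} (hw : Hol w) :
    AnalyticAt ℂ (fun q : ℂ × ℂ => w ![q.1, q.2]) 0 := by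
  have h1 : AnalyticAt ℂ w (pairR 0) := by
    rw [map_zero]
    exact hw
  have h2 := h1.comp (pairR.analyticAt 0)
  have h3 : w ∘ pairR = fun q : ℂ × ℂ => w ![q.1, q.2] := by
    funext q
    rw [Function.comp_apply, pairR_apply]
  rw [h3] at h2
  exact h2

section

variable {F G : ℂ × ℂ → ℂ}

theorem ser2_mul (hF : AnalyticAt ℂ F 0) (hG : AnalyticAt ℂ G 0) :
    ser2 (fun q => F q * G q) = ser2 F * ser2 G := ser_mul (hol2 hF) (hol2 hG)

theorem ser2_add (hF : AnalyticAt ℂ F 0) (hG : AnalyticAt ℂ G 0) :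
    ser2 (fun q => F q + G q) = ser2 F + ser2 G := ser_add (hol2 hF) (hol2 hG)

theorem ser2_sub (hF : AnalyticAt ℂ F 0) (hG : AnalyticAt ℂ G 0) :
    ser2 (fun q => F q - G q) = ser2 F - ser2 G := ser_sub (hol2 hF) (hol2 hG)

theorem ser2_const (c : ℂ) : ser2 (fun _ => c) = MvPowerSeries.C c := ser_const c

theorem ser2_fst : ser2 (fun q => q.1) = MvPowerSeries.X 0 := ser_coord 0

theorem ser2_snd : ser2 (fun q => q.2) = MvPowerSeries.X 1 := ser_coord 1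

theorem ser2_congr (h : F =ᶠ[𝓝 0] G) : ser2 F = ser2 G :=
  ser_congr (tendsto_pairL.eventually h)

theorem ser2_pow (hF : AnalyticAt ℂ F 0) (k : ℕ) : ser2 (fun q => F q ^ k) = ser2 F ^ k := by
  induction k with
  | zero =>
    simp only [pow_zero]
    rw [ser2_const, map_one]
  | succ k ih =>
    simp only [pow_succ]
    rw [ser2_mul (hF.fun_pow k) hF, ih]

theorem constantCoeff_ser2 (hF : AnalyticAt ℂ F 0) :
    MvPowerSeries.constantCoeff (ser2 F) = F 0 :=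
  constantCoeff_ser (hol2 hF)

theorem isUnit_ser2_iff (hF : AnalyticAt ℂ F 0) : IsUnit (ser2 F) ↔ F 0 ≠ 0 :=
  isUnit_ser_iff (hol2 hF)

theorem ser2_eq_iff (hF : AnalyticAt ℂ F 0) (hG : AnalyticAt ℂ G 0) :
    ser2 F = ser2 G ↔ F =ᶠ[𝓝 0] G := by
  rw [ser2, ser2, ser_eq_iff (hol2 hF) (hol2 hG)]
  refine ⟨fun h => ?_, fun h => tendsto_pairL.eventually h⟩
  have h1 := tendsto_pairR.eventually h
  filter_upwards [h1] with q hq
  simpa using hq

theorem ser2_eq_zero_iff (hF : AnalyticAt ℂ F 0) : ser2 F = 0 ↔ ∀ᶠ q in 𝓝 0, F q = 0 := by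
  have h1 : (0 : MvPowerSeries (Fin 2) ℂ) = ser2 (fun _ => (0 : ℂ)) := by
    rw [ser2_const, map_zero]
  rw [h1, ser2_eq_iff hF analyticAt_const]
  rfl

end

/-- **monomials dividing a germ in two variables** -/
theorem monomial_dvd_iff {F : ℂ × ℂ → ℂ} (hF : AnalyticAt ℂ F 0) (p r : ℕ) :
    MvPowerSeries.X 0 ^ p * MvPowerSeries.X 1 ^ r ∣ ser2 F ↔
      ∃ G : ℂ × ℂ → ℂ, AnalyticAt ℂ G 0 ∧ ∀ᶠ q in 𝓝 0, F q = q.1 ^ p * q.2 ^ r * G q := by
  constructor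
  · intro h
    obtain ⟨w, hw, hx⟩ := (X_pow_dvd_ser_iff (hol2 hF) 0 p).1 ((Dvd.intro _ rfl).trans h)
    have h1 : ser2 F = MvPowerSeries.X 0 ^ p * ser w := by
      rw [ser2, ser_congr hx, ser_mul (hol_coord_pow 0 p) hw, ser_coord_pow]
    rw [h1] at h
    have h2 : MvPowerSeries.X 1 ^ r ∣ ser w :=
      (mul_dvd_mul_iff_left (pow_ne_zero _ (X_ne_zero 0))).1 h
    obtain ⟨w', hw', hx'⟩ := (X_pow_dvd_ser_iff hw 1 r).1 h2
    refine ⟨fun q => w' ![q.1, q.2], analyticAt_pairR hw', ?_⟩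
    filter_upwards [tendsto_pairR.eventually hx, tendsto_pairR.eventually hx'] with q h3 h4
    simp only [Matrix.cons_val_zero, Matrix.cons_val_one] at h3 h4
    rw [h3, h4]
    ring
  · rintro ⟨G, hG, hx⟩
    refine ⟨ser2 G, ?_⟩
    rw [ser2_congr hx, ser2_mul ((analyticAt_fst.fun_pow p).fun_mul (analyticAt_snd.fun_pow r)) hG,
      ser2_mul (analyticAt_fst.fun_pow p) (analyticAt_snd.fun_pow r), ser2_pow analyticAt_fst,
      ser2_pow analyticAt_snd, ser2_fst, ser2_snd]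

/-- the bound given by a monomial divisor -/
theorem bound_of_dvd {F : ℂ × ℂ → ℂ} (hF : AnalyticAt ℂ F 0) {p r : ℕ}
    (h : MvPowerSeries.X 0 ^ p * MvPowerSeries.X 1 ^ r ∣ ser2 F) :
    ∃ C : ℝ, 0 < C ∧ ∀ᶠ q in 𝓝 (0 : ℂ × ℂ), ‖F q‖ ≤ C * (‖q.1‖ ^ p * ‖q.2‖ ^ r) := by
  obtain ⟨G, hG, hx⟩ := (monomial_dvd_iff hF p r).1 h
  refine ⟨‖G 0‖ + 1, by positivity, ?_⟩
  have h1 : ∀ᶠ q in 𝓝 (0 : ℂ × ℂ), ‖G q‖ < ‖G 0‖ + 1 :=
    hG.continuousAt.norm.eventually_lt continuousAt_const (by simp)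
  filter_upwards [hx, h1] with q hq h2
  rw [hq, norm_mul, norm_mul, norm_pow, norm_pow]
  calc ‖q.1‖ ^ p * ‖q.2‖ ^ r * ‖G q‖ ≤ ‖q.1‖ ^ p * ‖q.2‖ ^ r * (‖G 0‖ + 1) :=
        mul_le_mul_of_nonneg_left h2.le (by positivity)
    _ = _ := by ring

/-- **monomial times unit** -/
theorem monomial_unit_iff {F : ℂ × ℂ → ℂ} (hF : AnalyticAt ℂ F 0) (p r : ℕ) :
    (∃ U, IsUnit U ∧ ser2 F = MvPowerSeries.X 0 ^ p * MvPowerSeries.X 1 ^ r * U) ↔
      ∃ G : ℂ × ℂ → ℂ, AnalyticAt ℂ G 0 ∧ G 0 ≠ 0 ∧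
        ∀ᶠ q in 𝓝 0, F q = q.1 ^ p * q.2 ^ r * G q := by
  have key : ∀ G : ℂ × ℂ → ℂ, AnalyticAt ℂ G 0 →
      (∀ᶠ q in 𝓝 0, F q = q.1 ^ p * q.2 ^ r * G q) →
      ser2 F = MvPowerSeries.X 0 ^ p * MvPowerSeries.X 1 ^ r * ser2 G := by
    intro G hG hx
    rw [ser2_congr hx, ser2_mul ((analyticAt_fst.fun_pow p).fun_mul (analyticAt_snd.fun_pow r)) hG,
      ser2_mul (analyticAt_fst.fun_pow p) (analyticAt_snd.fun_pow r), ser2_pow analyticAt_fst,
      ser2_pow analyticAt_snd, ser2_fst, ser2_snd]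
  constructor
  · rintro ⟨U, hU, h⟩
    obtain ⟨G, hG, hx⟩ := (monomial_dvd_iff hF p r).1 ⟨U, h⟩
    refine ⟨G, hG, ?_, hx⟩
    rw [← isUnit_ser2_iff hG]
    have h1 := key G hG hx
    rw [h] at h1
    have h2 : U = ser2 G := mul_left_cancel₀
      (mul_ne_zero (pow_ne_zero _ (X_ne_zero 0)) (pow_ne_zero _ (X_ne_zero 1))) h1
    rw [← h2]
    exact hU
  · rintro ⟨G, hG, hG0, hx⟩
    exact ⟨ser2 G, (isUnit_ser2_iff hG).2 hG0, key G hG hx⟩

/-- two-sided bound for monomial times unit -/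
theorem bound_of_unit {F : ℂ × ℂ → ℂ} (hF : AnalyticAt ℂ F 0) {p r : ℕ}
    (h : ∃ U, IsUnit U ∧ ser2 F = MvPowerSeries.X 0 ^ p * MvPowerSeries.X 1 ^ r * U) :
    ∃ c : ℝ, 0 < c ∧ ∀ᶠ q in 𝓝 (0 : ℂ × ℂ), c * (‖q.1‖ ^ p * ‖q.2‖ ^ r) ≤ ‖F q‖ := by
  obtain ⟨G, hG, hG0, hx⟩ := (monomial_unit_iff hF p r).1 h
  have hp : 0 < ‖G 0‖ := norm_pos_iff.2 hG0
  refine ⟨‖G 0‖ / 2, by positivity, ?_⟩
  have h1 : ∀ᶠ q in 𝓝 (0 : ℂ × ℂ), ‖G 0‖ / 2 < ‖G q‖ :=
    continuousAt_const.eventually_lt hG.continuousAt.norm (by linarith)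
  filter_upwards [hx, h1] with q hq h2
  rw [hq, norm_mul, norm_mul, norm_pow, norm_pow]
  calc ‖G 0‖ / 2 * (‖q.1‖ ^ p * ‖q.2‖ ^ r) = ‖q.1‖ ^ p * ‖q.2‖ ^ r * (‖G 0‖ / 2) := by ring
    _ ≤ ‖q.1‖ ^ p * ‖q.2‖ ^ r * ‖G q‖ := mul_le_mul_of_nonneg_left h2.le (by positivity)

end Vale.Agent.P298.H701
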