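import Vale.Agent.P298.H416.Cmp

/-!
# P298, row E1-BRIDGE (helper701), part 4: the tower of valuations on `ℂ((b))((a))`
-/

namespace Vale.Agent.P298.H701

open Vale.Agent.P298.H416

section LS

variable {K : Type*} [Field K]

/-- the valuation ring of the field of Laurent series -/
def VS (K : Type*) [Field K] : ValuationSubring (LaurentSeries K) where
  carrier := {f | f = 0 ∨ 0 ≤ f.order}
  mul_mem' := by
    rintro f g hf hg
    by_cases h : f * g = 0
    · exact Or.inl h
    · have hf0 : f ≠ 0 := left_ne_zero_of_mul h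
      have hg0 : g ≠ 0 := right_ne_zero_of_mul h
      refine Or.inr ?_
      rw [HahnSeries.order_mul hf0 hg0]
      exact add_nonneg (hf.resolve_left hf0) (hg.resolve_left hg0)
  one_mem' := Or.inr (by rw [HahnSeries.order_one])
  add_mem' := by
    rintro f g hf hg
    by_cases hf0 : f = 0
    · rw [hf0, zero_add]; exact hg
    by_cases hg0 : g = 0
    · rw [hg0, add_zero]; exact hf
    by_cases h : f + g = 0
    · exact Or.inl h
    · exact Or.inr ((le_min (hf.resolve_left hf0) (hg.resolve_left hg0)).trans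
        (HahnSeries.min_order_le_order_add h))
  zero_mem' := Or.inl rfl
  neg_mem' := by
    rintro f hf
    rcases hf with rfl | hf
    · exact Or.inl neg_zero
    · exact Or.inr (by rw [HahnSeries.order_neg]; exact hf)
  mem_or_inv_mem' := by
    intro f
    by_cases hf0 : f = 0
    · exact Or.inl (Or.inl hf0)
    · have h1 : f * f⁻¹ = 1 := mul_inv_cancel₀ hf0
      have h2 := HahnSeries.order_mul hf0 (inv_ne_zero hf0)
      rw [h1, HahnSeries.order_one] at h2
      rcases le_total 0 f.order with h | h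
      · exact Or.inl (Or.inr h)
      · exact Or.inr (Or.inr (by omega))

theorem mem_VS {f : LaurentSeries K} : f ∈ VS K ↔ f = 0 ∨ 0 ≤ f.order := Iff.rfl

theorem nord_VS : NOrd (VS K) (HahnSeries.order : LaurentSeries K → ℤ) where
  zero := HahnSeries.order_zero
  mul _ _ hx hy := HahnSeries.order_mul hx hy
  add _ _ _ _ h := HahnSeries.min_order_le_order_add h
  mem _ := mem_VS
  one := ⟨HahnSeries.single 1 1, HahnSeries.order_single one_ne_zero⟩

theorem coeff_eq_zero_of_neg {f : LaurentSeries K} (hf : f ∈ VS K) {i : ℤ} (hi : i < 0) :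
    f.coeff i = 0 := by
  rcases hf with rfl | hf
  · rfl
  · exact HahnSeries.coeff_eq_zero_of_lt_order (hi.trans_le hf)

theorem mem_VS_iff_coeff {f : LaurentSeries K} : f ∈ VS K ↔ ∀ i < 0, f.coeff i = 0 := by
  refine ⟨fun h i hi => coeff_eq_zero_of_neg h hi, fun h => ?_⟩
  by_cases hf0 : f = 0
  · exact Or.inl hf0
  · refine Or.inr (not_lt.1 fun hlt => ?_)
    exact hf0 (HahnSeries.coeff_order_eq_zero.1 (h _ hlt))

theorem coeff_zero_ne_zero_iff {f : LaurentSeries K} (hf : f ∈ VS K) :
    f.coeff 0 = 0 ↔ f = 0 ∨ 0 < f.order := by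
  constructor
  · intro h
    by_cases hf0 : f = 0
    · exact Or.inl hf0
    · refine Or.inr (lt_of_le_of_ne (hf.resolve_left hf0) fun h0 => ?_)
      rw [h0] at h
      exact hf0 (HahnSeries.coeff_order_eq_zero.1 h)
  · rintro (rfl | h)
    · rfl
    · exact HahnSeries.coeff_eq_zero_of_lt_order h

theorem coeff_zero_mul {f g : LaurentSeries K} (hf : f ∈ VS K) (hg : g ∈ VS K) :
    (f * g).coeff 0 = f.coeff 0 * g.coeff 0 := by
  by_cases hf0 : f = 0
  · simp [hf0]
  by_cases hg0 : g = 0
  · simp [hg0]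
  have h1 := HahnSeries.order_mul hf0 hg0
  have hf1 := hf.resolve_left hf0
  have hg1 := hg.resolve_left hg0
  by_cases hf2 : f.order = 0
  · by_cases hg2 : g.order = 0
    · have h2 := HahnSeries.coeff_mul_order_add_order f g
      rw [HahnSeries.leadingCoeff_eq, HahnSeries.leadingCoeff_eq, hf2, hg2, add_zero] at h2
      exact h2
    · rw [(coeff_zero_ne_zero_iff hg).2 (Or.inr (lt_of_le_of_ne hg1 (Ne.symm hg2))), mul_zero]
      refine HahnSeries.coeff_eq_zero_of_lt_order ?_
      have := lt_of_le_of_ne hg1 (Ne.symm hg2)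
      omega
  · rw [(coeff_zero_ne_zero_iff hf).2 (Or.inr (lt_of_le_of_ne hf1 (Ne.symm hf2))), zero_mul]
    refine HahnSeries.coeff_eq_zero_of_lt_order ?_
    have := lt_of_le_of_ne hf1 (Ne.symm hf2)
    omega

/-- the constant coefficient as the residue map -/
noncomputable def resLS (K : Type*) [Field K] : Res (VS K) K where
  ρ := {
    toFun := fun f => (f : LaurentSeries K).coeff 0
    map_one' := by simp
    map_zero' := by simp
    map_add' := fun f g => by simp
    map_mul' := fun f g => coeff_zero_mul f.2 g.2 }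
  ker := fun x => by
    have h1 : ((x : LaurentSeries K).coeff 0 = 0) ↔ (VS K).valuation (x : LaurentSeries K) < 1 := by
      rw [coeff_zero_ne_zero_iff x.2]
      by_cases hx : (x : LaurentSeries K) = 0
      · rw [hx, map_zero]
        exact ⟨fun _ => zero_lt_one, fun _ => Or.inl rfl⟩
      · rw [nord_VS.val_lt_one hx]
        exact ⟨fun h => h.resolve_left hx, Or.inr⟩
    exact h1

theorem resLS_apply (f : VS K) : (resLS K).ρ f = (f : LaurentSeries K).coeff 0 := rfl

/-- `f ↦ ∑ ω^i σ(f_i) X^i`, as a function. -/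
noncomputable def twf (σ : K →+* K) (ω : K) (f : LaurentSeries K) : LaurentSeries K :=
  ⟨fun i => ω ^ i * σ (f.coeff i), f.isPWO_support.mono fun i hi => by
    intro h0
    apply hi
    simp only [h0, map_zero, mul_zero]⟩

theorem twf_coeff (σ : K →+* K) (ω : K) (f : LaurentSeries K) (i : ℤ) :
    (twf σ ω f).coeff i = ω ^ i * σ (f.coeff i) := rfl

theorem twf_support (σ : K →+* K) {ω : K} (hω : ω ≠ 0) (f : LaurentSeries K) :
    (twf σ ω f).support = f.support := by
  ext i
  rw [HahnSeries.mem_support, HahnSeries.mem_support, twf_coeff]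
  simp [hω, zpow_ne_zero]

/-- the endomorphism `f ↦ ∑ ω^i σ(f_i) X^i`. -/
noncomputable def twist (σ : K →+* K) (ω : K) (hω : ω ≠ 0) :
    LaurentSeries K →+* LaurentSeries K where
  toFun := twf σ ω
  map_zero' := by
    ext i
    rw [twf_coeff]
    simp
  map_one' := by
    ext i
    rw [twf_coeff]
    by_cases hi : i = 0
    · simp [hi]
    · simp [HahnSeries.coeff_one, hi]
  map_add' f g := by
    ext i
    rw [HahnSeries.coeff_add, twf_coeff, twf_coeff, twf_coeff, HahnSeries.coeff_add, map_add,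
      mul_add]
  map_mul' f g := by
    ext i
    rw [twf_coeff, HahnSeries.coeff_mul, HahnSeries.coeff_mul, map_sum, Finset.mul_sum]
    refine Finset.sum_congr ?_ fun ij hij => ?_
    · ext ij
      rw [Finset.mem_antidiagonal, Finset.mem_antidiagonal, twf_support σ hω,
        twf_support σ hω]
    · rw [Finset.mem_antidiagonal] at hij
      rw [twf_coeff, twf_coeff, map_mul, ← hij.2.2, zpow_add₀ hω]
      ring

theorem twist_coeff (σ : K →+* K) {ω : K} (hω : ω ≠ 0) (f : LaurentSeries K) (i : ℤ) :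
    (twist σ ω hω f).coeff i = ω ^ i * σ (f.coeff i) := rfl

theorem twist_order (σ : K →+* K) {ω : K} (hω : ω ≠ 0) (f : LaurentSeries K) :
    (twist σ ω hω f).order = f.order := by
  by_cases hf : f = 0
  · rw [hf, map_zero]
  have hne : twist σ ω hω f ≠ 0 := (map_ne_zero_iff _ (RingHom.injective _)).2 hf
  refine le_antisymm ?_ ?_
  · refine HahnSeries.order_le_of_coeff_ne_zero ?_
    rw [twist_coeff]
    refine mul_ne_zero (zpow_ne_zero _ hω) ((map_ne_zero_iff _ σ.injective).2 ?_)
    exact fun h => hf (HahnSeries.coeff_order_eq_zero.1 h)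
  · refine HahnSeries.order_le_of_coeff_ne_zero ?_
    intro h
    have h1 : (twist σ ω hω f).coeff (twist σ ω hω f).order ≠ 0 :=
      fun h => hne (HahnSeries.coeff_order_eq_zero.1 h)
    rw [twist_coeff, h, map_zero, mul_zero] at h1
    exact h1 rfl

theorem twist_leadingCoeff (σ : K →+* K) {ω : K} (hω : ω ≠ 0) (f : LaurentSeries K) :
    (twist σ ω hω f).leadingCoeff = ω ^ f.order * σ f.leadingCoeff := by
  rw [HahnSeries.leadingCoeff_eq, HahnSeries.leadingCoeff_eq, twist_order, twist_coeff]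

end LS

/-! ### the two-dimensional field -/

/-- `Ω = ℂ((b))((a))`. -/
abbrev OM : Type := LaurentSeries (LaurentSeries ℂ)

/-- the two orders -/
noncomputable def lam (z : OM) : ℤ × ℤ := (z.order, z.leadingCoeff.order)

theorem lam_mul {z w : OM} (hz : z ≠ 0) (hw : w ≠ 0) : lam (z * w) = lam z + lam w := by
  unfold lam
  rw [HahnSeries.order_mul hz hw, HahnSeries.leadingCoeff_mul,
    HahnSeries.order_mul (HahnSeries.leadingCoeff_ne_zero.2 hz)
      (HahnSeries.leadingCoeff_ne_zero.2 hw)]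
  rfl

theorem lam_one : lam 1 = 0 := by
  unfold lam
  rw [HahnSeries.order_one, HahnSeries.leadingCoeff_one, HahnSeries.order_one]
  rfl

theorem lam_inv {z : OM} (hz : z ≠ 0) : lam z⁻¹ = - lam z := by
  have h1 : z * z⁻¹ = 1 := mul_inv_cancel₀ (G₀ := OM) hz
  have hz' : z⁻¹ ≠ (0 : OM) := inv_ne_zero (G₀ := OM) hz
  have h := lam_mul hz hz'
  rw [h1, lam_one] at h
  exact (neg_eq_of_add_eq_zero_right h.symm).symm

/-- the double leading coefficient -/
noncomputable def lc2 (z : OM) : ℂ := z.leadingCoeff.leadingCoeff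

theorem lc2_mul (z w : OM) : lc2 (z * w) = lc2 z * lc2 w := by
  unfold lc2
  rw [HahnSeries.leadingCoeff_mul, HahnSeries.leadingCoeff_mul]

theorem lc2_ne_zero {z : OM} : lc2 z ≠ 0 ↔ z ≠ 0 := by
  unfold lc2
  rw [HahnSeries.leadingCoeff_ne_zero, HahnSeries.leadingCoeff_ne_zero]

/-- rotation `(a, b) ↦ (ω a, ω' b)` on `Ω` -/
noncomputable def rot (ω ω' : ℂ) (h : ω ≠ 0) (h' : ω' ≠ 0) : OM →+* OM :=
  twist (twist (RingHom.id ℂ) ω' h') (HahnSeries.C ω)
    ((map_ne_zero_iff _ HahnSeries.C_injective).2 h)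

theorem rot_coeff {ω ω' : ℂ} (h : ω ≠ 0) (h' : ω' ≠ 0) (z : OM) (i j : ℤ) :
    ((rot ω ω' h h' z).coeff i).coeff j = ω ^ i * ω' ^ j * (z.coeff i).coeff j := by
  rw [rot, twist_coeff, ← map_zpow₀, HahnSeries.C_mul_eq_smul, HahnSeries.coeff_smul, twist_coeff,
    smul_eq_mul, RingHom.id_apply]
  ring

theorem rot_lam {ω ω' : ℂ} (h : ω ≠ 0) (h' : ω' ≠ 0) (z : OM) : lam (rot ω ω' h h' z) = lam z := by
  unfold lam
  by_cases hz : z = 0
  · rw [hz, map_zero]
  rw [rot, twist_order, twist_leadingCoeff, HahnSeries.order_mul, twist_order, ← map_zpow₀,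
    HahnSeries.order_C, zero_add]
  · exact zpow_ne_zero _ ((map_ne_zero_iff _ HahnSeries.C_injective).2 h)
  · exact (map_ne_zero_iff _ (RingHom.injective _)).2 (HahnSeries.leadingCoeff_ne_zero.2 hz)

theorem rot_lc2 {ω ω' : ℂ} (h : ω ≠ 0) (h' : ω' ≠ 0) (z : OM) :
    lc2 (rot ω ω' h h' z) = ω ^ (lam z).1 * ω' ^ (lam z).2 * lc2 z := by
  unfold lc2 lam
  rw [rot, twist_leadingCoeff, HahnSeries.leadingCoeff_mul, twist_leadingCoeff, ← map_zpow₀,
    HahnSeries.leadingCoeff_eq, HahnSeries.order_C]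
  simp only [RingHom.id_apply, HahnSeries.C_apply, HahnSeries.coeff_single_same]
  ring

end Vale.Agent.P298.H701
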