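import Vale.Agent.P298.H701.Br3
import Vale.Agent.P298.H701.Br4

/-!
# P298, row E1-BRIDGE (helper701), part 5: the two embeddings of `ℂ[[a, b]]` in `ℂ((·))((·))`
-/

namespace Vale.Agent.P298.H701

open Filter Topology Metric Vale.Agent.P298 Vale.Agent.P298.H766

/-- exponents -/
noncomputable def ex (i j : ℕ) : Fin 2 →₀ ℕ := (Finsupp.single (0 : Fin 1) j).cons i

theorem ex_zero (i j : ℕ) : ex i j 0 = i := by simp [ex]

theorem ex_one (i j : ℕ) : ex i j 1 = j := by
  rw [ex]
  have h : (1 : Fin 2) = (0 : Fin 1).succ := rfl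
  rw [h, Finsupp.cons_succ, Finsupp.single_eq_same]

theorem ex_surj (d : Fin 2 →₀ ℕ) : ex (d 0) (d 1) = d := by
  ext k
  fin_cases k
  · exact ex_zero _ _
  · exact ex_one _ _

/-- the embedding of index sets -/
def e1emb : Fin 1 ↪ Unit := ⟨fun _ => (), fun _ _ _ => Subsingleton.elim _ _⟩

/-- power series in one variable, two notations -/
noncomputable def e1 : MvPowerSeries (Fin 1) ℂ →ₐ[ℂ] PowerSeries ℂ :=
  MvPowerSeries.rename e1emb

theorem coeff_e1 (f : MvPowerSeries (Fin 1) ℂ) (j : ℕ) :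
    PowerSeries.coeff j (e1 f) = MvPowerSeries.coeff (Finsupp.single 0 j) f := by
  have h := MvPowerSeries.coeff_embDomain_rename e1emb f (Finsupp.single 0 j)
  rw [Finsupp.embDomain_single] at h
  exact h

/-- `ℂ[[a, b]] → ℂ[[b]][[a]]` -/
noncomputable def toPP : MvPowerSeries (Fin 2) ℂ →+* PowerSeries (PowerSeries ℂ) :=
  (PowerSeries.map (e1 : MvPowerSeries (Fin 1) ℂ →+* PowerSeries ℂ)).comp
    (MvPowerSeries.finSuccEquiv ℂ 1 : MvPowerSeries (Fin 2) ℂ →+*
      PowerSeries (MvPowerSeries (Fin 1) ℂ))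

theorem coeff_toPP (F : MvPowerSeries (Fin 2) ℂ) (i j : ℕ) :
    PowerSeries.coeff j (PowerSeries.coeff i (toPP F)) = MvPowerSeries.coeff (ex i j) F := by
  rw [toPP, RingHom.comp_apply, PowerSeries.coeff_map]
  have h1 : ∀ g : MvPowerSeries (Fin 1) ℂ,
      (e1 : MvPowerSeries (Fin 1) ℂ →+* PowerSeries ℂ) g = e1 g := fun _ => rfl
  rw [h1, coeff_e1]
  exact MvPowerSeries.coeff_coeff_finSuccEquiv F

theorem toPP_X0 : toPP (MvPowerSeries.X 0) = PowerSeries.X := by
  rw [toPP, RingHom.comp_apply]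
  have h1 : (MvPowerSeries.finSuccEquiv ℂ 1 : MvPowerSeries (Fin 2) ℂ →+*
      PowerSeries (MvPowerSeries (Fin 1) ℂ)) (MvPowerSeries.X 0) = PowerSeries.X :=
    MvPowerSeries.finSuccEquiv_X_zero
  rw [h1, PowerSeries.map_X]

theorem toPP_X1 : toPP (MvPowerSeries.X 1) = PowerSeries.C PowerSeries.X := by
  rw [toPP, RingHom.comp_apply]
  have h1 : (MvPowerSeries.finSuccEquiv ℂ 1 : MvPowerSeries (Fin 2) ℂ →+*
      PowerSeries (MvPowerSeries (Fin 1) ℂ)) (MvPowerSeries.X 1) =
        PowerSeries.C (MvPowerSeries.X 0) :=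
    MvPowerSeries.finSuccEquiv_X_succ 0
  rw [h1, PowerSeries.map_C]
  congr 1
  ext j
  have h2 : (e1 : MvPowerSeries (Fin 1) ℂ →+* PowerSeries ℂ) (MvPowerSeries.X 0) =
      e1 (MvPowerSeries.X 0) := rfl
  rw [h2, coeff_e1, MvPowerSeries.coeff_X, PowerSeries.coeff_X]
  by_cases hj : j = 1
  · rw [if_pos hj, if_pos (by rw [hj])]
  · rw [if_neg hj, if_neg]
    intro h3
    exact hj (Finsupp.single_injective _ h3)

theorem toPP_C (c : ℂ) : toPP (MvPowerSeries.C c) = PowerSeries.C (PowerSeries.C c) := by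
  ext i j
  rw [coeff_toPP, MvPowerSeries.coeff_C, PowerSeries.coeff_C]
  by_cases hi : i = 0
  · rw [if_pos hi, PowerSeries.coeff_C]
    by_cases hj : j = 0
    · rw [if_pos hj, if_pos]
      rw [hi, hj]
      ext k
      fin_cases k
      · exact ex_zero _ _
      · exact ex_one _ _
    · rw [if_neg hj, if_neg]
      intro h
      have := ex_one i j
      rw [h] at this
      exact hj this.symm
  · rw [if_neg hi, map_zero, if_neg]
    intro h
    have := ex_zero i j
    rw [h] at this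
    exact hi this.symm

/-- the side `a = 0`: `ℂ[[a, b]] → ℂ((b))((a))` -/
noncomputable def sA : MvPowerSeries (Fin 2) ℂ →+* OM :=
  (HahnSeries.ofPowerSeries ℤ (LaurentSeries ℂ)).comp
    ((PowerSeries.map (HahnSeries.ofPowerSeries ℤ ℂ)).comp toPP)

theorem coeff_sA (F : MvPowerSeries (Fin 2) ℂ) (i j : ℕ) :
    ((sA F).coeff i).coeff j = MvPowerSeries.coeff (ex i j) F := by
  rw [sA, RingHom.comp_apply, RingHom.comp_apply, HahnSeries.ofPowerSeries_apply_coeff,
    PowerSeries.coeff_map, HahnSeries.ofPowerSeries_apply_coeff, coeff_toPP]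

theorem sA_X0 : sA (MvPowerSeries.X 0) = HahnSeries.single 1 1 := by
  rw [sA, RingHom.comp_apply, RingHom.comp_apply, toPP_X0, PowerSeries.map_X,
    HahnSeries.ofPowerSeries_X]

theorem sA_X1 : sA (MvPowerSeries.X 1) = HahnSeries.C (HahnSeries.single 1 1) := by
  rw [sA, RingHom.comp_apply, RingHom.comp_apply, toPP_X1, PowerSeries.map_C,
    HahnSeries.ofPowerSeries_X, HahnSeries.ofPowerSeries_C]

theorem sA_C (c : ℂ) : sA (MvPowerSeries.C c) = HahnSeries.C (HahnSeries.C c) := by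
  rw [sA, RingHom.comp_apply, RingHom.comp_apply, toPP_C, PowerSeries.map_C,
    HahnSeries.ofPowerSeries_C, HahnSeries.ofPowerSeries_C]

theorem sA_injective : Function.Injective sA := by
  rw [injective_iff_map_eq_zero]
  intro F hF
  ext d
  rw [map_zero, ← ex_surj d, ← coeff_sA, hF, HahnSeries.coeff_zero, HahnSeries.coeff_zero]

end Vale.Agent.P298.H701
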