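import Vale.Agent.P298.H701.Br5

/-!
# P298, row E1-BRIDGE (helper701), part 6: orders of elements of `ℂ[[a, b]]`
-/

namespace Vale.Agent.P298.H701

open Filter Topology Metric Vale.Agent.P298 Vale.Agent.P298.H766

theorem mem_VS_ofPowerSeries {K : Type*} [Field K] (f : PowerSeries K) :
    HahnSeries.ofPowerSeries ℤ K f ∈ VS K := by
  rw [mem_VS_iff_coeff]
  intro i hi
  have h := PowerSeries.coeff_coe (f := f) i
  rw [if_pos hi] at h
  exact h

theorem sA_mem (F : MvPowerSeries (Fin 2) ℂ) : sA F ∈ VS (LaurentSeries ℂ) :=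
  mem_VS_ofPowerSeries _

theorem coeff_sA_mem (F : MvPowerSeries (Fin 2) ℂ) (i : ℤ) : (sA F).coeff i ∈ VS ℂ := by
  rcases lt_or_ge i 0 with hi | hi
  · rw [coeff_eq_zero_of_neg (sA_mem F) hi]
    exact Or.inl rfl
  · obtain ⟨k, rfl⟩ := Int.eq_ofNat_of_zero_le hi
    rw [sA, RingHom.comp_apply, RingHom.comp_apply,
      HahnSeries.ofPowerSeries_apply_coeff, PowerSeries.coeff_map]
    exact mem_VS_ofPowerSeries _

theorem sA_ne_zero {F : MvPowerSeries (Fin 2) ℂ} : sA F ≠ 0 ↔ F ≠ 0 :=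
  map_ne_zero_iff sA sA_injective

theorem order_sA_nonneg (F : MvPowerSeries (Fin 2) ℂ) : 0 ≤ (sA F).order := by
  rcases sA_mem F with h | h
  · rw [h, HahnSeries.order_zero]
  · exact h

theorem lam_sA_nonneg (F : MvPowerSeries (Fin 2) ℂ) : 0 ≤ (lam (sA F)).2 := by
  unfold lam
  rw [HahnSeries.leadingCoeff_eq]
  rcases coeff_sA_mem F (sA F).order with h | h
  · simp only [h, HahnSeries.order_zero, le_refl]
  · exact h

theorem lam_sA_X0 : lam (sA (MvPowerSeries.X 0)) = (1, 0) := by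
  unfold lam
  rw [sA_X0, HahnSeries.order_single one_ne_zero, HahnSeries.leadingCoeff_of_single,
    HahnSeries.order_one]

theorem lam_sA_X1 : lam (sA (MvPowerSeries.X 1)) = (0, 1) := by
  unfold lam
  rw [sA_X1, HahnSeries.C_apply, HahnSeries.order_single, HahnSeries.leadingCoeff_of_single,
    HahnSeries.order_single one_ne_zero]
  exact HahnSeries.single_ne_zero one_ne_zero

/-- a power series is a unit iff both orders are `0` -/
theorem lam_sA_eq_zero_iff {F : MvPowerSeries (Fin 2) ℂ} (hF : F ≠ 0) :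
    lam (sA F) = 0 ↔ IsUnit F := by
  rw [MvPowerSeries.isUnit_iff_constantCoeff, isUnit_iff_ne_zero]
  have hc : MvPowerSeries.constantCoeff F = ((sA F).coeff 0).coeff 0 := by
    have h := coeff_sA F 0 0
    have h0 : ex 0 0 = 0 := by
      ext k
      fin_cases k
      · exact ex_zero _ _
      · exact ex_one _ _
    rw [h0, MvPowerSeries.coeff_zero_eq_constantCoeff_apply] at h
    exact h.symm
  rw [hc]
  have hne : sA F ≠ 0 := sA_ne_zero.2 hF
  constructor
  · intro h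
    have h1 : (sA F).order = 0 := congrArg Prod.fst h
    have h2 : (sA F).leadingCoeff.order = 0 := congrArg Prod.snd h
    rw [HahnSeries.leadingCoeff_eq, h1] at h2
    intro h3
    have h4 : (sA F).coeff 0 ≠ 0 := by
      intro h5
      rw [← h1] at h5
      exact hne (HahnSeries.coeff_order_eq_zero.1 h5)
    have h6 : ((sA F).coeff 0).coeff ((sA F).coeff 0).order = 0 := by
      rw [h2]
      exact h3
    exact h4 (HahnSeries.coeff_order_eq_zero.1 h6)
  · intro h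
    have h1 : (sA F).coeff 0 ≠ 0 := by
      intro h2
      rw [h2, HahnSeries.coeff_zero] at h
      exact h rfl
    have h2 : (sA F).order = 0 :=
      le_antisymm (HahnSeries.order_le_of_coeff_ne_zero h1) (order_sA_nonneg F)
    have h3 : ((sA F).coeff 0).order = 0 := by
      refine le_antisymm (HahnSeries.order_le_of_coeff_ne_zero h) ?_
      exact (coeff_sA_mem F 0).resolve_left h1
    unfold lam
    rw [HahnSeries.leadingCoeff_eq, h2, h3]
    rfl

theorem lam_pow {z : OM} (hz : z ≠ 0) (k : ℕ) : lam (z ^ k) = k • lam z := by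
  induction k with
  | zero => rw [pow_zero, lam_one, zero_smul]
  | succ k ih =>
    rw [pow_succ, lam_mul (pow_ne_zero (M₀ := OM) k hz) hz, ih, succ_nsmul]

theorem lam_monomial (p r : ℕ) :
    lam (sA (MvPowerSeries.X 0 ^ p * MvPowerSeries.X 1 ^ r)) = ((p : ℤ), (r : ℤ)) := by
  have h0 : sA (MvPowerSeries.X 0) ≠ 0 := sA_ne_zero.2 (X_ne_zero 0)
  have h1 : sA (MvPowerSeries.X 1) ≠ 0 := sA_ne_zero.2 (X_ne_zero 1)
  rw [map_mul, map_pow, map_pow, lam_mul (pow_ne_zero (M₀ := OM) _ h0) (pow_ne_zero (M₀ := OM) _ h1), lam_pow h0,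
    lam_pow h1, lam_sA_X0, lam_sA_X1]
  ext <;> simp

theorem mono_ne_zero (p r : ℕ) :
    (MvPowerSeries.X 0 ^ p * MvPowerSeries.X 1 ^ r : MvPowerSeries (Fin 2) ℂ) ≠ 0 :=
  mul_ne_zero (pow_ne_zero _ (X_ne_zero 0)) (pow_ne_zero _ (X_ne_zero 1))

/-- monomial divisors give lower bounds for the orders, with equality iff the quotient is a
unit. -/
theorem lam_of_dvd {F : MvPowerSeries (Fin 2) ℂ} (hF : F ≠ 0) {p r : ℕ}
    (h : MvPowerSeries.X 0 ^ p * MvPowerSeries.X 1 ^ r ∣ F) :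
    (p : ℤ) ≤ (lam (sA F)).1 ∧ (r : ℤ) ≤ (lam (sA F)).2 ∧
      (lam (sA F) = ((p : ℤ), (r : ℤ)) ↔
        ∃ U, IsUnit U ∧ F = MvPowerSeries.X 0 ^ p * MvPowerSeries.X 1 ^ r * U) := by
  obtain ⟨G, rfl⟩ := h
  have hG : G ≠ 0 := right_ne_zero_of_mul hF
  have h1 : lam (sA (MvPowerSeries.X 0 ^ p * MvPowerSeries.X 1 ^ r * G)) =
      ((p : ℤ), (r : ℤ)) + lam (sA G) := by
    rw [map_mul, lam_mul (sA_ne_zero.2 (mono_ne_zero p r)) (sA_ne_zero.2 hG), lam_monomial]
  have h2 : 0 ≤ (lam (sA G)).1 := order_sA_nonneg G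
  have h3 : 0 ≤ (lam (sA G)).2 := lam_sA_nonneg G
  refine ⟨?_, ?_, ?_⟩
  · rw [h1, Prod.fst_add]
    simp only
    omega
  · rw [h1, Prod.snd_add]
    simp only
    omega
  · rw [h1, add_eq_left, lam_sA_eq_zero_iff hG]
    constructor
    · intro hu
      exact ⟨G, hu, rfl⟩
    · rintro ⟨U, hU, h⟩
      rw [mul_left_cancel₀ (mono_ne_zero p r) h]
      exact hU

theorem lam_of_unit {F U : MvPowerSeries (Fin 2) ℂ} {p r : ℕ} (hU : IsUnit U)
    (h : F = MvPowerSeries.X 0 ^ p * MvPowerSeries.X 1 ^ r * U) :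
    lam (sA F) = ((p : ℤ), (r : ℤ)) := by
  have hF : F ≠ 0 := by
    rw [h]
    exact mul_ne_zero (mono_ne_zero p r) hU.ne_zero
  exact (lam_of_dvd hF ⟨U, h⟩).2.2.2 ⟨U, hU, h⟩

/-- **the order along `a = 0`** -/
theorem le_order_iff {F : MvPowerSeries (Fin 2) ℂ} (hF : F ≠ 0) (p : ℕ) :
    (p : ℤ) ≤ (sA F).order ↔ MvPowerSeries.X 0 ^ p ∣ F := by
  constructor
  · intro h
    rw [MvPowerSeries.X_pow_dvd_iff]
    intro m hm
    have h1 : (sA F).coeff (m 0 : ℕ) = 0 := by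
      refine HahnSeries.coeff_eq_zero_of_lt_order (lt_of_lt_of_le ?_ h)
      exact_mod_cast hm
    rw [← ex_surj m, ← coeff_sA, h1, HahnSeries.coeff_zero]
  · intro h
    have h1 : MvPowerSeries.X 0 ^ p * MvPowerSeries.X 1 ^ 0 ∣ F := by rwa [pow_zero, mul_one]
    exact (lam_of_dvd hF h1).1

/-! ### the other side -/

/-- exchange of the variables -/
noncomputable def sw : MvPowerSeries (Fin 2) ℂ →ₐ[ℂ] MvPowerSeries (Fin 2) ℂ :=
  sub ![MvPowerSeries.X 1, MvPowerSeries.X 0] (fun i => by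
    fin_cases i
    · exact MvPowerSeries.constantCoeff_X 1
    · exact MvPowerSeries.constantCoeff_X 0)

theorem sw_X0 : sw (MvPowerSeries.X 0) = MvPowerSeries.X 1 := sub_X _ _ 0

theorem sw_X1 : sw (MvPowerSeries.X 1) = MvPowerSeries.X 0 := sub_X _ _ 1

theorem sw_sw (F : MvPowerSeries (Fin 2) ℂ) : sw (sw F) = F := by
  have h : sw.comp sw = AlgHom.id ℂ _ := by
    refine algHom_ext fun i => ?_
    fin_cases i
    · change sw (sw (MvPowerSeries.X 0)) = _
      rw [sw_X0, sw_X1]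
      rfl
    · change sw (sw (MvPowerSeries.X 1)) = _
      rw [sw_X1, sw_X0]
      rfl
  exact DFunLike.congr_fun h F

theorem sw_injective : Function.Injective sw := fun F G h => by
  rw [← sw_sw F, h, sw_sw]

theorem sw_ser2 {F : ℂ × ℂ → ℂ} (hF : AnalyticAt ℂ F 0) :
    sw (ser2 F) = ser2 fun q => F (q.2, q.1) := by
  have hΦ : AnalyticAt ℂ (fun z : Fin 2 → ℂ => (![z 1, z 0] : Fin 2 → ℂ)) 0 := by
    refine (analyticAt_pi_iff).2 fun i => ?_
    fin_cases i
    · exact hol_coord 1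
    · exact hol_coord 0
  have h0 : (![(0 : Fin 2 → ℂ) 1, (0 : Fin 2 → ℂ) 0] : Fin 2 → ℂ) = 0 := by
    funext i
    fin_cases i <;> rfl
  have h1 := ser_comp (hol2 hF) hΦ h0
  have h2 : subΦ (fun z : Fin 2 → ℂ => (![z 1, z 0] : Fin 2 → ℂ)) hΦ h0 = sw := by
    refine algHom_ext fun i => ?_
    rw [subΦ, sub_X, sw, sub_X]
    fin_cases i
    · exact ser_coord 1
    · exact ser_coord 0
  rw [h2] at h1
  exact h1.symm

/-- the side `b = 0` -/
noncomputable def sB : MvPowerSeries (Fin 2) ℂ →+* OM :=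
  sA.comp (sw : MvPowerSeries (Fin 2) ℂ →+* MvPowerSeries (Fin 2) ℂ)

theorem sB_apply (F : MvPowerSeries (Fin 2) ℂ) : sB F = sA (sw F) := rfl

theorem sB_injective : Function.Injective sB := sA_injective.comp sw_injective

theorem sw_dvd_iff {F G : MvPowerSeries (Fin 2) ℂ} : sw F ∣ sw G ↔ F ∣ G := by
  constructor
  · rintro ⟨H, h⟩
    refine ⟨sw H, sw_injective ?_⟩
    rw [h, map_mul, sw_sw]
  · rintro ⟨H, rfl⟩
    exact ⟨sw H, map_mul _ _ _⟩

theorem le_orderB_iff {F : MvPowerSeries (Fin 2) ℂ} (hF : F ≠ 0) (r : ℕ) :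
    (r : ℤ) ≤ (sB F).order ↔ MvPowerSeries.X 1 ^ r ∣ F := by
  have h1 : sw F ≠ 0 := (map_ne_zero_iff sw sw_injective).2 hF
  rw [sB_apply, le_order_iff h1, ← sw_dvd_iff, sw_sw, map_pow, sw_X0]

theorem lamB_of_unit {F U : MvPowerSeries (Fin 2) ℂ} {p r : ℕ} (hU : IsUnit U)
    (h : F = MvPowerSeries.X 0 ^ p * MvPowerSeries.X 1 ^ r * U) :
    lam (sB F) = ((r : ℤ), (p : ℤ)) := by
  rw [sB_apply]
  refine lam_of_unit (hU.map sw) ?_
  rw [h, map_mul, map_mul, map_pow, map_pow, sw_X0, sw_X1]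
  ring

/-- **both orders together** -/
theorem dvd_of_orders {F : MvPowerSeries (Fin 2) ℂ} (hF : F ≠ 0) {p r : ℕ}
    (hp : (p : ℤ) ≤ (sA F).order) (hr : (r : ℤ) ≤ (sB F).order) :
    MvPowerSeries.X 0 ^ p * MvPowerSeries.X 1 ^ r ∣ F := by
  obtain ⟨G, rfl⟩ := (le_order_iff hF p).1 hp
  have h1 := (le_orderB_iff hF r).1 hr
  have h2 : MvPowerSeries.X 1 ^ r ∣ G := by
    rw [MvPowerSeries.X_pow_dvd_iff] at h1 ⊢
    intro m hm
    have h3 := h1 (m + Finsupp.single 0 p) (by simpa using hm)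
    rw [mul_comm, MvPowerSeries.X_pow_eq, MvPowerSeries.coeff_add_mul_monomial, mul_one] at h3
    exact h3
  obtain ⟨H, rfl⟩ := h2
  exact ⟨H, by ring⟩

end Vale.Agent.P298.H701
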