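import Vale.Agent.P298.H701.Br6
import Vale.Agent.P298.H707.Glue4

/-!
# P298, row E1-BRIDGE (helper701), part 7: the homomorphisms given by charts
-/

namespace Vale.Agent.P298.H701

open Filter Topology Metric Vale.Agent.P298 Vale.Agent.P298.H766 Vale.Agent.P298.H707
  Vale.Agent.P298.H379 Polynomial

/-! ### maps of the plane -/

/-- a map of the plane, as a map of `ℂ²` -/
def lift2 (Θ : ℂ × ℂ → ℂ × ℂ) (z : Fin 2 → ℂ) : Fin 2 → ℂ :=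
  ![(Θ (z 0, z 1)).1, (Θ (z 0, z 1)).2]

variable {Θ : ℂ × ℂ → ℂ × ℂ}

theorem an_pairL {E : Type*} [NormedAddCommGroup E] [NormedSpace ℂ E] {F : ℂ × ℂ → E}
    (hF : AnalyticAt ℂ F 0) : AnalyticAt ℂ (fun z : Fin 2 → ℂ => F (z 0, z 1)) 0 := by
  have h1 : AnalyticAt ℂ F (pairL 0) := by
    rw [map_zero]
    exact hF
  exact h1.comp (pairL.analyticAt 0)

theorem an_lift2 (hΘ : AnalyticAt ℂ Θ 0) : AnalyticAt ℂ (lift2 Θ) 0 := by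
  refine (analyticAt_pi_iff).2 fun i => ?_
  fin_cases i
  · exact an_pairL (F := fun q => (Θ q).1) (analyticAt_fst.comp_of_eq hΘ rfl)
  · exact an_pairL (F := fun q => (Θ q).2) (analyticAt_snd.comp_of_eq hΘ rfl)

theorem lift2_zero (h0 : Θ 0 = 0) : lift2 Θ 0 = 0 := by
  have h1 : (((0 : Fin 2 → ℂ) 0, (0 : Fin 2 → ℂ) 1) : ℂ × ℂ) = 0 := rfl
  funext i
  fin_cases i
  · change (Θ ((0 : Fin 2 → ℂ) 0, (0 : Fin 2 → ℂ) 1)).1 = 0
    rw [h1, h0]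
    rfl
  · change (Θ ((0 : Fin 2 → ℂ) 0, (0 : Fin 2 → ℂ) 1)).2 = 0
    rw [h1, h0]
    rfl

/-- the homomorphism of `ℂ[[x, y]]` in `ℂ[[a, b]]` given by a map of the plane -/
noncomputable def bas (Θ : ℂ × ℂ → ℂ × ℂ) (hΘ : AnalyticAt ℂ Θ 0) (h0 : Θ 0 = 0) :
    MvPowerSeries (Fin 2) ℂ →ₐ[ℂ] MvPowerSeries (Fin 2) ℂ :=
  subΦ (lift2 Θ) (an_lift2 hΘ) (lift2_zero h0)

theorem bas_ser2 (hΘ : AnalyticAt ℂ Θ 0) (h0 : Θ 0 = 0) {F : ℂ × ℂ → ℂ}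
    (hF : AnalyticAt ℂ F 0) : bas Θ hΘ h0 (ser2 F) = ser2 fun q => F (Θ q) := by
  rw [bas, ser2, ← ser_comp (hol2 hF)]
  rfl

theorem pd_lift (F : ℂ × ℂ → ℂ) (z : Fin 2 → ℂ) (hF : DifferentiableAt ℂ F (z 0, z 1)) :
    pd 0 (fun z : Fin 2 → ℂ => F (z 0, z 1)) z = fderiv ℂ F (z 0, z 1) (1, 0) ∧
      pd 1 (fun z : Fin 2 → ℂ => F (z 0, z 1)) z = fderiv ℂ F (z 0, z 1) (0, 1) := by
  have h1 : HasFDerivAt (fun z : Fin 2 → ℂ => F (z 0, z 1))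
      ((fderiv ℂ F (z 0, z 1)).comp pairL) z :=
    HasFDerivAt.comp (g := F) z hF.hasFDerivAt pairL.hasFDerivAt
  constructor
  · rw [pd, h1.fderiv, ContinuousLinearMap.comp_apply, pairL_apply]
    simp
  · rw [pd, h1.fderiv, ContinuousLinearMap.comp_apply, pairL_apply]
    simp

/-- a map of the plane with non-zero Jacobian gives an injective homomorphism -/
theorem bas_injective (hΘ : AnalyticAt ℂ Θ 0) (h0 : Θ 0 = 0)
    (hJ : ∃ᶠ q in 𝓝 (0 : ℂ × ℂ), jacP Θ q ≠ 0) : Function.Injective (bas Θ hΘ h0) := by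
  refine sub_injective _ (constantCoeff_ser_apply (an_lift2 hΘ) (lift2_zero h0)) ?_
  have hl := an_lift2 hΘ
  have hf : AnalyticAt ℂ (fun q => (Θ q).1) 0 := analyticAt_fst.comp_of_eq hΘ rfl
  have hs : AnalyticAt ℂ (fun q => (Θ q).2) 0 := analyticAt_snd.comp_of_eq hΘ rfl
  have hu : ∀ i : Fin 2, Hol fun z => lift2 Θ z i := fun i => hol_apply hl i
  have hp : ∀ i j : Fin 2, Hol (pd j fun z => lift2 Θ z i) := fun i j => hol_pd (hu i) j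
  have hdet : (Matrix.of fun i j : Fin 2 =>
      MvPowerSeries.pderiv ℂ j (ser fun z => lift2 Θ z i)).det =
      ser fun z => pd 0 (fun z => lift2 Θ z 0) z * pd 1 (fun z => lift2 Θ z 1) z -
        pd 1 (fun z => lift2 Θ z 0) z * pd 0 (fun z => lift2 Θ z 1) z := by
    rw [Matrix.det_fin_two]
    simp only [Matrix.of_apply]
    rw [ser_sub (AnalyticAt.fun_mul (hp 0 0) (hp 1 1)) (AnalyticAt.fun_mul (hp 0 1) (hp 1 0)),
      ser_mul (hp 0 0) (hp 1 1), ser_mul (hp 0 1) (hp 1 0), ser_pd (hu 0), ser_pd (hu 1),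
      ser_pd (hu 0), ser_pd (hu 1)]
  rw [hdet]
  intro h1
  have h2 := eventually_zero_of_ser
    ((AnalyticAt.fun_mul (hp 0 0) (hp 1 1)).sub (AnalyticAt.fun_mul (hp 0 1) (hp 1 0))) h1
  apply hJ
  have h3 : ∀ᶠ q : ℂ × ℂ in 𝓝 0, DifferentiableAt ℂ Θ q :=
    hΘ.eventually_analyticAt.mono fun q hq => hq.differentiableAt
  filter_upwards [tendsto_pairR.eventually h2, h3] with q hq hd
  rw [not_not]
  have hq1 : (![q.1, q.2] : Fin 2 → ℂ) 0 = q.1 := rfl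
  have hq2 : (![q.1, q.2] : Fin 2 → ℂ) 1 = q.2 := rfl
  have hdf : HasFDerivAt (fun q => (Θ q).1)
      ((ContinuousLinearMap.fst ℂ ℂ ℂ).comp (fderiv ℂ Θ q)) q :=
    HasFDerivAt.comp (g := Prod.fst) q (hasFDerivAt_fst (𝕜 := ℂ)) hd.hasFDerivAt
  have hds : HasFDerivAt (fun q => (Θ q).2)
      ((ContinuousLinearMap.snd ℂ ℂ ℂ).comp (fderiv ℂ Θ q)) q :=
    HasFDerivAt.comp (g := Prod.snd) q (hasFDerivAt_snd (𝕜 := ℂ)) hd.hasFDerivAt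
  have e1 := pd_lift (fun q => (Θ q).1) ![q.1, q.2] (by
    rw [hq1, hq2]; exact hdf.differentiableAt)
  have e2 := pd_lift (fun q => (Θ q).2) ![q.1, q.2] (by
    rw [hq1, hq2]; exact hds.differentiableAt)
  rw [hq1, hq2] at e1 e2
  rw [hdf.fderiv] at e1
  rw [hds.fderiv] at e2
  have f1 : (fun z : Fin 2 → ℂ => lift2 Θ z 0) = fun z => (Θ (z 0, z 1)).1 := rfl
  have f2 : (fun z : Fin 2 → ℂ => lift2 Θ z 1) = fun z => (Θ (z 0, z 1)).2 := rfl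
  rw [f1, f2] at hq
  change pd 0 (fun z : Fin 2 → ℂ => (Θ (z 0, z 1)).1) ![q.1, q.2] *
    pd 1 (fun z : Fin 2 → ℂ => (Θ (z 0, z 1)).2) ![q.1, q.2] -
    pd 1 (fun z : Fin 2 → ℂ => (Θ (z 0, z 1)).1) ![q.1, q.2] *
    pd 0 (fun z : Fin 2 → ℂ => (Θ (z 0, z 1)).2) ![q.1, q.2] = 0 at hq
  rw [e1.1, e1.2, e2.1, e2.2] at hq
  rw [jacP]
  exact hq

/-! ### charts of the surface -/

/-- the homomorphism `ℂ[[x, y, z]] → ℂ[[a, b]]` given by a germ of a map -/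
noncomputable def chH (Φ : ℂ × ℂ → Fin 3 → ℂ) (hΦ : AnalyticAt ℂ Φ 0) (h0 : Φ 0 = 0) :
    MvPowerSeries (Fin 3) ℂ →ₐ[ℂ] MvPowerSeries (Fin 2) ℂ :=
  subΦ (fun z : Fin 2 → ℂ => Φ (z 0, z 1)) (an_pairL hΦ) h0

theorem chH_ser {Φ : ℂ × ℂ → Fin 3 → ℂ} (hΦ : AnalyticAt ℂ Φ 0) (h0 : Φ 0 = 0)
    {h : (Fin 3 → ℂ) → ℂ} (hh : Hol h) : chH Φ hΦ h0 (ser h) = ser2 fun q => h (Φ q) := by
  rw [chH, ser2, ← ser_comp hh]

theorem chH_eq_zero {Φ : ℂ × ℂ → Fin 3 → ℂ} (hΦ : AnalyticAt ℂ Φ 0) (h0 : Φ 0 = 0)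
    {f : (Fin 3 → ℂ) → ℂ} (hf : Hol f) (h : ∀ᶠ q in 𝓝 (0 : ℂ × ℂ), f (Φ q) = 0) :
    chH Φ hΦ h0 (ser f) = 0 := by
  rw [chH_ser hΦ h0 hf]
  have h1 : ser2 (fun q => f (Φ q)) = ser2 fun _ => 0 := ser2_congr h
  rw [h1, ser2_const, map_zero]

/-- `ℂ[[x, y]] ⊂ ℂ[[x, y, z]]` -/
noncomputable def incl : MvPowerSeries (Fin 2) ℂ →ₐ[ℂ] MvPowerSeries (Fin 3) ℂ :=
  sub ![MvPowerSeries.X 0, MvPowerSeries.X 1] (fun i => by
    fin_cases i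
    · exact MvPowerSeries.constantCoeff_X 0
    · exact MvPowerSeries.constantCoeff_X 1)

theorem incl_X0 : incl (MvPowerSeries.X 0) = MvPowerSeries.X 0 := sub_X _ _ 0

theorem incl_X1 : incl (MvPowerSeries.X 1) = MvPowerSeries.X 1 := sub_X _ _ 1

theorem analyticAt_fst_apply (hΘ : AnalyticAt ℂ Θ 0) : AnalyticAt ℂ (fun q => (Θ q).1) 0 :=
  analyticAt_fst.comp_of_eq hΘ rfl

theorem analyticAt_snd_apply (hΘ : AnalyticAt ℂ Θ 0) : AnalyticAt ℂ (fun q => (Θ q).2) 0 :=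
  analyticAt_snd.comp_of_eq hΘ rfl

theorem chH_incl {z : ℂ × ℂ → ℂ} (hΘ : AnalyticAt ℂ Θ 0) (h0 : Θ 0 = 0)
    (hΦ : AnalyticAt ℂ (fun q => pt (Θ q) (z q)) 0) (h0' : pt (Θ 0) (z 0) = 0)
    (F : MvPowerSeries (Fin 2) ℂ) :
    chH (fun q => pt (Θ q) (z q)) hΦ h0' (incl F) = bas Θ hΘ h0 F := by
  have h : (chH (fun q => pt (Θ q) (z q)) hΦ h0').comp incl = bas Θ hΘ h0 := by
    refine algHom_ext fun i => ?_
    rw [AlgHom.comp_apply, bas, subΦ, sub_X]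
    fin_cases i
    · change chH _ hΦ h0' (incl (MvPowerSeries.X 0)) = _
      rw [incl_X0, chH, subΦ, sub_X]
      rfl
    · change chH _ hΦ h0' (incl (MvPowerSeries.X 1)) = _
      rw [incl_X1, chH, subΦ, sub_X]
      rfl
  exact DFunLike.congr_fun h F

theorem chH_X2 {z : ℂ × ℂ → ℂ} (hΦ : AnalyticAt ℂ (fun q => pt (Θ q) (z q)) 0)
    (h0' : pt (Θ 0) (z 0) = 0) :
    chH (fun q => pt (Θ q) (z q)) hΦ h0' (MvPowerSeries.X 2) = ser2 z := by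
  rw [chH, subΦ, sub_X]
  rfl

/-! ### monomial times unit -/

/-- 707's condition in terms of power series -/
theorem monU_iff {g : ℂ × ℂ → ℂ} (hg : AnalyticAt ℂ g 0) (i j : ℕ) :
    MonU g i j ↔ ∃ U, IsUnit U ∧ ser2 g = MvPowerSeries.X 0 ^ i * MvPowerSeries.X 1 ^ j * U :=
  (monomial_unit_iff hg i j).symm

theorem MonU.lam_sA {g : ℂ × ℂ → ℂ} {i j : ℕ} (h : MonU g i j) :
    lam (sA (ser2 g)) = ((i : ℤ), (j : ℤ)) := by
  obtain ⟨U, hU, h1⟩ := (monU_iff h.analyticAt i j).1 h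
  exact lam_of_unit hU h1

theorem MonU.lam_sB {g : ℂ × ℂ → ℂ} {i j : ℕ} (h : MonU g i j) :
    lam (sB (ser2 g)) = ((j : ℤ), (i : ℤ)) := by
  obtain ⟨U, hU, h1⟩ := (monU_iff h.analyticAt i j).1 h
  exact lamB_of_unit hU h1

/-- lower bounds of the orders along both axes give a bound of the function -/
theorem bound_of_orders {g : ℂ × ℂ → ℂ} (hg : AnalyticAt ℂ g 0) {i j : ℕ}
    (h : ser2 g = 0 ∨ (i : ℤ) ≤ (sA (ser2 g)).order ∧ (j : ℤ) ≤ (sB (ser2 g)).order) :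
    ∃ C : ℝ, 0 < C ∧ ∀ᶠ q in 𝓝 (0 : ℂ × ℂ), ‖g q‖ ≤ C * (‖q.1‖ ^ i * ‖q.2‖ ^ j) := by
  refine bound_of_dvd hg ?_
  by_cases h0 : ser2 g = 0
  · rw [h0]
    exact dvd_zero _
  · obtain ⟨h1, h2⟩ := h.resolve_left h0
    exact dvd_of_orders h0 h1 h2

/-- equality in the second order gives monomial times unit -/
theorem monU_of_orders {g : ℂ × ℂ → ℂ} (hg : AnalyticAt ℂ g 0) (h0 : ser2 g ≠ 0) {i j : ℕ}
    (h : lam (sA (ser2 g)) = ((i : ℤ), (j : ℤ))) (h2 : (j : ℤ) ≤ (sB (ser2 g)).order) :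
    MonU g i j := by
  have h1 : (i : ℤ) ≤ (sA (ser2 g)).order := by
    have := congrArg Prod.fst h
    simp only [lam] at this
    omega
  rw [monU_iff hg]
  exact ((lam_of_dvd h0 (dvd_of_orders h0 h1 h2)).2.2).1 h

end Vale.Agent.P298.H701
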