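import Vale.Agent.P298.H701.Br7

/-!
# P298, row E1-BRIDGE (helper701), part 8: Weierstrass polynomials, roots, monodromy
-/

namespace Vale.Agent.P298.H701

open Filter Topology Metric Vale.Agent.P298 Vale.Agent.P298.H766 Vale.Agent.P298.H707
  Vale.Agent.P298.H379 Vale.Agent.P298.H983 Polynomial

/-- a family of polynomials with analytic coefficients, as a polynomial over `ℂ[[x, y]]` -/
noncomputable def serPoly (n : ℕ) (P : ℂ × ℂ → ℂ[X]) : (MvPowerSeries (Fin 2) ℂ)[X] :=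
  ∑ i ∈ Finset.range (n + 1), C (ser2 fun q => (P q).coeff i) * X ^ i

variable {n : ℕ} {P Q : ℂ × ℂ → ℂ[X]}

theorem coeff_serPoly (n : ℕ) (P : ℂ × ℂ → ℂ[X]) (i : ℕ) :
    (serPoly n P).coeff i = if i ≤ n then ser2 (fun q => (P q).coeff i) else 0 := by
  rw [serPoly, finsetSum_coeff]
  simp only [coeff_C_mul_X_pow]
  rw [Finset.sum_ite_eq]
  simp only [Finset.mem_range, Nat.lt_succ_iff]

theorem coeff_serPoly' (hd : ∀ q, (P q).natDegree ≤ n) (i : ℕ) :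
    (serPoly n P).coeff i = ser2 (fun q => (P q).coeff i) := by
  rw [coeff_serPoly]
  split_ifs with hi
  · rfl
  · have h : (fun q => (P q).coeff i) = fun _ => 0 := by
      funext q
      exact coeff_eq_zero_of_natDegree_lt (lt_of_le_of_lt (hd q) (not_le.1 hi))
    rw [h, ser2_const, map_zero]

theorem serPoly_congr (h : P =ᶠ[𝓝 0] Q) : serPoly n P = serPoly n Q := by
  ext1 i
  rw [coeff_serPoly, coeff_serPoly]
  split_ifs
  · refine ser2_congr ?_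
    filter_upwards [h] with q hq
    rw [hq]
  · rfl

theorem serPoly_monic (hm : ∀ q, (P q).Monic) (hd : ∀ q, (P q).natDegree = n) :
    (serPoly n P).Monic ∧ (serPoly n P).natDegree = n := by
  have h1 : (serPoly n P).coeff n = 1 := by
    rw [coeff_serPoly, if_pos le_rfl]
    have h : (fun q => (P q).coeff n) = fun _ => 1 := by
      funext q
      rw [← hd q]
      exact hm q
    rw [h, ser2_const, map_one]
  have h2 : (serPoly n P).natDegree ≤ n := by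
    rw [natDegree_le_iff_coeff_eq_zero]
    intro N hN
    rw [coeff_serPoly, if_neg (not_le.2 hN)]
  have h3 : (serPoly n P).natDegree = n := by
    refine le_antisymm h2 (le_natDegree_of_ne_zero ?_)
    rw [h1]
    exact one_ne_zero
  exact ⟨by rw [Monic, leadingCoeff, h3, h1], h3⟩

theorem serPoly_map_bas {Θ : ℂ × ℂ → ℂ × ℂ} (hΘ : AnalyticAt ℂ Θ 0) (h0 : Θ 0 = 0)
    (hP : ∀ i, AnalyticAt ℂ (fun p => (P p).coeff i) 0) :
    (serPoly n P).map (bas Θ hΘ h0 : MvPowerSeries (Fin 2) ℂ →+* MvPowerSeries (Fin 2) ℂ) =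
      serPoly n fun q => P (Θ q) := by
  ext1 i
  rw [coeff_map, coeff_serPoly, coeff_serPoly]
  split_ifs
  · exact bas_ser2 hΘ h0 (hP i)
  · exact map_zero _

theorem serPoly_prod {ζ : Fin n → ℂ × ℂ → ℂ} (hζ : ∀ l, AnalyticAt ℂ (ζ l) 0) :
    serPoly n (fun q => ∏ l, (X - C (ζ l q))) = ∏ l, (X - C (ser2 (ζ l))) := by
  set z : Fin n → AnFun 2 := fun l => ⟨fun z : Fin 2 → ℂ => ζ l (z 0, z 1), hol2 (hζ l)⟩ with hz
  have h1 : ∏ l, (X - C (ser2 (ζ l))) = (∏ l, (X - C (z l))).map (T 2 : AnFun 2 →+* _) := by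
    rw [Polynomial.map_prod]
    refine Finset.prod_congr rfl fun l _ => ?_
    rw [Polynomial.map_sub, Polynomial.map_X, Polynomial.map_C, ser2, ser_eq (hol2 (hζ l))]
    rfl
  have hd : ∀ q, (∏ l : Fin n, (X - C (ζ l q))).natDegree ≤ n := by
    intro q
    rw [natDegree_finsetProd_X_sub_C_eq_card, Finset.card_univ, Fintype.card_fin]
  rw [h1]
  ext1 i
  rw [coeff_serPoly' hd, coeff_map]
  have h2 : ∀ x : Fin 2 → ℂ, (((∏ l, (X - C (z l))).coeff i : AnFun 2) : (Fin 2 → ℂ) → ℂ) x =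
      (∏ l : Fin n, (X - C (ζ l (x 0, x 1)))).coeff i := by
    intro x
    set ev : AnFun 2 →+* ℂ :=
      { toFun := fun f => (f : (Fin 2 → ℂ) → ℂ) x
        map_one' := rfl
        map_mul' := fun _ _ => rfl
        map_zero' := rfl
        map_add' := fun _ _ => rfl } with hev
    have h3 : (∏ l, (X - C (z l))).map ev = ∏ l : Fin n, (X - C (ζ l (x 0, x 1))) := by
      rw [Polynomial.map_prod]
      refine Finset.prod_congr rfl fun l _ => ?_
      rw [Polynomial.map_sub, Polynomial.map_X, Polynomial.map_C]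
      rfl
    rw [← h3, coeff_map]
    rfl
  have h3 : ser2 (fun q => (∏ l : Fin n, (X - C (ζ l q))).coeff i) =
      ser (((∏ l, (X - C (z l))).coeff i : AnFun 2) : (Fin 2 → ℂ) → ℂ) := by
    rw [ser2]
    congr 1
    funext x
    exact (h2 x).symm
  rw [h3, ser_eq ((∏ l, (X - C (z l))).coeff i).2]
  rfl

/-! ### the equation of the surface -/

theorem ser_fst_snd {c : ℂ × ℂ → ℂ} (hc : AnalyticAt ℂ c 0) :
    ser (fun x : Fin 3 → ℂ => c (x 0, x 1)) = incl (ser2 c) := by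
  have hΦ : AnalyticAt ℂ (fun x : Fin 3 → ℂ => (![x 0, x 1] : Fin 2 → ℂ)) 0 := by
    refine (analyticAt_pi_iff).2 fun i => ?_
    fin_cases i
    · exact hol_coord 0
    · exact hol_coord 1
  have h0 : (![(0 : Fin 3 → ℂ) 0, (0 : Fin 3 → ℂ) 1] : Fin 2 → ℂ) = 0 := by
    funext i
    fin_cases i <;> rfl
  have h1 := ser_comp (hol2 hc) hΦ h0
  have h2 : subΦ (fun x : Fin 3 → ℂ => (![x 0, x 1] : Fin 2 → ℂ)) hΦ h0 = incl := by
    refine algHom_ext fun i => ?_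
    rw [subΦ, sub_X, incl, sub_X]
    fin_cases i
    · exact ser_coord 0
    · exact ser_coord 1
  rw [h2] at h1
  exact h1

/-- **the Weierstrass polynomial is a unit times the equation** -/
theorem ser_WD {f : (Fin 3 → ℂ) → ℂ} {v : ℂ × (ℂ × ℂ) → ℂ} (hf : Hol f) (W : WD f n P v) :
    ∃ V, IsUnit V ∧ ser f * V =
      (serPoly n P).eval₂ (incl : MvPowerSeries (Fin 2) ℂ →+* MvPowerSeries (Fin 3) ℂ)
        (MvPowerSeries.X 2) := by
  have hv : Hol fun x : Fin 3 → ℂ => v (x 2, (x 0, x 1)) := by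
    have h1 : AnalyticAt ℂ (fun x : Fin 3 → ℂ => ((x 2, (x 0, x 1)) : ℂ × (ℂ × ℂ))) 0 :=
      (hol_coord 2).prod ((hol_coord 0).prod (hol_coord 1))
    exact AnalyticAt.comp_of_eq W.va h1 rfl
  refine ⟨ser fun x : Fin 3 → ℂ => v (x 2, (x 0, x 1)), (isUnit_ser_iff hv).2 W.v0, ?_⟩
  rw [← ser_mul hf hv]
  have h1 : ser (fun x : Fin 3 → ℂ => f x * v (x 2, (x 0, x 1))) =
      ser (fun x : Fin 3 → ℂ => ∑ i ∈ Finset.range (n + 1), (P (x 0, x 1)).coeff i * x 2 ^ i) := by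
    refine ser_congr ?_
    have h2 : Tendsto (fun x : Fin 3 → ℂ => ((x 2, (x 0, x 1)) : ℂ × (ℂ × ℂ))) (𝓝 0) (𝓝 0) :=
      Continuous.tendsto (by fun_prop) 0
    filter_upwards [h2.eventually W.fac] with x hx
    have h3 : pt (x 0, x 1) (x 2) = x := by
      funext i
      fin_cases i <;> rfl
    simp only [h3] at hx
    rw [hx, eval_eq_sum_range, W.deg]
  have hc : ∀ i, Hol fun x : Fin 3 → ℂ => (P (x 0, x 1)).coeff i * x 2 ^ i := by
    intro i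
    refine AnalyticAt.fun_mul ?_ (hol_coord_pow 2 i)
    have h1 : AnalyticAt ℂ (fun x : Fin 3 → ℂ => ((x 0, x 1) : ℂ × ℂ)) 0 :=
      (hol_coord 0).prod (hol_coord 1)
    exact AnalyticAt.comp_of_eq (W.hol i) h1 rfl
  rw [h1, ser_sum _ hc, serPoly, eval₂_finsetSum]
  refine Finset.sum_congr rfl fun i _ => ?_
  rw [eval₂_mul, eval₂_C, eval₂_pow, eval₂_X]
  have h2 : Hol fun x : Fin 3 → ℂ => (P (x 0, x 1)).coeff i := by
    have h1 : AnalyticAt ℂ (fun x : Fin 3 → ℂ => ((x 0, x 1) : ℂ × ℂ)) 0 :=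
      (hol_coord 0).prod (hol_coord 1)
    exact AnalyticAt.comp_of_eq (W.hol i) h1 rfl
  rw [ser_mul h2 (hol_coord_pow 2 i), ser_coord_pow, ser_fst_snd (W.hol i)]
  rfl

/-! ### rotations -/

/-- `F(a, b) ↦ F(ω a, ω' b)` -/
noncomputable def rsc (ω ω' : ℂ) : MvPowerSeries (Fin 2) ℂ →ₐ[ℂ] MvPowerSeries (Fin 2) ℂ :=
  MvPowerSeries.rescaleAlgHom ![ω, ω']

theorem coeff_rsc (ω ω' : ℂ) (F : MvPowerSeries (Fin 2) ℂ) (i j : ℕ) :
    MvPowerSeries.coeff (ex i j) (rsc ω ω' F) = ω ^ i * ω' ^ j * MvPowerSeries.coeff (ex i j) F := by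
  rw [rsc, MvPowerSeries.rescaleAlgHom_apply, MvPowerSeries.coeff_rescale]
  congr 1
  rw [Finsupp.prod_fintype _ _ (fun _ => pow_zero _), Fin.prod_univ_two, ex_zero, ex_one]
  rfl

theorem rsc_X0 (ω ω' : ℂ) : rsc ω ω' (MvPowerSeries.X 0) = ω • MvPowerSeries.X 0 := by
  ext d
  rw [← ex_surj d, coeff_rsc, MvPowerSeries.coeff_smul, MvPowerSeries.coeff_X]
  split_ifs with h
  · have h1 : d 0 = 1 := by
      have := congrArg (fun e : Fin 2 →₀ ℕ => e 0) h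
      simpa [ex_zero] using this
    have h2 : d 1 = 0 := by
      have := congrArg (fun e : Fin 2 →₀ ℕ => e 1) h
      simpa [ex_one] using this
    rw [h1, h2]
    simp
  · simp

theorem rsc_X1 (ω ω' : ℂ) : rsc ω ω' (MvPowerSeries.X 1) = ω' • MvPowerSeries.X 1 := by
  ext d
  rw [← ex_surj d, coeff_rsc, MvPowerSeries.coeff_smul, MvPowerSeries.coeff_X]
  split_ifs with h
  · have h1 : d 0 = 0 := by
      have := congrArg (fun e : Fin 2 →₀ ℕ => e 0) h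
      simpa [ex_zero] using this
    have h2 : d 1 = 1 := by
      have := congrArg (fun e : Fin 2 →₀ ℕ => e 1) h
      simpa [ex_one] using this
    rw [h1, h2]
    simp
  · simp

/-- **rotation on `Ω` and on power series** -/
theorem rot_sA {ω ω' : ℂ} (h : ω ≠ 0) (h' : ω' ≠ 0) (F : MvPowerSeries (Fin 2) ℂ) :
    rot ω ω' h h' (sA F) = sA (rsc ω ω' F) := by
  ext i j
  rcases lt_or_ge i 0 with hi | hi
  · rw [rot_coeff, coeff_eq_zero_of_neg (sA_mem F) hi, coeff_eq_zero_of_neg (sA_mem _) hi,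
      HahnSeries.coeff_zero, mul_zero]
  rcases lt_or_ge j 0 with hj | hj
  · rw [rot_coeff, coeff_eq_zero_of_neg (coeff_sA_mem F i) hj,
      coeff_eq_zero_of_neg (coeff_sA_mem _ i) hj, mul_zero]
  obtain ⟨i, rfl⟩ := Int.eq_ofNat_of_zero_le hi
  obtain ⟨j, rfl⟩ := Int.eq_ofNat_of_zero_le hj
  rw [rot_coeff, coeff_sA, coeff_sA, coeff_rsc, zpow_natCast, zpow_natCast]

theorem rsc_ser2 (ω ω' : ℂ) {F : ℂ × ℂ → ℂ} (hF : AnalyticAt ℂ F 0) :
    rsc ω ω' (ser2 F) = ser2 fun q => F (ω * q.1, ω' * q.2) := by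
  have hΦ : AnalyticAt ℂ (fun z : Fin 2 → ℂ => (![ω * z 0, ω' * z 1] : Fin 2 → ℂ)) 0 := by
    refine (analyticAt_pi_iff).2 fun i => ?_
    fin_cases i
    · exact analyticAt_const.fun_mul (hol_coord 0)
    · exact analyticAt_const.fun_mul (hol_coord 1)
  have h0 : (![ω * (0 : Fin 2 → ℂ) 0, ω' * (0 : Fin 2 → ℂ) 1] : Fin 2 → ℂ) = 0 := by
    funext i
    fin_cases i <;> simp
  have h1 := ser_comp (hol2 hF) hΦ h0
  have hsm : ∀ (c : ℂ) (k : Fin 2), ser (fun z : Fin 2 → ℂ => c * z k) =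
      c • MvPowerSeries.X k := by
    intro c k
    rw [ser_mul (show Hol fun _ : Fin 2 → ℂ => c from analyticAt_const) (hol_coord k), ser_const,
      ser_coord, MvPowerSeries.smul_eq_C_mul]
  have h2 : subΦ (fun z : Fin 2 → ℂ => (![ω * z 0, ω' * z 1] : Fin 2 → ℂ)) hΦ h0 = rsc ω ω' := by
    refine algHom_ext fun i => ?_
    rw [subΦ, sub_X]
    fin_cases i
    · change ser (fun z : Fin 2 → ℂ => ω * z 0) = rsc ω ω' (MvPowerSeries.X 0)
      rw [rsc_X0, hsm]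
    · change ser (fun z : Fin 2 → ℂ => ω' * z 1) = rsc ω ω' (MvPowerSeries.X 1)
      rw [rsc_X1, hsm]
  rw [h2] at h1
  exact h1.symm

theorem rot_sA_ser2 {ω ω' : ℂ} (h : ω ≠ 0) (h' : ω' ≠ 0) {F : ℂ × ℂ → ℂ}
    (hF : AnalyticAt ℂ F 0) :
    rot ω ω' h h' (sA (ser2 F)) = sA (ser2 fun q => F (ω * q.1, ω' * q.2)) := by
  rw [rot_sA, rsc_ser2 _ _ hF]

theorem rot_sB_ser2 {ω ω' : ℂ} (h : ω ≠ 0) (h' : ω' ≠ 0) {F : ℂ × ℂ → ℂ}
    (hF : AnalyticAt ℂ F 0) :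
    rot ω ω' h h' (sB (ser2 F)) = sB (ser2 fun q => F (ω' * q.1, ω * q.2)) := by
  have h1 : AnalyticAt ℂ (fun q : ℂ × ℂ => F (q.2, q.1)) 0 :=
    AnalyticAt.comp_of_eq hF (analyticAt_snd.prod analyticAt_fst) rfl
  have h2 : AnalyticAt ℂ (fun q : ℂ × ℂ => F (ω' * q.1, ω * q.2)) 0 :=
    AnalyticAt.comp_of_eq hF ((analyticAt_const.fun_mul analyticAt_fst).prod
      (analyticAt_const.fun_mul analyticAt_snd)) (by simp)
  rw [sB_apply, sw_ser2 hF, rot_sA_ser2 h h' h1, sB_apply, sw_ser2 h2]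

/-! ### the base of the chart is fixed by the rotations -/

theorem powK_an (K : ℕ) : AnalyticAt ℂ (fun q : ℂ × ℂ => (q.1 ^ K, q.2 ^ K)) 0 :=
  analyticAt_powK K 0

/-- `Θ(a^K, b^K)` -/
def tk (Θ : ℂ × ℂ → ℂ × ℂ) (K : ℕ) (q : ℂ × ℂ) : ℂ × ℂ := Θ (q.1 ^ K, q.2 ^ K)

theorem an_tk {Θ : ℂ × ℂ → ℂ × ℂ} (hΘ : AnalyticAt ℂ Θ 0) {K : ℕ} (hK : K ≠ 0) :
    AnalyticAt ℂ (tk Θ K) 0 :=
  AnalyticAt.comp_of_eq hΘ (analyticAt_powK K 0) (powK_zero hK)

theorem tk_zero {Θ : ℂ × ℂ → ℂ × ℂ} (h0 : Θ 0 = 0) {K : ℕ} (hK : K ≠ 0) : tk Θ K 0 = 0 := by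
  rw [tk, powK_zero hK, h0]

theorem rsc_bas_tk {Θ : ℂ × ℂ → ℂ × ℂ} (hΘ : AnalyticAt ℂ Θ 0) (h0 : Θ 0 = 0) {K : ℕ}
    (hK : K ≠ 0) {ω ω' : ℂ} (hω : ω ^ K = 1) (hω' : ω' ^ K = 1) (F : MvPowerSeries (Fin 2) ℂ) :
    rsc ω ω' (bas (tk Θ K) (an_tk hΘ hK) (tk_zero h0 hK) F) =
      bas (tk Θ K) (an_tk hΘ hK) (tk_zero h0 hK) F := by
  have h : (rsc ω ω').comp (bas (tk Θ K) (an_tk hΘ hK) (tk_zero h0 hK)) =
      bas (tk Θ K) (an_tk hΘ hK) (tk_zero h0 hK) := by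
    refine algHom_ext fun i => ?_
    rw [AlgHom.comp_apply, bas, subΦ, sub_X]
    have hr : ∀ q : ℂ × ℂ, tk Θ K (ω * q.1, ω' * q.2) = tk Θ K q := by
      intro q
      simp only [tk, mul_pow, hω, hω', one_mul]
    fin_cases i
    · change rsc ω ω' (ser2 fun q => (tk Θ K q).1) = ser2 fun q => (tk Θ K q).1
      rw [rsc_ser2 _ _ (analyticAt_fst_apply (an_tk hΘ hK))]
      simp only [hr]
    · change rsc ω ω' (ser2 fun q => (tk Θ K q).2) = ser2 fun q => (tk Θ K q).2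
      rw [rsc_ser2 _ _ (analyticAt_snd_apply (an_tk hΘ hK))]
      simp only [hr]
  exact DFunLike.congr_fun h F

end Vale.Agent.P298.H701
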