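import Vale.Agent.P298.H701.Srf3
import Vale.Agent.P298.H416.Om4
import Vale.Agent.P298.H471.Link

/-!
# P298 (helper701): the fields `ord` and `zero` of `Link`, and the regularity fields of `CModel`,
from an embedding in `Om`
-/

namespace Vale.Agent.P298.H701

open Filter Topology Vale.Agent.P298 Vale.Agent.P298.H766 Vale.Agent.P298.H707
  Vale.Agent.P298.H416 Vale.Agent.P298.H471

/-- order along `b = 0` = order along `a = 0` of the swapped element. -/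
theorem sB_order_eq (F : MvPowerSeries (Fin 2) ℂ) :
    (sB F).order = Ta.v (swOm (algebraMap (MvPowerSeries (Fin 2) ℂ) Om F)) := by
  rw [swOm_alg, Ta_v, jOm_alg]
  rfl

theorem sA_order_eq (F : MvPowerSeries (Fin 2) ℂ) :
    (sA F).order = Ta.v (algebraMap (MvPowerSeries (Fin 2) ℂ) Om F) := by
  rw [Ta_v, jOm_alg]

theorem lamB_eq (F : MvPowerSeries (Fin 2) ℂ) :
    lam (sB F) = (Ta.v (swOm (algebraMap (MvPowerSeries (Fin 2) ℂ) Om F)),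
      Ta.lam (swOm (algebraMap (MvPowerSeries (Fin 2) ℂ) Om F))) := by
  rw [swOm_alg, ← Ta_sA]
  rfl

section ord

variable {f : (Fin 3 → ℂ) → ℂ} {𝒦 : Type*} [Field 𝒦] [Algebra ℂ 𝒦] [Algebra (RV f) 𝒦]
    [IsScalarTower ℂ (RV f) 𝒦] {I : Type*} [Fintype I] [DecidableEq I]
    (C : H955.CModel (RV f) 𝒦 I)

/-- **the field `ord` of `Link`.** -/
theorem link_ord (ψ : 𝒦 →+* Om) (q : C.Q) (ka : ℕ)
    (hv : ∀ z : 𝒦, z ≠ 0 → Ta.v (ψ z) = ka * C.v q.1 z)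
    (hl : ∀ z : 𝒦, z ≠ 0 → Ta.lam (ψ z) = C.lam q z)
    (hb : ∀ q', C.nb q = some q' → ∀ z : 𝒦, z ≠ 0 → Ta.v (swOm (ψ z)) = C.e2 q * C.v q'.1 z)
    {ch : ℂ × ℂ → Fin 3 → ℂ} {h : (Fin 3 → ℂ) → ℂ}
    (hψ : ψ (algebraMap (RV f) 𝒦 (cl f h)) =
      algebraMap (MvPowerSeries (Fin 2) ℂ) Om (ser2 fun p => h (ch p)))
    (han : AnalyticAt ℂ (fun p => h (ch p)) 0) (h0 : cl f h ≠ 0) :
    ∃ (α β δ : ℕ) (u : ℂ × ℂ → ℂ) (g : ℂ → ℂ),
    (α : ℤ) = ka * C.vR q.1 (cl f h) ∧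
    (β : ℤ) = C.e2 q * C.y (fun j => C.vR j (cl f h)) q ∧
    ((β + δ : ℕ) : ℤ) = C.lam q (algebraMap (RV f) 𝒦 (cl f h)) ∧
    AnalyticAt ℂ u 0 ∧ AnalyticAt ℂ g 0 ∧ g 0 ≠ 0 ∧
    (∀ᶠ p in 𝓝 (0 : ℂ × ℂ), h (ch p) = p.1 ^ α * p.2 ^ β * u p) ∧
    (∀ᶠ b in 𝓝 (0 : ℂ), u (0, b) = b ^ δ * g b) := by
  have hz : algebraMap (RV f) 𝒦 (cl f h) ≠ 0 := C.map_ne h0
  have hs : ser2 (fun p => h (ch p)) ≠ 0 := by
    intro h1
    rw [h1, map_zero, map_eq_zero] at hψ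
    exact hz hψ
  have e1 : (sA (ser2 fun p => h (ch p))).order = ka * C.vR q.1 (cl f h) := by
    rw [sA_order_eq, ← hψ, hv _ hz]
    rfl
  have e2 : (lam (sA (ser2 fun p => h (ch p)))).2 = C.lam q (algebraMap (RV f) 𝒦 (cl f h)) := by
    rw [Ta_sA, ← hψ, hl _ hz]
  have hα0 : 0 ≤ (ka : ℤ) * C.vR q.1 (cl f h) :=
    mul_nonneg (Int.natCast_nonneg _) (C.vR_nonneg _ h0)
  obtain ⟨α, hα⟩ := Int.eq_ofNat_of_zero_le hα0
  -- the second exponent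
  obtain ⟨β, hβ, hβ'⟩ : ∃ β : ℕ, (β : ℤ) = C.e2 q * C.y (fun j => C.vR j (cl f h)) q ∧
      (β : ℤ) ≤ (sB (ser2 fun p => h (ch p))).order := by
    rcases hn : C.nb q with _ | q'
    · refine ⟨0, ?_, ?_⟩
      · simp [H955.CModel.y, hn]
      · exact order_sA_nonneg _
    · have hb' : (sB (ser2 fun p => h (ch p))).order = C.e2 q * C.vR q'.1 (cl f h) := by
        rw [sB_order_eq, ← hψ, hb q' hn _ hz]
        rfl
      have h1 : 0 ≤ C.e2 q * C.vR q'.1 (cl f h) :=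
        mul_nonneg (C.e2_pos q).le (C.vR_nonneg _ h0)
      obtain ⟨β, hβ⟩ := Int.eq_ofNat_of_zero_le h1
      refine ⟨β, ?_, ?_⟩
      · simp only [H955.CModel.y, hn]
        exact hβ.symm
      · rw [hb', hβ]
  obtain ⟨δ, u, g, hu, hg, hg0, hx, hbb, hd⟩ := exists_ord_form han hs (α := α) (β := β)
    (by rw [← hα]; exact e1) hβ'
  exact ⟨α, β, δ, u, g, hα.symm, hβ, hd.trans e2, hu, hg, hg0, hx, hbb⟩

/-- **the field `zero` of `Link`.** -/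
theorem link_zero {𝒦 : Type*} [Field 𝒦] [Algebra (RV f) 𝒦] (ψ : 𝒦 →+* Om)
    {ch : ℂ × ℂ → Fin 3 → ℂ} {h : (Fin 3 → ℂ) → ℂ}
    (hψ : ψ (algebraMap (RV f) 𝒦 (cl f h)) =
      algebraMap (MvPowerSeries (Fin 2) ℂ) Om (ser2 fun p => h (ch p)))
    (han : AnalyticAt ℂ (fun p => h (ch p)) 0) (h0 : cl f h = 0) :
    ∀ᶠ p in 𝓝 (0 : ℂ × ℂ), h (ch p) = 0 := by
  rw [h0, map_zero, map_zero] at hψ
  exact (ser2_eq_zero_iff han).1 ((IsFractionRing.injective (MvPowerSeries (Fin 2) ℂ) Om)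
    (by rw [← hψ, map_zero]))

end ord

end Vale.Agent.P298.H701
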