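import Vale.Agent.P298.H701.Srf3

/-!
# P298, row SURF-IN (helper701), part 4: the two charts of a node
-/

noncomputable section

namespace Vale.Agent.P298.H701

open Filter Topology Metric Vale.Agent.P298 Vale.Agent.P298.H766 Vale.Agent.P298.H707
  Vale.Agent.P298.H379 Vale.Agent.P298.H983 Polynomial

/-- exchange of the variables on the fraction field -/
def swL : LL2 →+* LL2 :=
  IsFractionRing.lift (g := (algebraMap R2 LL2).comp (sw : R2 →+* R2))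
    ((IsFractionRing.injective R2 LL2).comp sw_injective)

theorem swL_algebraMap (F : R2) : swL (algebraMap R2 LL2 F) = algebraMap R2 LL2 (sw F) :=
  IsFractionRing.lift_algebraMap _ F

theorem swL_swL (x : LL2) : swL (swL x) = x := by
  refine liftL_ext (α := swL.comp swL) (β := RingHom.id LL2) (fun F => ?_) x
  rw [RingHom.comp_apply, swL_algebraMap, swL_algebraMap, sw_sw]
  rfl

variable {Θ Θ' : ℂ × ℂ → ℂ × ℂ} {K : ℕ}

theorem bas_swap (hs : ∀ q : ℂ × ℂ, Θ' q = Θ (q.2, q.1)) (hΘ : AnalyticAt ℂ Θ 0) (h0 : Θ 0 = 0)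
    (hΘ' : AnalyticAt ℂ Θ' 0) (h0' : Θ' 0 = 0) (hK : K ≠ 0) (F : R2) :
    bas (tk Θ' K) (an_tk hΘ' hK) (tk_zero h0' hK) F =
      sw (bas (tk Θ K) (an_tk hΘ hK) (tk_zero h0 hK) F) := by
  have ht : ∀ q : ℂ × ℂ, tk Θ' K q = tk Θ K (q.2, q.1) := fun q => hs _
  have h : bas (tk Θ' K) (an_tk hΘ' hK) (tk_zero h0' hK) =
      sw.comp (bas (tk Θ K) (an_tk hΘ hK) (tk_zero h0 hK)) := by
    refine algHom_ext fun i => ?_
    rw [AlgHom.comp_apply]
    fin_cases i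
    · have e1 : bas (tk Θ' K) (an_tk hΘ' hK) (tk_zero h0' hK) (MvPowerSeries.X 0) =
          ser2 fun q => (tk Θ' K q).1 := by
        rw [bas, subΦ, sub_X]
        rfl
      have e2 : bas (tk Θ K) (an_tk hΘ hK) (tk_zero h0 hK) (MvPowerSeries.X 0) =
          ser2 fun q => (tk Θ K q).1 := by
        rw [bas, subΦ, sub_X]
        rfl
      change bas (tk Θ' K) (an_tk hΘ' hK) (tk_zero h0' hK) (MvPowerSeries.X 0) =
        sw (bas (tk Θ K) (an_tk hΘ hK) (tk_zero h0 hK) (MvPowerSeries.X 0))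
      rw [e1, e2, sw_ser2 (analyticAt_fst_apply (an_tk hΘ hK))]
      simp only [ht]
    · have e1 : bas (tk Θ' K) (an_tk hΘ' hK) (tk_zero h0' hK) (MvPowerSeries.X 1) =
          ser2 fun q => (tk Θ' K q).2 := by
        rw [bas, subΦ, sub_X]
        rfl
      have e2 : bas (tk Θ K) (an_tk hΘ hK) (tk_zero h0 hK) (MvPowerSeries.X 1) =
          ser2 fun q => (tk Θ K q).2 := by
        rw [bas, subΦ, sub_X]
        rfl
      change bas (tk Θ' K) (an_tk hΘ' hK) (tk_zero h0' hK) (MvPowerSeries.X 1) =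
        sw (bas (tk Θ K) (an_tk hΘ hK) (tk_zero h0 hK) (MvPowerSeries.X 1))
      rw [e1, e2, sw_ser2 (analyticAt_snd_apply (an_tk hΘ hK))]
      simp only [ht]
  exact DFunLike.congr_fun h F

theorem liftL_swap (hs : ∀ q : ℂ × ℂ, Θ' q = Θ (q.2, q.1)) (hΘ : AnalyticAt ℂ Θ 0) (h0 : Θ 0 = 0)
    (hJ : ∃ᶠ q in 𝓝 (0 : ℂ × ℂ), jacP Θ q ≠ 0) (hΘ' : AnalyticAt ℂ Θ' 0) (h0' : Θ' 0 = 0)
    (hJ' : ∃ᶠ q in 𝓝 (0 : ℂ × ℂ), jacP Θ' q ≠ 0) (hK : K ≠ 0) (x : LL2) :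
    liftL (tau Θ' hΘ' h0' K hK) (tau_injective hΘ' h0' hJ' hK) x =
      swL (liftL (tau Θ hΘ h0 K hK) (tau_injective hΘ h0 hJ hK) x) := by
  refine liftL_ext (β := swL.comp (liftL (tau Θ hΘ h0 K hK) (tau_injective hΘ h0 hJ hK)))
    (fun F => ?_) x
  rw [RingHom.comp_apply, liftL_apply, liftL_apply, tau_apply, tau_apply, swL_algebraMap,
    bas_swap hs hΘ h0 hΘ' h0' hK]

variable {f : (Fin 3 → ℂ) → ℂ} {n : ℕ} {P : ℂ × ℂ → ℂ[X]} {v : ℂ × (ℂ × ℂ) → ℂ}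
  {ζ ζ' : Fin n → ℂ × ℂ → ℂ} {σ ρ σ' ρ' : Equiv.Perm (Fin n)}

/-- **matching of the roots in the two charts of a node** -/
theorem exists_match (W : WD f n P v) (Z : CR P Θ n K ζ σ ρ) (Z' : CR P Θ' n K ζ' σ' ρ')
    (hs : ∀ q : ℂ × ℂ, Θ' q = Θ (q.2, q.1)) (hΘ : AnalyticAt ℂ Θ 0) (h0 : Θ 0 = 0)
    (hΘ' : AnalyticAt ℂ Θ' 0) (h0' : Θ' 0 = 0) :
    ∃ e : Equiv.Perm (Fin n), ∀ l, ser2 (ζ' (e l)) = sw (ser2 (ζ l)) := by
  have h1 := map_serPoly W Z hΘ h0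
  have h2 := map_serPoly W Z' hΘ' h0'
  have h3 : (bas (tk Θ' K) (an_tk hΘ' Z'.hK) (tk_zero h0' Z'.hK) : R2 →+* R2) =
      (sw : R2 →+* R2).comp (bas (tk Θ K) (an_tk hΘ Z.hK) (tk_zero h0 Z.hK) : R2 →+* R2) := by
    ext1 F
    exact bas_swap hs hΘ h0 hΘ' h0' Z.hK F
  rw [h3, ← Polynomial.map_map, h1, Polynomial.map_prod] at h2
  have h4 : ∀ l, ∃ l', ser2 (ζ' l') = sw (ser2 (ζ l)) := by
    intro l
    have h5 := congrArg (Polynomial.eval (sw (ser2 (ζ l)))) h2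
    rw [eval_prod, eval_prod, Finset.prod_eq_zero (Finset.mem_univ l)] at h5
    · obtain ⟨l', -, h6⟩ := Finset.prod_eq_zero_iff.1 h5.symm
      refine ⟨l', ?_⟩
      rw [eval_sub, eval_X, eval_C, sub_eq_zero] at h6
      exact h6.symm
    · rw [Polynomial.map_sub, Polynomial.map_X, Polynomial.map_C, eval_sub, eval_X, eval_C]
      exact sub_self _
  choose e he using h4
  have hi : Function.Injective e := by
    intro i j hij
    refine ser2_zeta_injective Z (sw_injective ?_)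
    simp only
    rw [← he i, ← he j, hij]
  exact ⟨Equiv.ofBijective e (Finite.injective_iff_bijective.1 hi), he⟩

/-- exchange of the variables and rotations -/
theorem sw_rsc (ω ω' : ℂ) (F : R2) : sw (rsc ω ω' F) = rsc ω' ω (sw F) := by
  have h : sw.comp (rsc ω ω') = (rsc ω' ω).comp sw := by
    refine algHom_ext fun i => ?_
    fin_cases i
    · change sw (rsc ω ω' (MvPowerSeries.X 0)) = rsc ω' ω (sw (MvPowerSeries.X 0))
      rw [rsc_X0, map_smul, sw_X0, rsc_X1]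
    · change sw (rsc ω ω' (MvPowerSeries.X 1)) = rsc ω' ω (sw (MvPowerSeries.X 1))
      rw [rsc_X1, map_smul, sw_X1, rsc_X0]
  exact DFunLike.congr_fun h F

theorem match_sigma (Z : CR P Θ n K ζ σ ρ) (Z' : CR P Θ' n K ζ' σ' ρ') {e : Equiv.Perm (Fin n)}
    (he : ∀ l, ser2 (ζ' (e l)) = sw (ser2 (ζ l))) (l : Fin n) : σ' (e l) = e (ρ l) := by
  refine ser2_zeta_injective Z' ?_
  simp only
  have h1 : ser2 (ζ' (σ' (e l))) = rsc (omg K) 1 (ser2 (ζ' (e l))) := by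
    rw [rsc_ser2 _ _ (Z'.hol _)]
    refine ser2_congr ?_
    filter_upwards [Z'.mon1] with q hq
    rw [one_mul]
    exact (hq (e l)).symm
  have h2 : ser2 (ζ (ρ l)) = rsc 1 (omg K) (ser2 (ζ l)) := by
    rw [rsc_ser2 _ _ (Z.hol _)]
    refine ser2_congr ?_
    filter_upwards [Z.mon2] with q hq
    rw [one_mul]
    exact (hq l).symm
  rw [h1, he, he, h2, sw_rsc]

theorem match_rho (Z : CR P Θ n K ζ σ ρ) (Z' : CR P Θ' n K ζ' σ' ρ') {e : Equiv.Perm (Fin n)}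
    (he : ∀ l, ser2 (ζ' (e l)) = sw (ser2 (ζ l))) (l : Fin n) : ρ' (e l) = e (σ l) := by
  refine ser2_zeta_injective Z' ?_
  simp only
  have h1 : ser2 (ζ' (ρ' (e l))) = rsc 1 (omg K) (ser2 (ζ' (e l))) := by
    rw [rsc_ser2 _ _ (Z'.hol _)]
    refine ser2_congr ?_
    filter_upwards [Z'.mon2] with q hq
    rw [one_mul]
    exact (hq (e l)).symm
  have h2 : ser2 (ζ (σ l)) = rsc (omg K) 1 (ser2 (ζ l)) := by
    rw [rsc_ser2 _ _ (Z.hol _)]
    refine ser2_congr ?_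
    filter_upwards [Z.mon1] with q hq
    rw [one_mul]
    exact (hq l).symm
  rw [h1, he, he, h2, sw_rsc]

variable [hirr : Fact (Irreducible (PL n P))]

/-- **the embeddings of the two charts of a node** -/
theorem psiC_match (W : WD f n P v) (Z : CR P Θ n K ζ σ ρ) (Z' : CR P Θ' n K ζ' σ' ρ')
    (hs : ∀ q : ℂ × ℂ, Θ' q = Θ (q.2, q.1)) (hΘ : AnalyticAt ℂ Θ 0) (h0 : Θ 0 = 0)
    (hJ : ∃ᶠ q in 𝓝 (0 : ℂ × ℂ), jacP Θ q ≠ 0) (hΘ' : AnalyticAt ℂ Θ' 0) (h0' : Θ' 0 = 0)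
    (hJ' : ∃ᶠ q in 𝓝 (0 : ℂ × ℂ), jacP Θ' q ≠ 0) {l l' : Fin n}
    (he : ser2 (ζ' l') = sw (ser2 (ζ l))) :
    psiC W Z' hΘ' h0' hJ' l' = swL.comp (psiC W Z hΘ h0 hJ l) := by
  refine KF_hom_ext (fun x => ?_) ?_
  · rw [RingHom.comp_apply, psiC_algebraMap, psiC_algebraMap]
    exact liftL_swap hs hΘ h0 hJ hΘ' h0' hJ' Z.hK x
  · rw [RingHom.comp_apply, psiC_root, psiC_root, swL_algebraMap, he]

end Vale.Agent.P298.H701
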