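import Vale.Agent.P298.H701.Br9
import Vale.Agent.P298.H766.Fld2

/-!
# P298, row SURF-IN (helper701), part 1: the function field of the surface
-/

noncomputable section

namespace Vale.Agent.P298.H701

open Filter Topology Metric Vale.Agent.P298 Vale.Agent.P298.H766 Vale.Agent.P298.H707
  Vale.Agent.P298.H379 Vale.Agent.P298.H983 Polynomial

/-- the base ring -/
abbrev R2 : Type := MvPowerSeries (Fin 2) ℂ

/-- the ring of the ambient space -/
abbrev R3 : Type := MvPowerSeries (Fin 3) ℂ

/-- the base field -/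
abbrev LL2 : Type := FractionRing R2

/-! ### the variables -/

theorem lastEquiv_incl (F : R2) : lastEquiv 2 (incl F) = PowerSeries.C F := by
  let c : R2 →ₐ[ℂ] PowerSeries R2 :=
    { (PowerSeries.C : R2 →+* PowerSeries R2) with commutes' := fun r => (PowerSeries.algebraMap_apply).symm }
  have h : incl = ((lastEquiv 2).symm : PowerSeries R2 →ₐ[ℂ] R3).comp c := by
    refine algHom_ext fun i => ?_
    rw [AlgHom.comp_apply]
    have h1 : c (MvPowerSeries.X i) = PowerSeries.C (MvPowerSeries.X i) := rfl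
    rw [h1, ← lastEquiv_X_castSucc i]
    have h2 : ((lastEquiv 2).symm : PowerSeries R2 →ₐ[ℂ] R3)
        (lastEquiv 2 (MvPowerSeries.X i.castSucc)) = MvPowerSeries.X i.castSucc :=
      (lastEquiv 2).symm_apply_apply _
    rw [h2]
    fin_cases i
    · exact incl_X0
    · exact incl_X1
  rw [h]
  exact (lastEquiv 2).apply_symm_apply _

theorem lastEquiv_eval₂ (q : R2[X]) :
    lastEquiv 2 (q.eval₂ (incl : R2 →+* R3) (MvPowerSeries.X 2)) = (q : PowerSeries R2) := by
  have h : (lastEquiv 2 : R3 →+* PowerSeries R2).comp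
      (Polynomial.eval₂RingHom (incl : R2 →+* R3) (MvPowerSeries.X 2)) =
      Polynomial.coeToPowerSeries.ringHom := by
    refine Polynomial.ringHom_ext (fun a => ?_) ?_
    · rw [RingHom.comp_apply, Polynomial.coe_eval₂RingHom, Polynomial.eval₂_C,
        Polynomial.coeToPowerSeries.ringHom_apply, Polynomial.coe_C]
      exact lastEquiv_incl a
    · rw [RingHom.comp_apply, Polynomial.coe_eval₂RingHom, Polynomial.eval₂_X,
        Polynomial.coeToPowerSeries.ringHom_apply, Polynomial.coe_X]
      exact lastEquiv_X_last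
  have h2 := congrArg (fun φ => φ q) h
  rw [Polynomial.coeToPowerSeries.ringHom_apply] at h2
  exact h2

/-! ### the Weierstrass polynomial -/

variable {f : (Fin 3 → ℂ) → ℂ} {n : ℕ} {P : ℂ × ℂ → ℂ[X]} {v : ℂ × (ℂ × ℂ) → ℂ}

theorem monicSer (W : WD f n P v) : (serPoly n P).Monic := (serPoly_monic W.monic W.deg).1

theorem natDegreeSer (W : WD f n P v) : (serPoly n P).natDegree = n :=
  (serPoly_monic W.monic W.deg).2

theorem distSer (W : WD f n P v) :
    (serPoly n P).IsDistinguishedAt (IsLocalRing.maximalIdeal R2) := by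
  refine ⟨⟨fun {i} hi => ?_⟩, monicSer W⟩
  rw [natDegreeSer W] at hi
  rw [coeff_serPoly, if_pos hi.le, mem_maximalIdeal_iff, constantCoeff_ser2 (W.hol i), W.zero,
    coeff_X_pow, if_neg hi.ne]

theorem factSer (hf : Hol f) (W : WD f n P v) :
    ∃ h, (lastEquiv 2 (ser f)).IsWeierstrassFactorization (serPoly n P) h := by
  obtain ⟨V, hV, h1⟩ := ser_WD hf W
  obtain ⟨V', rfl⟩ := hV
  refine ⟨lastEquiv 2 (V'⁻¹ : R3ˣ), distSer W, (V'⁻¹).isUnit.map (lastEquiv 2), ?_⟩
  rw [← lastEquiv_eval₂, ← h1, ← map_mul, mul_assoc, Units.mul_inv, mul_one]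

/-- the Weierstrass polynomial over the base field -/
def PL (n : ℕ) (P : ℂ × ℂ → ℂ[X]) : LL2[X] := (serPoly n P).map (algebraMap R2 LL2)

theorem monicPL (W : WD f n P v) : (PL n P).Monic := (monicSer W).map _

theorem natDegreePL (W : WD f n P v) : (PL n P).natDegree = n := by
  rw [PL, (monicSer W).natDegree_map, natDegreeSer W]

theorem irreduciblePL (hf : Hol f) (W : WD f n P v) (hirr : Irreducible (ser f)) :
    Irreducible (PL n P) := by
  obtain ⟨h, H⟩ := factSer hf W
  refine irreducible_of_distinguished H.isDistinguishedAt ?_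
  have h3 : Irreducible (lastEquiv 2 (ser f)) := (MulEquiv.irreducible_iff (lastEquiv 2)).2 hirr
  have h4 : Associated (serPoly n P : PowerSeries R2) (lastEquiv 2 (ser f)) :=
    ⟨H.isUnit.unit, H.eq_mul.symm⟩
  exact h4.irreducible_iff.2 h3

end Vale.Agent.P298.H701
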