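import Vale.Agent.P298.H701.Srf

/-!
# P298, row SURF-IN (helper701), part 2: the field, the embedding of the local ring, fractions,
embeddings given by charts
-/

noncomputable section

namespace Vale.Agent.P298.H701

open Filter Topology Metric Vale.Agent.P298 Vale.Agent.P298.H766 Vale.Agent.P298.H707
  Vale.Agent.P298.H379 Vale.Agent.P298.H983 Polynomial

variable {f : (Fin 3 → ℂ) → ℂ} {n : ℕ} {P : ℂ × ℂ → ℂ[X]} {v : ℂ × (ℂ × ℂ) → ℂ}

/-- the function field of the surface -/
abbrev KF (n : ℕ) (P : ℂ × ℂ → ℂ[X]) : Type := AdjoinRoot (PL n P)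

/-- the local ring of the surface -/
abbrev RS (f : (Fin 3 → ℂ) → ℂ) : Type := R3 ⧸ Ideal.span {ser f}

/-- the embedding of `R2[z]` in the ring of the ambient space -/
def pz (q : R2[X]) : R3 := q.eval₂ (incl : R2 →+* R3) (MvPowerSeries.X 2)

theorem finrank_KF (W : WD f n P v) : Module.finrank LL2 (KF n P) = n := by
  rw [(AdjoinRoot.powerBasis (monicPL W).ne_zero).finrank, AdjoinRoot.powerBasis_dim,
    natDegreePL W]

theorem finite_KF (W : WD f n P v) : Module.Finite LL2 (KF n P) :=
  (AdjoinRoot.powerBasis (monicPL W).ne_zero).finite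

theorem exists_rk (hf : Hol f) (W : WD f n P v) [Fact (Irreducible (PL n P))] :
    ∃ rk : RS f →+* KF n P, Function.Injective rk ∧
      (∀ q : R2[X], rk (Ideal.Quotient.mk _ (pz q)) = aeval (AdjoinRoot.root (PL n P)) q) ∧
      (∀ g : RS f, ∃ q : R2[X], g = Ideal.Quotient.mk _ (pz q)) := by
  obtain ⟨h, H⟩ := factSer hf W
  obtain ⟨θ, h1, h2, h3⟩ := exists_theta H (L := LL2) (K := KF n P) (AdjoinRoot.root (PL n P))
    (fun q => by
      rw [AdjoinRoot.aeval_eq, AdjoinRoot.mk_eq_zero]
      rfl)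
  have h4 : ∀ g : R3, g ∈ Ideal.span {ser f} ↔ θ (lastEquiv 2 g) = 0 := by
    intro g
    rw [h1, Ideal.mem_span_singleton]
    exact (map_dvd_iff (lastEquiv 2)).symm
  let rk : RS f →+* KF n P := Ideal.Quotient.lift (Ideal.span {ser f})
    ((θ : PowerSeries R2 →+* KF n P).comp (lastEquiv 2 : R3 →+* PowerSeries R2))
    (fun g hg => (h4 g).1 hg)
  have hrk : ∀ g : R3, rk (Ideal.Quotient.mk _ g) = θ (lastEquiv 2 g) := fun g => rfl
  refine ⟨rk, ?_, fun q => ?_, fun g => ?_⟩
  · rw [injective_iff_map_eq_zero]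
    intro g hg
    obtain ⟨g, rfl⟩ := Ideal.Quotient.mk_surjective g
    rw [hrk, ← h4] at hg
    exact Ideal.Quotient.eq_zero_iff_mem.2 hg
  · rw [hrk, pz, lastEquiv_eval₂, h3]
  · obtain ⟨g, rfl⟩ := Ideal.Quotient.mk_surjective g
    obtain ⟨q, hq⟩ := Ideal.Quotient.mk_surjective
      (H.algEquivQuotient.symm (Ideal.Quotient.mk _ (lastEquiv 2 g)))
    refine ⟨q, ?_⟩
    have h5 : H.algEquivQuotient (Ideal.Quotient.mk _ q) =
        Ideal.Quotient.mk _ (q : PowerSeries R2) := rfl
    rw [hq, AlgEquiv.apply_symm_apply, Ideal.Quotient.eq, Ideal.mem_span_singleton] at h5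
    rw [Ideal.Quotient.eq, Ideal.mem_span_singleton, ← map_dvd_iff (lastEquiv 2), map_sub, pz,
      lastEquiv_eval₂]
    exact h5

variable [hirr : Fact (Irreducible (PL n P))]

/-- the embedding of the local ring in the field -/
def rk (hf : Hol f) (W : WD f n P v) : RS f →+* KF n P := Classical.choose (exists_rk hf W)

theorem rk_injective (hf : Hol f) (W : WD f n P v) : Function.Injective (rk hf W) :=
  (Classical.choose_spec (exists_rk hf W)).1

theorem rk_pz (hf : Hol f) (W : WD f n P v) (q : R2[X]) :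
    rk hf W (Ideal.Quotient.mk _ (pz q)) = aeval (AdjoinRoot.root (PL n P)) q :=
  (Classical.choose_spec (exists_rk hf W)).2.1 q

theorem exists_pz (hf : Hol f) (W : WD f n P v) (g : RS f) :
    ∃ q : R2[X], g = Ideal.Quotient.mk _ (pz q) :=
  (Classical.choose_spec (exists_rk hf W)).2.2 g

theorem rk_incl (hf : Hol f) (W : WD f n P v) (F : R2) :
    rk hf W (Ideal.Quotient.mk _ (incl F)) = algebraMap R2 (KF n P) F := by
  have h1 : incl F = pz (C F) := by
    rw [pz, eval₂_C]
    rfl
  rw [h1, rk_pz, aeval_C]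

theorem rk_z (hf : Hol f) (W : WD f n P v) :
    rk hf W (Ideal.Quotient.mk _ (MvPowerSeries.X 2)) = AdjoinRoot.root (PL n P) := by
  have h1 : (MvPowerSeries.X 2 : R3) = pz X := by
    rw [pz, eval₂_X]
  rw [h1, rk_pz, aeval_X]

theorem incl_C (c : ℂ) : incl (MvPowerSeries.C c) = MvPowerSeries.C c := incl.commutes c

theorem rk_C (hf : Hol f) (W : WD f n P v) (c : ℂ) :
    rk hf W (algebraMap ℂ (RS f) c) = algebraMap ℂ (KF n P) c := by
  have h1 : algebraMap ℂ (RS f) c = Ideal.Quotient.mk _ (incl (MvPowerSeries.C c)) := by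
    rw [incl_C]
    rfl
  rw [h1, rk_incl, IsScalarTower.algebraMap_apply ℂ R2 (KF n P)]
  rfl

/-- **every element of the field is a fraction of elements of the local ring** -/
theorem frac (hf : Hol f) (W : WD f n P v) (z : KF n P) :
    ∃ g h : RS f, h ≠ 0 ∧ z * rk hf W h = rk hf W g := by
  obtain ⟨q, rfl⟩ := AdjoinRoot.mk_surjective z
  obtain ⟨b, hbm, hb⟩ := IsLocalization.integerNormalization_spec (nonZeroDivisors R2) q
  refine ⟨Ideal.Quotient.mk _ (pz (IsLocalization.integerNormalization (nonZeroDivisors R2) q)),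
    Ideal.Quotient.mk _ (incl b), ?_, ?_⟩
  · intro h0
    have h1 := congrArg (rk hf W) h0
    rw [rk_incl, map_zero, IsScalarTower.algebraMap_apply R2 LL2 (KF n P)] at h1
    have h2 : algebraMap R2 LL2 b = 0 := by
      by_contra hne
      exact ((map_ne_zero (algebraMap LL2 (KF n P))).2 hne) h1
    exact nonZeroDivisors.ne_zero hbm (IsFractionRing.injective R2 LL2 (by rw [h2, map_zero]))
  · rw [rk_incl, rk_pz, ← AdjoinRoot.aeval_eq]
    have h1 : aeval (AdjoinRoot.root (PL n P))
        (IsLocalization.integerNormalization (nonZeroDivisors R2) q) =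
        aeval (AdjoinRoot.root (PL n P))
          ((IsLocalization.integerNormalization (nonZeroDivisors R2) q).map
            (algebraMap R2 LL2)) := by
      rw [aeval_map_algebraMap]
    rw [h1, hb, ← algebraMap_smul LL2 b q, map_smul, Algebra.smul_def, mul_comm,
      ← IsScalarTower.algebraMap_apply R2 LL2 (KF n P)]

/-! ### embeddings -/

/-- extension of an injective homomorphism to the base field -/
def liftL (τ : R2 →+* LL2) (hτ : Function.Injective τ) : LL2 →+* LL2 := IsFractionRing.lift hτ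

theorem liftL_apply (τ : R2 →+* LL2) (hτ : Function.Injective τ) (F : R2) :
    liftL τ hτ (algebraMap R2 LL2 F) = τ F := IsFractionRing.lift_algebraMap hτ F

omit hirr in
theorem eval₂_PL (τ : R2 →+* LL2) (hτ : Function.Injective τ) (r : LL2) :
    (PL n P).eval₂ (liftL τ hτ) r = (serPoly n P).eval₂ τ r := by
  rw [PL, eval₂_map]
  congr 1
  ext1 F
  exact liftL_apply τ hτ F

/-- the embedding of the field given by a root -/
def psi (τ : R2 →+* LL2) (hτ : Function.Injective τ) (r : LL2)
    (hr : (serPoly n P).eval₂ τ r = 0) : KF n P →+* LL2 :=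
  AdjoinRoot.lift (liftL τ hτ) r (by rw [eval₂_PL, hr])

theorem psi_algebraMap (τ : R2 →+* LL2) (hτ : Function.Injective τ) (r : LL2)
    (hr : (serPoly n P).eval₂ τ r = 0) (x : LL2) :
    psi τ hτ r hr (algebraMap LL2 (KF n P) x) = liftL τ hτ x := by
  rw [psi, AdjoinRoot.algebraMap_eq, AdjoinRoot.lift_of]

theorem psi_root (τ : R2 →+* LL2) (hτ : Function.Injective τ) (r : LL2)
    (hr : (serPoly n P).eval₂ τ r = 0) :
    psi τ hτ r hr (AdjoinRoot.root (PL n P)) = r := by
  rw [psi, AdjoinRoot.lift_root]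

theorem psi_aeval (τ : R2 →+* LL2) (hτ : Function.Injective τ) (r : LL2)
    (hr : (serPoly n P).eval₂ τ r = 0) (q : R2[X]) :
    psi τ hτ r hr (aeval (AdjoinRoot.root (PL n P)) q) = q.eval₂ τ r := by
  have h : (psi τ hτ r hr).comp (aeval (AdjoinRoot.root (PL n P)) : R2[X] →ₐ[R2] KF n P).toRingHom =
      eval₂RingHom τ r := by
    refine ringHom_ext (fun a => ?_) ?_
    · rw [RingHom.comp_apply, coe_eval₂RingHom, eval₂_C]
      change psi τ hτ r hr (aeval (AdjoinRoot.root (PL n P)) (C a)) = τ a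
      rw [aeval_C, IsScalarTower.algebraMap_apply R2 LL2 (KF n P), psi_algebraMap, liftL_apply]
    · rw [RingHom.comp_apply, coe_eval₂RingHom, eval₂_X]
      change psi τ hτ r hr (aeval (AdjoinRoot.root (PL n P)) X) = r
      rw [aeval_X, psi_root]
  exact congrArg (fun φ => φ q) h

/-- **a homomorphism of `ℂ[[x, y, z]]` killing the equation, and the embedding of the field** -/
theorem psi_rk (hf : Hol f) (W : WD f n P v) (τ : R2 →+* R2) (r : R2)
    (c : R3 →+* R2) (hc : c (ser f) = 0) (hci : ∀ F : R2, c (incl F) = τ F)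
    (hcz : c (MvPowerSeries.X 2) = r)
    (hτ' : Function.Injective ((algebraMap R2 LL2).comp τ))
    (hr : (serPoly n P).eval₂ ((algebraMap R2 LL2).comp τ) (algebraMap R2 LL2 r) = 0) (g : R3) :
    psi ((algebraMap R2 LL2).comp τ) hτ' (algebraMap R2 LL2 r) hr
      (rk hf W (Ideal.Quotient.mk _ g)) = algebraMap R2 LL2 (c g) := by
  obtain ⟨q, hq⟩ := exists_pz hf W (Ideal.Quotient.mk _ g)
  rw [hq, rk_pz, psi_aeval]
  rw [Ideal.Quotient.eq, Ideal.mem_span_singleton] at hq
  obtain ⟨w, hw⟩ := hq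
  have h1 : c g = c (pz q) := by
    have h2 := congrArg c hw
    rw [map_sub, map_mul, hc, zero_mul, sub_eq_zero] at h2
    exact h2
  have h2 : c (pz q) = q.eval₂ τ r := by
    rw [pz, hom_eval₂, hcz]
    congr 1
    ext1 F
    exact hci F
  rw [h1, h2, hom_eval₂]

end Vale.Agent.P298.H701
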